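import Mathlib

/-!
Arithmetic for the top induction of the bit-plane argument (P328, BP)

Pure arithmetic, independent of the table model.  Symbols of the paper proof:
`M` bounds the numbers of rows and columns, `L0` bounds the number of binary digits of the
total, `W1 = 17 M^5 L0` is the peeling threshold, `A = 4 W1^2 M^5` the peeling constant,
`bound s = (1 + 1/L0)^s (A + 6 s)` the Poincare constant after `s` halvings,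
`d = (m-1)(n-1)` the number of free cells, `M0 = 8 d^2 L0` and `δ0 = 1/(8 d L0)`.
-/

namespace Vale.Agent.Lib.P328.BP.Arith

/-! ### The recursion `K ↦ (1 + 1/L0) K + 6` -/

theorem one_le_base (L0 : ℕ) : (1 : ℝ) ≤ 1 + 1 / (L0 : ℝ) := by
  have h : (0 : ℝ) ≤ 1 / (L0 : ℝ) := by positivity
  linarith

theorem one_le_base_pow (L0 s : ℕ) : (1 : ℝ) ≤ (1 + 1 / (L0 : ℝ)) ^ s :=
  one_le_pow₀ (one_le_base L0)

/-- `A ≤ bound s`. -/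
theorem le_bound (L0 : ℕ) {A : ℝ} (hA : 0 ≤ A) (s : ℕ) :
    A ≤ (1 + 1 / (L0 : ℝ)) ^ s * (A + 6 * (s : ℝ)) := by
  have h1 := one_le_base_pow L0 s
  have h2 : (0 : ℝ) ≤ (s : ℝ) := Nat.cast_nonneg s
  have h3 : A ≤ A + 6 * (s : ℝ) := by linarith
  calc A ≤ A + 6 * (s : ℝ) := h3
    _ = 1 * (A + 6 * (s : ℝ)) := by ring
    _ ≤ (1 + 1 / (L0 : ℝ)) ^ s * (A + 6 * (s : ℝ)) :=
        mul_le_mul_of_nonneg_right h1 (by linarith)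

/-- `bound` is nonnegative. -/
theorem bound_nonneg (L0 : ℕ) {A : ℝ} (hA : 0 ≤ A) (s : ℕ) :
    0 ≤ (1 + 1 / (L0 : ℝ)) ^ s * (A + 6 * (s : ℝ)) :=
  hA.trans (le_bound L0 hA s)

/-- `bound` is monotone in the number of halvings. -/
theorem bound_mono (L0 : ℕ) {A : ℝ} (hA : 0 ≤ A) {s t : ℕ} (h : s ≤ t) :
    (1 + 1 / (L0 : ℝ)) ^ s * (A + 6 * (s : ℝ))
      ≤ (1 + 1 / (L0 : ℝ)) ^ t * (A + 6 * (t : ℝ)) := by
  have h1 : (1 + 1 / (L0 : ℝ)) ^ s ≤ (1 + 1 / (L0 : ℝ)) ^ t :=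
    pow_le_pow_right₀ (one_le_base L0) h
  have h2 : (s : ℝ) ≤ (t : ℝ) := by exact_mod_cast h
  have h3 : (0 : ℝ) ≤ (s : ℝ) := Nat.cast_nonneg s
  have h4 : (0 : ℝ) ≤ (1 + 1 / (L0 : ℝ)) ^ t := le_trans zero_le_one (one_le_base_pow L0 t)
  exact mul_le_mul h1 (by linarith) (by linarith) h4

/-- One halving step: `(1 + 1/L0) * bound s + 6 ≤ bound (s + 1)`. -/
theorem bound_step (L0 : ℕ) (A : ℝ) (s : ℕ) :
    (1 + 1 / (L0 : ℝ)) * ((1 + 1 / (L0 : ℝ)) ^ s * (A + 6 * (s : ℝ))) + 6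
      ≤ (1 + 1 / (L0 : ℝ)) ^ (s + 1) * (A + 6 * ((s + 1 : ℕ) : ℝ)) := by
  have h1 := one_le_base_pow L0 (s + 1)
  have e : (1 + 1 / (L0 : ℝ)) ^ (s + 1) * (A + 6 * ((s + 1 : ℕ) : ℝ))
      = (1 + 1 / (L0 : ℝ)) * ((1 + 1 / (L0 : ℝ)) ^ s * (A + 6 * (s : ℝ)))
        + 6 * (1 + 1 / (L0 : ℝ)) ^ (s + 1) := by
    push_cast
    ring
  rw [e]
  linarith

/-- One halving step from any constant below `bound s'`, `s' < s`. -/
theorem bound_step_of_le (L0 : ℕ) {A K : ℝ} (hA : 0 ≤ A) {s' s : ℕ} (hs : s' + 1 ≤ s)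
    (hK : K ≤ (1 + 1 / (L0 : ℝ)) ^ s' * (A + 6 * (s' : ℝ))) :
    (1 + 1 / (L0 : ℝ)) * K + 6 ≤ (1 + 1 / (L0 : ℝ)) ^ s * (A + 6 * (s : ℝ)) := by
  have h0 : (0 : ℝ) ≤ 1 + 1 / (L0 : ℝ) := le_trans zero_le_one (one_le_base L0)
  have h1 : (1 + 1 / (L0 : ℝ)) * K + 6
      ≤ (1 + 1 / (L0 : ℝ)) * ((1 + 1 / (L0 : ℝ)) ^ s' * (A + 6 * (s' : ℝ))) + 6 := by
    have := mul_le_mul_of_nonneg_left hK h0
    linarith
  exact h1.trans ((bound_step L0 A s').trans (bound_mono L0 hA hs))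

/-- `(1 + 1/L0)^s ≤ 3` as long as `s ≤ L0`. -/
theorem base_pow_le_three {L0 s : ℕ} (hs : s ≤ L0) : (1 + 1 / (L0 : ℝ)) ^ s ≤ 3 := by
  rcases Nat.eq_zero_or_pos L0 with h0 | hpos
  · subst h0
    have hs0 : s = 0 := by omega
    subst hs0
    norm_num
  · have hL : (0 : ℝ) < (L0 : ℝ) := by exact_mod_cast hpos
    have h1 : (1 + 1 / (L0 : ℝ)) ^ s ≤ (1 + 1 / (L0 : ℝ)) ^ L0 :=
      pow_le_pow_right₀ (one_le_base L0) hs
    have h2 : 1 + 1 / (L0 : ℝ) ≤ Real.exp (1 / (L0 : ℝ)) := by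
      have := Real.add_one_le_exp (1 / (L0 : ℝ))
      linarith
    have h3 : (1 + 1 / (L0 : ℝ)) ^ L0 ≤ Real.exp (1 / (L0 : ℝ)) ^ L0 :=
      pow_le_pow_left₀ (le_trans zero_le_one (one_le_base L0)) h2 L0
    have h4 : Real.exp (1 / (L0 : ℝ)) ^ L0 = Real.exp 1 := by
      rw [← Real.exp_nat_mul]
      congr 1
      field_simp
    have h5 : Real.exp 1 ≤ 3 := by
      have := Real.exp_one_lt_d9
      linarith
    linarith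

/-! ### The final constant -/

/-- `3 (A + 6 L0) ≤ 3500 M^15 L0^2` with `A = 4 (17 M^5 L0)^2 M^5`. -/
theorem three_mul_const_le {M L0 : ℕ} (hM : 1 ≤ M) (hL : 1 ≤ L0) :
    3 * (4 * (17 * (M : ℝ) ^ 5 * (L0 : ℝ)) ^ 2 * (M : ℝ) ^ 5 + 6 * (L0 : ℝ))
      ≤ 3500 * (M : ℝ) ^ 15 * (L0 : ℝ) ^ 2 := by
  have hM' : (1 : ℝ) ≤ (M : ℝ) := by exact_mod_cast hM
  have hL' : (1 : ℝ) ≤ (L0 : ℝ) := by exact_mod_cast hL
  have h15 : (1 : ℝ) ≤ (M : ℝ) ^ 15 := one_le_pow₀ hM'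
  have hL2 : (L0 : ℝ) ≤ (L0 : ℝ) ^ 2 := by nlinarith
  have hprod : (L0 : ℝ) ≤ (M : ℝ) ^ 15 * (L0 : ℝ) ^ 2 := by
    calc (L0 : ℝ) = 1 * (L0 : ℝ) := by ring
      _ ≤ (M : ℝ) ^ 15 * (L0 : ℝ) ^ 2 :=
          mul_le_mul h15 hL2 (by linarith) (by linarith)
  have e : 3 * (4 * (17 * (M : ℝ) ^ 5 * (L0 : ℝ)) ^ 2 * (M : ℝ) ^ 5 + 6 * (L0 : ℝ))
      = 3468 * ((M : ℝ) ^ 15 * (L0 : ℝ) ^ 2) + 18 * (L0 : ℝ) := by ring
  rw [e]
  nlinarith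

/-- The Poincare constant after at most `L0` halvings is at most `3500 M^15 L0^2`. -/
theorem bound_le_final {M L0 s : ℕ} (hM : 1 ≤ M) (hL : 1 ≤ L0) (hs : s ≤ L0) :
    (1 + 1 / (L0 : ℝ)) ^ s
        * (4 * (17 * (M : ℝ) ^ 5 * (L0 : ℝ)) ^ 2 * (M : ℝ) ^ 5 + 6 * (s : ℝ))
      ≤ 3500 * (M : ℝ) ^ 15 * (L0 : ℝ) ^ 2 := by
  have h3 := base_pow_le_three hs
  have hs' : (s : ℝ) ≤ (L0 : ℝ) := by exact_mod_cast hs
  have hs0 : (0 : ℝ) ≤ (s : ℝ) := Nat.cast_nonneg s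
  have hA : (0 : ℝ) ≤ 4 * (17 * (M : ℝ) ^ 5 * (L0 : ℝ)) ^ 2 * (M : ℝ) ^ 5 := by positivity
  have hpow : (0 : ℝ) ≤ (1 + 1 / (L0 : ℝ)) ^ s := le_trans zero_le_one (one_le_base_pow L0 s)
  calc (1 + 1 / (L0 : ℝ)) ^ s
        * (4 * (17 * (M : ℝ) ^ 5 * (L0 : ℝ)) ^ 2 * (M : ℝ) ^ 5 + 6 * (s : ℝ))
      ≤ 3 * (4 * (17 * (M : ℝ) ^ 5 * (L0 : ℝ)) ^ 2 * (M : ℝ) ^ 5 + 6 * (L0 : ℝ)) :=
        mul_le_mul h3 (by linarith) (by linarith) (by norm_num)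
    _ ≤ 3500 * (M : ℝ) ^ 15 * (L0 : ℝ) ^ 2 := three_mul_const_le hM hL

/-- The peeling constant of a class with at most `M` rows and columns is at most `A`. -/
theorem peel_const_le {M m n : ℕ} (hm : m ≤ M) (hn : n ≤ M) (W : ℝ) :
    4 * W ^ 2 * (n : ℝ) ^ 4 * (m : ℝ) ≤ 4 * W ^ 2 * (M : ℝ) ^ 5 := by
  have hm' : (m : ℝ) ≤ (M : ℝ) := by exact_mod_cast hm
  have hn' : (n : ℝ) ≤ (M : ℝ) := by exact_mod_cast hn
  have hn0 : (0 : ℝ) ≤ (n : ℝ) := Nat.cast_nonneg n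
  have hm0 : (0 : ℝ) ≤ (m : ℝ) := Nat.cast_nonneg m
  have h4 : (n : ℝ) ^ 4 ≤ (M : ℝ) ^ 4 := pow_le_pow_left₀ hn0 hn' 4
  have h5 : (n : ℝ) ^ 4 * (m : ℝ) ≤ (M : ℝ) ^ 4 * (M : ℝ) :=
    mul_le_mul h4 hm' hm0 (by positivity)
  have hW : (0 : ℝ) ≤ 4 * W ^ 2 := by positivity
  calc 4 * W ^ 2 * (n : ℝ) ^ 4 * (m : ℝ) = 4 * W ^ 2 * ((n : ℝ) ^ 4 * (m : ℝ)) := by ring
    _ ≤ 4 * W ^ 2 * ((M : ℝ) ^ 4 * (M : ℝ)) := mul_le_mul_of_nonneg_left h5 hW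
    _ = 4 * W ^ 2 * (M : ℝ) ^ 5 := by ring

/-! ### Free cells, half margins, zero probabilities -/

/-- The number of free cells is at most `M^2`. -/
theorem free_cells_le {M m n : ℕ} (hm : m ≤ M) (hn : n ≤ M) :
    (m - 1) * (n - 1) ≤ M ^ 2 := by
  have h1 : m - 1 ≤ M := by omega
  have h2 : n - 1 ≤ M := by omega
  calc (m - 1) * (n - 1) ≤ M * M := Nat.mul_le_mul h1 h2
    _ = M ^ 2 := by ring

/-- Margins of a half class: if a margin `x` of the class is at least `W1 = 17 M^5 L0` and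
`b ≤ M` units are removed before halving, then `k * M0 ≤ (x - b) / 2` for every `k ≤ M`,
where `M0 = 8 d^2 L0` and `d ≤ M^2`. -/
theorem half_margin {M L0 d k x b : ℕ} (hL : 1 ≤ L0) (hd : d ≤ M ^ 2) (hk : k ≤ M)
    (hx : 17 * M ^ 5 * L0 ≤ x) (hb : b ≤ M) :
    k * (8 * d ^ 2 * L0) ≤ (x - b) / 2 := by
  rw [Nat.le_div_iff_mul_le (by norm_num : 0 < 2)]
  have hd2 : d ^ 2 ≤ (M ^ 2) ^ 2 := Nat.pow_le_pow_left hd 2
  have h1 : k * (8 * d ^ 2 * L0) ≤ M * (8 * (M ^ 2) ^ 2 * L0) :=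
    Nat.mul_le_mul hk (Nat.mul_le_mul (Nat.mul_le_mul (le_refl 8) hd2) (le_refl L0))
  have e1 : M * (8 * (M ^ 2) ^ 2 * L0) = 8 * (M ^ 5 * L0) := by ring
  have hML : M ≤ M ^ 5 * L0 := by
    rcases Nat.eq_zero_or_pos M with h0 | hpos
    · subst h0
      exact Nat.zero_le _
    · have h5 : M ≤ M ^ 5 := Nat.le_self_pow (by norm_num) M
      calc M ≤ M ^ 5 := h5
        _ = M ^ 5 * 1 := by ring
        _ ≤ M ^ 5 * L0 := Nat.mul_le_mul (le_refl _) hL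
  have e2 : 17 * M ^ 5 * L0 = 17 * (M ^ 5 * L0) := by ring
  rw [e1] at h1
  rw [e2] at hx
  omega

/-- From the counting form of the zero-probability lemma (`M0 * z ≤ d * t`, `M0 = 8 d^2 L0`)
to the form used in the halving step (`z ≤ δ0 * t`, `δ0 = 1 / (8 d L0)`). -/
theorem zero_count_le {d L0 z t : ℕ} (hd : 1 ≤ d) (hL : 1 ≤ L0)
    (h : 8 * d ^ 2 * L0 * z ≤ d * t) :
    (z : ℝ) ≤ 1 / (8 * (d : ℝ) * (L0 : ℝ)) * (t : ℝ) := by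
  have hd' : (0 : ℝ) < (d : ℝ) := by exact_mod_cast hd
  have hL' : (0 : ℝ) < (L0 : ℝ) := by exact_mod_cast hL
  have h' : 8 * (d : ℝ) ^ 2 * (L0 : ℝ) * (z : ℝ) ≤ (d : ℝ) * (t : ℝ) := by
    exact_mod_cast h
  have hpos : (0 : ℝ) < 8 * (d : ℝ) * (L0 : ℝ) := by positivity
  rw [one_div, inv_mul_eq_div, le_div_iff₀ hpos]
  have h2 : (d : ℝ) * ((z : ℝ) * (8 * (d : ℝ) * (L0 : ℝ))) ≤ (d : ℝ) * (t : ℝ) := by
    calc (d : ℝ) * ((z : ℝ) * (8 * (d : ℝ) * (L0 : ℝ)))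
        = 8 * (d : ℝ) ^ 2 * (L0 : ℝ) * (z : ℝ) := by ring
      _ ≤ (d : ℝ) * (t : ℝ) := h'
  exact le_of_mul_le_mul_left h2 hd'

theorem delta_nonneg (d L0 : ℕ) : (0 : ℝ) ≤ 1 / (8 * (d : ℝ) * (L0 : ℝ)) := by positivity

/-- `δ0 ≤ 1 / (8 d)`. -/
theorem delta_le {d L0 : ℕ} (hd : 1 ≤ d) (hL : 1 ≤ L0) :
    1 / (8 * (d : ℝ) * (L0 : ℝ)) ≤ 1 / (8 * (d : ℝ)) := by
  have hd' : (0 : ℝ) < (d : ℝ) := by exact_mod_cast hd
  have hL' : (1 : ℝ) ≤ (L0 : ℝ) := by exact_mod_cast hL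
  apply one_div_le_one_div_of_le (by positivity)
  nlinarith

/-- `8 d δ0 = 1 / L0`. -/
theorem eight_d_delta {d L0 : ℕ} (hd : 1 ≤ d) :
    8 * (d : ℝ) * (1 / (8 * (d : ℝ) * (L0 : ℝ))) = 1 / (L0 : ℝ) := by
  have hd' : (d : ℝ) ≠ 0 := by
    have : (0 : ℝ) < (d : ℝ) := by exact_mod_cast hd
    exact ne_of_gt this
  rcases Nat.eq_zero_or_pos L0 with h0 | hpos
  · subst h0
    simp
  · have hL' : (L0 : ℝ) ≠ 0 := by
      have : (0 : ℝ) < (L0 : ℝ) := by exact_mod_cast hpos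
      exact ne_of_gt this
    field_simp

/-- The halving constant: `1 + 8 d δ0 = 1 + 1 / L0`. -/
theorem one_add_eight_d_delta {d L0 : ℕ} (hd : 1 ≤ d) :
    1 + 8 * (d : ℝ) * (1 / (8 * (d : ℝ) * (L0 : ℝ))) = 1 + 1 / (L0 : ℝ) := by
  rw [eight_d_delta hd]

/-! ### Binary size -/

/-- Halving drops the number of binary digits. -/
theorem size_succ_le_of_two_mul_le {a b : ℕ} (hb : 1 ≤ b) (h : 2 * a ≤ b) :
    a.size + 1 ≤ b.size := by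
  rw [Nat.succ_le_iff, Nat.lt_size]
  rcases Nat.eq_zero_or_pos a with h0 | hpos
  · subst h0
    simpa using hb
  · have h1 : a.size - 1 < a.size := by
      have := Nat.size_pos.2 hpos
      omega
    have h2 : 2 ^ (a.size - 1) ≤ a := Nat.lt_size.1 h1
    have h3 : 2 ^ a.size = 2 * 2 ^ (a.size - 1) := by
      have hp := Nat.size_pos.2 hpos
      obtain ⟨k, hk⟩ : ∃ k, a.size = k + 1 := ⟨a.size - 1, by omega⟩
      rw [hk]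
      simp [pow_succ]
      ring
    omega

/-- The total of a half class: `(N - b) / 2` has fewer binary digits than `N ≥ 1`. -/
theorem size_half_lt {N b : ℕ} (hN : 1 ≤ N) : ((N - b) / 2).size + 1 ≤ N.size := by
  apply size_succ_le_of_two_mul_le hN
  have := Nat.mul_div_le (N - b) 2
  omega

theorem size_sub_le (N b : ℕ) : (N - b).size ≤ N.size := Nat.size_le_size (Nat.sub_le N b)

end Vale.Agent.Lib.P328.BP.Arith
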