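import Mathlib

/-!
# P328 / bit planes: the sizes of the parity fibres are comparable (step (IIb))

Generic part.  A nonnegative weight `N` on the cube `ι → Bool` that loses at most the factor
`θ` under the flip of one coordinate loses at most `θ ^ card ι` between any two points; with
`θ = 1 - 2 δ` and `8 * card ι * δ ≤ 1` any two weights are within the factor `4 / 3`.
-/

namespace Vale.Agent.Lib.P328.BP

open Finset

/-- The point of the cube that agrees with `y` on `S` and with `x` off `S`. -/
def cubeMix {ι : Type*} [DecidableEq ι] (S : Finset ι) (x y : ι → Bool) : ι → Bool :=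
  fun i => if i ∈ S then y i else x i

theorem cubeMix_empty {ι : Type*} [DecidableEq ι] (x y : ι → Bool) :
    cubeMix (∅ : Finset ι) x y = x := by
  funext i
  simp [cubeMix]

theorem cubeMix_univ {ι : Type*} [Fintype ι] [DecidableEq ι] (x y : ι → Bool) :
    cubeMix (Finset.univ : Finset ι) x y = y := by
  funext i
  simp [cubeMix]

theorem cubeMix_insert {ι : Type*} [DecidableEq ι] (S : Finset ι) (a : ι) (x y : ι → Bool) :
    cubeMix (insert a S) x y = Function.update (cubeMix S x y) a (y a) := by
  funext i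
  by_cases hia : i = a
  · subst hia
    simp [cubeMix]
  · simp [cubeMix, hia]

/-- A weight on the cube that loses at most the factor `θ` under one flip loses at most
`θ ^ card S` when the coordinates of `S` are changed. -/
theorem cube_ratio_mix {ι : Type*} [DecidableEq ι] (N : (ι → Bool) → ℝ)
    (hN : ∀ x, 0 ≤ N x) (θ : ℝ) (hθ0 : 0 ≤ θ) (hθ1 : θ ≤ 1)
    (hflip : ∀ (x : ι → Bool) (e : ι), θ * N x ≤ N (Function.update x e (!(x e))))
    (x y : ι → Bool) (S : Finset ι) :
    θ ^ S.card * N x ≤ N (cubeMix S x y) := by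
  induction S using Finset.induction_on with
  | empty => simp [cubeMix_empty]
  | insert a S ha ih =>
    rw [Finset.card_insert_of_notMem ha, cubeMix_insert, pow_succ]
    have hpow : 0 ≤ θ ^ S.card := pow_nonneg hθ0 _
    have hza : cubeMix S x y a = x a := by simp [cubeMix, ha]
    by_cases hya : y a = x a
    · have hupd : Function.update (cubeMix S x y) a (y a) = cubeMix S x y := by
        rw [hya, ← hza]
        exact Function.update_eq_self a (cubeMix S x y)
      rw [hupd]
      refine le_trans ?_ ih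
      have h1 : θ ^ S.card * θ ≤ θ ^ S.card * 1 := mul_le_mul_of_nonneg_left hθ1 hpow
      have h2 : θ ^ S.card * θ * N x ≤ θ ^ S.card * 1 * N x :=
        mul_le_mul_of_nonneg_right h1 (hN x)
      simpa using h2
    · have hya' : y a = !(cubeMix S x y a) := by
        rw [hza]
        cases hx : x a <;> cases hy : y a <;> simp_all
      rw [hya']
      refine le_trans ?_ (hflip (cubeMix S x y) a)
      have h3 : θ * (θ ^ S.card * N x) ≤ θ * N (cubeMix S x y) :=
        mul_le_mul_of_nonneg_left ih hθ0
      calc θ ^ S.card * θ * N x = θ * (θ ^ S.card * N x) := by ring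
        _ ≤ θ * N (cubeMix S x y) := h3

/-- A weight on the cube that loses at most the factor `θ` under one flip loses at most
`θ ^ card ι` between any two points. -/
theorem cube_ratio_pow {ι : Type*} [Fintype ι] [DecidableEq ι] (N : (ι → Bool) → ℝ)
    (hN : ∀ x, 0 ≤ N x) (θ : ℝ) (hθ0 : 0 ≤ θ) (hθ1 : θ ≤ 1)
    (hflip : ∀ (x : ι → Bool) (e : ι), θ * N x ≤ N (Function.update x e (!(x e))))
    (x y : ι → Bool) :
    θ ^ Fintype.card ι * N x ≤ N y := by
  have h := cube_ratio_mix N hN θ hθ0 hθ1 hflip x y Finset.univ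
  rwa [cubeMix_univ, Finset.card_univ] at h

/-- If one flip loses at most the factor `1 - 2 δ` and `8 * card ι * δ ≤ 1`, any two weights
on the cube are within the factor `4 / 3`. -/
theorem cube_ratio {ι : Type*} [Fintype ι] [DecidableEq ι] (N : (ι → Bool) → ℝ)
    (hN : ∀ x, 0 ≤ N x) (δ : ℝ) (hδ0 : 0 ≤ δ) (hδ : 8 * (Fintype.card ι : ℝ) * δ ≤ 1)
    (hflip : ∀ (x : ι → Bool) (e : ι),
      (1 - 2 * δ) * N x ≤ N (Function.update x e (!(x e))))
    (x y : ι → Bool) :
    3 * N x ≤ 4 * N y := by
  by_cases hcard : Fintype.card ι = 0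
  · have hemp : IsEmpty ι := Fintype.card_eq_zero_iff.mp hcard
    have hxy : x = y := funext (fun i => (hemp.false i).elim)
    rw [hxy]
    have := hN y
    linarith
  · have hcard1 : (1 : ℝ) ≤ (Fintype.card ι : ℝ) := by
      have : 1 ≤ Fintype.card ι := Nat.one_le_iff_ne_zero.mpr hcard
      exact_mod_cast this
    have hδ8 : 8 * δ ≤ 1 := by nlinarith
    have hθ0 : 0 ≤ 1 - 2 * δ := by linarith
    have hθ1 : 1 - 2 * δ ≤ 1 := by linarith
    have hp := cube_ratio_pow N hN (1 - 2 * δ) hθ0 hθ1 hflip x y
    have hb : 1 + (Fintype.card ι : ℝ) * (-(2 * δ)) ≤ (1 + -(2 * δ)) ^ Fintype.card ι :=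
      one_add_mul_le_pow (by linarith) _
    have hb' : (3 : ℝ) / 4 ≤ (1 - 2 * δ) ^ Fintype.card ι := by
      have e1 : (1 : ℝ) + -(2 * δ) = 1 - 2 * δ := by ring
      rw [e1] at hb
      refine le_trans ?_ hb
      linarith
    have h4 : (3 : ℝ) / 4 * N x ≤ (1 - 2 * δ) ^ Fintype.card ι * N x :=
      mul_le_mul_of_nonneg_right hb' (hN x)
    linarith

end Vale.Agent.Lib.P328.BP
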