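import Mathlib

/-!
# P328 / bit planes: comparison of the means over two finite sets that are matched up to small
exceptional sets

`mean S f` is the mean of `f` over the finite set `S` and `vsum S f` the sum over `S` of the
squared deviations of `f` from `mean S f`.  `subset_mean_sq` compares the mean over a subset with
the mean over the whole set.  `edge_bound` compares the means over two sets `S₁`, `S₂` that
contain subsets `A₁`, `A₂` in bijection under `φ`, the complements being of relative size at most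
`2 δ`.
-/

namespace Vale.Agent.Lib.P328.BP

open Finset

/-- The mean of `f` over a finite set. -/
noncomputable def mean {α : Type*} (S : Finset α) (f : α → ℝ) : ℝ :=
  (∑ x ∈ S, f x) / (S.card : ℝ)

/-- The sum over `S` of the squared deviations of `f` from its mean over `S`. -/
noncomputable def vsum {α : Type*} (S : Finset α) (f : α → ℝ) : ℝ :=
  ∑ x ∈ S, (f x - mean S f) ^ 2

theorem vsum_nonneg {α : Type*} (S : Finset α) (f : α → ℝ) : 0 ≤ vsum S f :=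
  Finset.sum_nonneg (fun _ _ => sq_nonneg _)

theorem sum_sub_mean {α : Type*} (S : Finset α) (hS : S.Nonempty) (f : α → ℝ) :
    ∑ x ∈ S, (f x - mean S f) = 0 := by
  have hc : (S.card : ℝ) ≠ 0 := by
    exact_mod_cast (Finset.card_pos.mpr hS).ne'
  rw [Finset.sum_sub_distrib, Finset.sum_const, nsmul_eq_mul]
  unfold mean
  field_simp
  ring

/-- The mean over a subset differs from the mean over the whole set by at most the square root
of `#(S \ A) * vsum S f / #A ^ 2`. -/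
theorem subset_mean_sq {α : Type*} [DecidableEq α] (S A : Finset α) (hA : A ⊆ S)
    (hne : A.Nonempty) (f : α → ℝ) :
    (mean A f - mean S f) ^ 2 ≤ ((S \ A).card : ℝ) * vsum S f / (A.card : ℝ) ^ 2 := by
  have hS : S.Nonempty := hne.mono hA
  have hAc : (0 : ℝ) < (A.card : ℝ) := by
    exact_mod_cast Finset.card_pos.mpr hne
  have h1 : mean A f - mean S f = (∑ x ∈ A, (f x - mean S f)) / (A.card : ℝ) := by
    rw [Finset.sum_sub_distrib, Finset.sum_const, nsmul_eq_mul]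
    unfold mean
    field_simp
  have h2 : ∑ x ∈ A, (f x - mean S f) = - ∑ x ∈ S \ A, (f x - mean S f) := by
    have h := Finset.sum_sdiff hA (f := fun x => f x - mean S f)
    rw [sum_sub_mean S hS f] at h
    linarith
  have h3 : (∑ x ∈ S \ A, (f x - mean S f)) ^ 2
      ≤ ((S \ A).card : ℝ) * ∑ x ∈ S \ A, (f x - mean S f) ^ 2 :=
    sq_sum_le_card_mul_sum_sq
  have h4 : ∑ x ∈ S \ A, (f x - mean S f) ^ 2 ≤ vsum S f :=
    Finset.sum_le_sum_of_subset_of_nonneg Finset.sdiff_subset (fun _ _ _ => sq_nonneg _)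
  rw [h1, h2, div_pow, neg_sq]
  apply div_le_div_of_nonneg_right _ (by positivity)
  exact h3.trans (mul_le_mul_of_nonneg_left h4 (Nat.cast_nonneg _))

/-- A subset whose complement has relative size at most `2 δ`, `δ ≤ 1/8`, has at least
`(1 - 2 δ)` times the size of the set. -/
theorem card_ge_of_sdiff_le {α : Type*} [DecidableEq α] (S A : Finset α) (hA : A ⊆ S) (δ : ℝ)
    (h : ((S \ A).card : ℝ) ≤ 2 * δ * (S.card : ℝ)) :
    (1 - 2 * δ) * (S.card : ℝ) ≤ (A.card : ℝ) := by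
  have hc : ((S \ A).card : ℝ) + (A.card : ℝ) = (S.card : ℝ) := by
    exact_mod_cast Finset.card_sdiff_add_card_eq_card hA
  linarith

/-- The relative deviation term: `#(S \ A) * V / #A ^ 2 ≤ (32/9) δ * (V / #S)`. -/
theorem dev_term_le {α : Type*} [DecidableEq α] (S A : Finset α) (hA : A ⊆ S)
    (hS : S.Nonempty) (δ : ℝ) (hδ0 : 0 ≤ δ) (hδ : δ ≤ 1 / 8)
    (h : ((S \ A).card : ℝ) ≤ 2 * δ * (S.card : ℝ)) (V : ℝ) (hV : 0 ≤ V) :
    ((S \ A).card : ℝ) * V / (A.card : ℝ) ^ 2 ≤ 32 / 9 * δ * (V / (S.card : ℝ)) := by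
  have hx : (0 : ℝ) < (S.card : ℝ) := by
    exact_mod_cast Finset.card_pos.mpr hS
  have hy := card_ge_of_sdiff_le S A hA δ h
  have hy' : 3 / 4 * (S.card : ℝ) ≤ (A.card : ℝ) := by nlinarith
  have hy0 : (0 : ℝ) < (A.card : ℝ) := by nlinarith
  rw [div_le_iff₀ (by positivity)]
  have e1 : 32 / 9 * δ * (V / (S.card : ℝ)) * (A.card : ℝ) ^ 2
      = 32 / 9 * δ * V * ((A.card : ℝ) ^ 2 / (S.card : ℝ)) := by
    field_simp
  rw [e1]
  have h5 : 9 / 16 * (S.card : ℝ) ≤ (A.card : ℝ) ^ 2 / (S.card : ℝ) := by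
    rw [le_div_iff₀ hx]
    nlinarith
  have h6 : ((S \ A).card : ℝ) * V ≤ 2 * δ * (S.card : ℝ) * V :=
    mul_le_mul_of_nonneg_right h hV
  have h7 : 32 / 9 * δ * V * (9 / 16 * (S.card : ℝ))
      ≤ 32 / 9 * δ * V * ((A.card : ℝ) ^ 2 / (S.card : ℝ)) :=
    mul_le_mul_of_nonneg_left h5 (by positivity)
  nlinarith

/-- Comparison of the means of `f` over two sets `S₁`, `S₂` with subsets `A₁`, `A₂` matched by
a bijection `φ`, the complements `S₁ \ A₁`, `S₂ \ A₂` being of relative size at most `2 δ`. -/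
theorem edge_bound {α : Type*} [DecidableEq α] (S₁ S₂ A₁ A₂ : Finset α) (φ : α → α)
    (hA₁ : A₁ ⊆ S₁) (hA₂ : A₂ ⊆ S₂) (hφ : Set.BijOn φ (A₁ : Set α) (A₂ : Set α))
    (δ : ℝ) (hδ0 : 0 ≤ δ) (hδ : δ ≤ 1 / 8)
    (h1 : ((S₁ \ A₁).card : ℝ) ≤ 2 * δ * (S₁.card : ℝ))
    (h2 : ((S₂ \ A₂).card : ℝ) ≤ 2 * δ * (S₂.card : ℝ))
    (hS₁ : S₁.Nonempty) (hS₂ : S₂.Nonempty) (f : α → ℝ) :
    (mean S₂ f - mean S₁ f) ^ 2
      ≤ 3 * (32 / 9 * δ * (vsum S₂ f / (S₂.card : ℝ)) + 32 / 9 * δ * (vsum S₁ f / (S₁.card : ℝ))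
          + (∑ T ∈ A₁, (f (φ T) - f T) ^ 2) / (A₁.card : ℝ)) := by
  have hx₁ : (0 : ℝ) < (S₁.card : ℝ) := by
    exact_mod_cast Finset.card_pos.mpr hS₁
  have hx₂ : (0 : ℝ) < (S₂.card : ℝ) := by
    exact_mod_cast Finset.card_pos.mpr hS₂
  have hc₁ := card_ge_of_sdiff_le S₁ A₁ hA₁ δ h1
  have hc₂ := card_ge_of_sdiff_le S₂ A₂ hA₂ δ h2
  have hy₁ : (0 : ℝ) < (A₁.card : ℝ) := by nlinarith
  have hy₂ : (0 : ℝ) < (A₂.card : ℝ) := by nlinarith
  have hne₁ : A₁.Nonempty := Finset.card_pos.mp (by exact_mod_cast hy₁)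
  have hne₂ : A₂.Nonempty := Finset.card_pos.mp (by exact_mod_cast hy₂)
  have himg : A₁.image φ = A₂ := by
    apply Finset.coe_injective
    rw [Finset.coe_image]
    exact hφ.image_eq
  have hcard : A₂.card = A₁.card := by
    rw [← himg]
    exact Finset.card_image_of_injOn hφ.injOn
  have hmean₂ : mean A₂ f = (∑ T ∈ A₁, f (φ T)) / (A₁.card : ℝ) := by
    unfold mean
    rw [hcard, ← himg, Finset.sum_image hφ.injOn]
  have hb : mean A₂ f - mean A₁ f = (∑ T ∈ A₁, (f (φ T) - f T)) / (A₁.card : ℝ) := by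
    rw [hmean₂, Finset.sum_sub_distrib]
    unfold mean
    ring
  have hb2 : (mean A₂ f - mean A₁ f) ^ 2 ≤ (∑ T ∈ A₁, (f (φ T) - f T) ^ 2) / (A₁.card : ℝ) := by
    rw [hb, div_pow, div_le_div_iff₀ (by positivity) hy₁]
    have h3 : (∑ T ∈ A₁, (f (φ T) - f T)) ^ 2
        ≤ (A₁.card : ℝ) * ∑ T ∈ A₁, (f (φ T) - f T) ^ 2 := sq_sum_le_card_mul_sum_sq
    have h4 : 0 ≤ ∑ T ∈ A₁, (f (φ T) - f T) ^ 2 := Finset.sum_nonneg (fun _ _ => sq_nonneg _)
    nlinarith
  have ha2 : (mean A₂ f - mean S₂ f) ^ 2 ≤ 32 / 9 * δ * (vsum S₂ f / (S₂.card : ℝ)) :=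
    (subset_mean_sq S₂ A₂ hA₂ hne₂ f).trans
      (dev_term_le S₂ A₂ hA₂ hS₂ δ hδ0 hδ h2 (vsum S₂ f) (vsum_nonneg S₂ f))
  have hc2 : (mean A₁ f - mean S₁ f) ^ 2 ≤ 32 / 9 * δ * (vsum S₁ f / (S₁.card : ℝ)) :=
    (subset_mean_sq S₁ A₁ hA₁ hne₁ f).trans
      (dev_term_le S₁ A₁ hA₁ hS₁ δ hδ0 hδ h1 (vsum S₁ f) (vsum_nonneg S₁ f))
  have hsplit : mean S₂ f - mean S₁ f
      = -(mean A₂ f - mean S₂ f) + (mean A₂ f - mean A₁ f) + (mean A₁ f - mean S₁ f) := by ring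
  have h3sq : ∀ a b c : ℝ, (-a + b + c) ^ 2 ≤ 3 * (a ^ 2 + b ^ 2 + c ^ 2) := by
    intro a b c
    nlinarith [sq_nonneg (a + b), sq_nonneg (a + c), sq_nonneg (b - c)]
  rw [hsplit]
  refine (h3sq _ _ _).trans ?_
  linarith

/-- The matched subsets have the same size, so each of the two sets has at least `1 - 2 δ` times
the size of the other. -/
theorem card_ratio {α : Type*} [DecidableEq α] (S₁ S₂ A₁ A₂ : Finset α) (φ : α → α)
    (hA₁ : A₁ ⊆ S₁) (hA₂ : A₂ ⊆ S₂) (hφ : Set.BijOn φ (A₁ : Set α) (A₂ : Set α)) (δ : ℝ)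
    (h1 : ((S₁ \ A₁).card : ℝ) ≤ 2 * δ * (S₁.card : ℝ)) :
    (1 - 2 * δ) * (S₁.card : ℝ) ≤ (S₂.card : ℝ) := by
  have himg : A₁.image φ = A₂ := by
    apply Finset.coe_injective
    rw [Finset.coe_image]
    exact hφ.image_eq
  have hcard : A₂.card = A₁.card := by
    rw [← himg]
    exact Finset.card_image_of_injOn hφ.injOn
  have h3 : (A₂.card : ℝ) ≤ (S₂.card : ℝ) := by
    exact_mod_cast Finset.card_le_card hA₂
  have h4 := card_ge_of_sdiff_le S₁ A₁ hA₁ δ h1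
  rw [hcard] at h3
  linarith

end Vale.Agent.Lib.P328.BP
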