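import Vale.Agent.Lib.P328.BP.Cube
import Vale.Agent.Lib.P328.BP.SwitchAbs
import Vale.Agent.Lib.P328.BP.Ratio

/-!
# P328 / bit planes: the variance between the fibres (step (II), abstract form)

Finite sets `Ω x` indexed by the points `x` of the cube `ι → Bool`.  For every point `x` and
every coordinate `e` a subset `Ap x e` of `Ω x` is mapped bijectively by `φ e` onto a subset
`Am x e` of the set `Ω (flip e x)` of the neighbour, and the two complements have relative size
at most `2 δ`, where `8 * card ι * δ ≤ 1`.  Then the weighted sum of the squared deviations of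
the means of `f` over the sets `Ω x` from their weighted mean `μ` is at most
`8 * card ι * δ` times the sum of the `vsum (Ω x) f` plus `4 / 3` times the sum over `e` of a
bound `E e` for the sum of the squared increments of `f` along `φ e`.
-/

namespace Vale.Agent.Lib.P328.BP

open Finset

/-- The flip of one coordinate is an involution of the cube. -/
theorem cube_flip_flip {ι : Type*} [DecidableEq ι] (e : ι) (x : ι → Bool) :
    Function.update (Function.update x e (!(x e))) e
      (!(Function.update x e (!(x e)) e)) = x := by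
  rw [Function.update_self, Bool.not_not, Function.update_idem, Function.update_eq_self]

/-- The flip of one coordinate as a permutation of the cube. -/
def cubeFlip {ι : Type*} [DecidableEq ι] (e : ι) : (ι → Bool) ≃ (ι → Bool) where
  toFun x := Function.update x e (!(x e))
  invFun x := Function.update x e (!(x e))
  left_inv x := cube_flip_flip e x
  right_inv x := cube_flip_flip e x

/-- A sum over the cube is invariant under the flip of one coordinate. -/
theorem sum_cube_flip {ι : Type*} [Fintype ι] [DecidableEq ι] (e : ι) (F : (ι → Bool) → ℝ) :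
    ∑ x, F (Function.update x e (!(x e))) = ∑ x, F x :=
  Equiv.sum_comp (cubeFlip e) F

/-- Step (II): the variance between the fibres. -/
theorem between_fibres {α ι : Type*} [DecidableEq α] [Fintype ι] [DecidableEq ι]
    (Ω : (ι → Bool) → Finset α) (Ap Am : (ι → Bool) → ι → Finset α) (φ : ι → α → α)
    (hΩ : ∀ x, (Ω x).Nonempty)
    (hAp : ∀ x e, Ap x e ⊆ Ω x)
    (hAm : ∀ x e, Am x e ⊆ Ω (Function.update x e (!(x e))))
    (hφ : ∀ x e, Set.BijOn (φ e) (Ap x e : Set α) (Am x e : Set α))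
    (δ : ℝ) (hδ0 : 0 ≤ δ) (hδ : 8 * (Fintype.card ι : ℝ) * δ ≤ 1)
    (h1 : ∀ x e, ((Ω x \ Ap x e).card : ℝ) ≤ 2 * δ * ((Ω x).card : ℝ))
    (h2 : ∀ x e, ((Ω (Function.update x e (!(x e))) \ Am x e).card : ℝ)
      ≤ 2 * δ * ((Ω (Function.update x e (!(x e)))).card : ℝ))
    (f : α → ℝ) (μ : ℝ)
    (hμ : μ * ∑ x, ((Ω x).card : ℝ) = ∑ x, ((Ω x).card : ℝ) * mean (Ω x) f)
    (E : ι → ℝ)
    (hE : ∀ e, ∑ x, ∑ T ∈ Ap x e, (f (φ e T) - f T) ^ 2 ≤ E e) :
    ∑ x, ((Ω x).card : ℝ) * (mean (Ω x) f - μ) ^ 2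
      ≤ 8 * (Fintype.card ι : ℝ) * δ * ∑ x, vsum (Ω x) f + 4 / 3 * ∑ e, E e := by
  have hw0 : ∀ x, (0 : ℝ) < ((Ω x).card : ℝ) := fun x => by
    exact_mod_cast Finset.card_pos.mpr (hΩ x)
  have hV0 : ∀ x, 0 ≤ vsum (Ω x) f := fun x => vsum_nonneg _ _
  have hsumV0 : 0 ≤ ∑ x, vsum (Ω x) f := Finset.sum_nonneg (fun x _ => hV0 x)
  -- the sizes of the sets are comparable
  have hflip : ∀ (x : ι → Bool) (e : ι),
      (1 - 2 * δ) * ((Ω x).card : ℝ) ≤ ((Ω (Function.update x e (!(x e)))).card : ℝ) :=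
    fun x e => card_ratio (Ω x) (Ω (Function.update x e (!(x e)))) (Ap x e) (Am x e) (φ e)
      (hAp x e) (hAm x e) (hφ x e) δ (h1 x e)
  have hratio : ∀ x y : ι → Bool, 3 * ((Ω x).card : ℝ) ≤ 4 * ((Ω y).card : ℝ) :=
    fun x y => cube_ratio (fun z => ((Ω z).card : ℝ)) (fun z => (hw0 z).le) δ hδ0 hδ hflip x y
  -- a point of the cube with the largest set
  obtain ⟨xs, -, hxs⟩ := Finset.exists_max_image (Finset.univ : Finset (ι → Bool))
    (fun z => ((Ω z).card : ℝ)) ⟨fun _ => false, Finset.mem_univ _⟩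
  set Wm : ℝ := ((Ω xs).card : ℝ) with hWm
  have hWm0 : 0 < Wm := hw0 xs
  have hle : ∀ x, ((Ω x).card : ℝ) ≤ Wm := fun x => hxs x (Finset.mem_univ x)
  have hWr : ∀ y, 3 * Wm ≤ 4 * ((Ω y).card : ℝ) := fun y => hratio xs y
  have hES := efron_stein_weighted (fun x => mean (Ω x) f) (fun x => ((Ω x).card : ℝ)) Wm
    (fun x => (hw0 x).le) hle μ hμ
  refine le_trans hES ?_
  -- one edge
  have hedge : ∀ (e : ι) (x : ι → Bool),
      Wm / 4 * (mean (Ω (Function.update x e (!(x e)))) f - mean (Ω x) f) ^ 2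
        ≤ 32 / 9 * δ * (vsum (Ω (Function.update x e (!(x e)))) f + vsum (Ω x) f)
          + 4 / 3 * ∑ T ∈ Ap x e, (f (φ e T) - f T) ^ 2 := by
    intro e x
    have hcard1 : (1 : ℝ) ≤ (Fintype.card ι : ℝ) := by
      have : 0 < Fintype.card ι := Fintype.card_pos_iff.mpr ⟨e⟩
      exact_mod_cast this
    have hδ8 : δ ≤ 1 / 8 := by nlinarith
    set y := Function.update x e (!(x e)) with hy
    have hb := edge_bound (Ω x) (Ω y) (Ap x e) (Am x e) (φ e) (hAp x e) (hAm x e) (hφ x e)
      δ hδ0 hδ8 (h1 x e) (h2 x e) (hΩ x) (hΩ y) f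
    have ha := card_ge_of_sdiff_le (Ω x) (Ap x e) (hAp x e) δ (h1 x e)
    set S := ∑ T ∈ Ap x e, (f (φ e T) - f T) ^ 2 with hS
    have hS0 : 0 ≤ S := Finset.sum_nonneg (fun _ _ => sq_nonneg _)
    have hwx := hw0 x
    have hwy := hw0 y
    have ha0 : (0 : ℝ) < ((Ap x e).card : ℝ) := by nlinarith
    -- the three quotients
    have q1 : Wm * (vsum (Ω y) f / ((Ω y).card : ℝ)) ≤ 4 / 3 * vsum (Ω y) f := by
      rw [mul_div_assoc', div_le_iff₀ hwy]
      nlinarith [hWr y, hV0 y]
    have q2 : Wm * (vsum (Ω x) f / ((Ω x).card : ℝ)) ≤ 4 / 3 * vsum (Ω x) f := by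
      rw [mul_div_assoc', div_le_iff₀ hwx]
      nlinarith [hWr x, hV0 x]
    have q3 : Wm * (S / ((Ap x e).card : ℝ)) ≤ 16 / 9 * S := by
      rw [mul_div_assoc', div_le_iff₀ ha0]
      have h34 : 3 / 4 * ((Ω x).card : ℝ) ≤ ((Ap x e).card : ℝ) := by nlinarith
      have hWa : 9 * Wm ≤ 16 * ((Ap x e).card : ℝ) := by nlinarith [hWr x]
      nlinarith
    have hδq1 : 0 ≤ 32 / 9 * δ := by positivity
    calc Wm / 4 * (mean (Ω y) f - mean (Ω x) f) ^ 2
        ≤ Wm / 4 * (3 * (32 / 9 * δ * (vsum (Ω y) f / ((Ω y).card : ℝ))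
            + 32 / 9 * δ * (vsum (Ω x) f / ((Ω x).card : ℝ))
            + S / ((Ap x e).card : ℝ))) :=
          mul_le_mul_of_nonneg_left hb (by positivity)
      _ = 3 / 4 * (32 / 9 * δ * (Wm * (vsum (Ω y) f / ((Ω y).card : ℝ)))
            + 32 / 9 * δ * (Wm * (vsum (Ω x) f / ((Ω x).card : ℝ)))
            + Wm * (S / ((Ap x e).card : ℝ))) := by ring
      _ ≤ 3 / 4 * (32 / 9 * δ * (4 / 3 * vsum (Ω y) f)
            + 32 / 9 * δ * (4 / 3 * vsum (Ω x) f) + 16 / 9 * S) := by
          have t1 := mul_le_mul_of_nonneg_left q1 hδq1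
          have t2 := mul_le_mul_of_nonneg_left q2 hδq1
          linarith
      _ = 32 / 9 * δ * (vsum (Ω y) f + vsum (Ω x) f) + 4 / 3 * S := by ring
  -- the sum over the edges
  have hsum : ∀ e : ι,
      ∑ x, Wm / 4 * (mean (Ω (Function.update x e (!(x e)))) f - mean (Ω x) f) ^ 2
        ≤ 64 / 9 * δ * ∑ x, vsum (Ω x) f + 4 / 3 * E e := by
    intro e
    refine le_trans (Finset.sum_le_sum (fun x _ => hedge e x)) ?_
    rw [Finset.sum_add_distrib, ← Finset.mul_sum, ← Finset.mul_sum, Finset.sum_add_distrib,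
      sum_cube_flip e (fun x => vsum (Ω x) f)]
    have := hE e
    nlinarith
  calc Wm / 4 * ∑ e, ∑ x,
          (mean (Ω (Function.update x e (!(x e)))) f - mean (Ω x) f) ^ 2
      = ∑ e, ∑ x, Wm / 4 * (mean (Ω (Function.update x e (!(x e)))) f - mean (Ω x) f) ^ 2 := by
        rw [Finset.mul_sum]
        refine Finset.sum_congr rfl (fun e _ => ?_)
        rw [Finset.mul_sum]
    _ ≤ ∑ e : ι, (64 / 9 * δ * ∑ x, vsum (Ω x) f + 4 / 3 * E e) :=
        Finset.sum_le_sum (fun e _ => hsum e)
    _ = (Fintype.card ι : ℝ) * (64 / 9 * δ * ∑ x, vsum (Ω x) f) + 4 / 3 * ∑ e, E e := by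
        rw [Finset.sum_add_distrib, Finset.sum_const, Finset.card_univ, nsmul_eq_mul,
          ← Finset.mul_sum]
    _ ≤ 8 * (Fintype.card ι : ℝ) * δ * ∑ x, vsum (Ω x) f + 4 / 3 * ∑ e, E e := by
        have hc : (0 : ℝ) ≤ (Fintype.card ι : ℝ) := Nat.cast_nonneg _
        have hp : 0 ≤ (Fintype.card ι : ℝ) * δ * ∑ x, vsum (Ω x) f :=
          mul_nonneg (mul_nonneg hc hδ0) hsumV0
        nlinarith

/-!
## A second form: fibres of a map to the cube

The same step for the fibres of a map `par` from a finite set `Ω` to the cube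
(`cube_fibres`, with the analysis of variance included), and with matchings `φ x e` that may
depend on the point `x` (`cube_between`).  `cube_es` is the Efron-Stein inequality written with
`cflip`.
-/

section Cube

variable {ι : Type*} [DecidableEq ι]

/-- The point of the cube obtained from `x` by flipping the coordinate `e`. -/
def cflip (x : ι → Bool) (e : ι) : ι → Bool := Function.update x e (!(x e))

theorem cflip_same (x : ι → Bool) (e : ι) : cflip x e e = !(x e) := by
  simp [cflip]

theorem cflip_of_ne (x : ι → Bool) {e i : ι} (h : i ≠ e) : cflip x e i = x i := by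
  simp [cflip, Function.update_of_ne h]

theorem cflip_cflip (x : ι → Bool) (e : ι) : cflip (cflip x e) e = x := by
  funext i
  by_cases h : i = e
  · subst h
    rw [cflip_same, cflip_same, Bool.not_not]
  · rw [cflip_of_ne _ h, cflip_of_ne _ h]

theorem cflip_comm (x : ι → Bool) {a e : ι} (h : a ≠ e) :
    cflip (cflip x a) e = cflip (cflip x e) a := by
  funext i
  by_cases h1 : i = e
  · subst h1
    rw [cflip_same, cflip_of_ne _ (Ne.symm h), cflip_of_ne _ (Ne.symm h), cflip_same]
  · by_cases h2 : i = a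
    · subst h2
      rw [cflip_of_ne _ h1, cflip_same, cflip_same, cflip_of_ne _ h1]
    · rw [cflip_of_ne _ h1, cflip_of_ne _ h2, cflip_of_ne _ h2, cflip_of_ne _ h1]

/-- The flip of one coordinate as a permutation of the cube. -/
def cflipEquiv (e : ι) : (ι → Bool) ≃ (ι → Bool) where
  toFun x := cflip x e
  invFun x := cflip x e
  left_inv x := cflip_cflip x e
  right_inv x := cflip_cflip x e

theorem sum_cflip [Fintype ι] (F : (ι → Bool) → ℝ) (e : ι) :
    ∑ x, F (cflip x e) = ∑ x, F x :=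
  Equiv.sum_comp (cflipEquiv e) F

/-- A function on the cube that is invariant under every flip is constant. -/
theorem const_of_cflip [Fintype ι] (g : (ι → Bool) → ℝ) (h : ∀ x e, g (cflip x e) = g x)
    (x y : ι → Bool) : g x = g y := by
  have key : ∀ s : Finset ι, ∀ x y : ι → Bool, (∀ e, e ∉ s → x e = y e) → g x = g y := by
    intro s
    induction s using Finset.induction_on with
    | empty =>
      intro x y hxy
      have hxy' : x = y := funext (fun e => hxy e (Finset.notMem_empty e))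
      rw [hxy']
    | insert a s ha ih =>
      intro x y hxy
      by_cases hxa : x a = y a
      · apply ih
        intro e he
        by_cases hea : e = a
        · subst hea
          exact hxa
        · exact hxy e (by simp [hea, he])
      · have h3 : g (cflip x a) = g y := by
          apply ih
          intro e he
          by_cases hea : e = a
          · subst hea
            rw [cflip_same]
            cases hx : x e <;> cases hy : y e <;> simp_all
          · rw [cflip_of_ne _ hea]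
            exact hxy e (by simp [hea, he])
        rw [← h3, h]
  exact key Finset.univ x y (fun e he => absurd (Finset.mem_univ e) he)

/-- Efron-Stein on the cube, for functions that depend only on the coordinates in `s`. -/
theorem cube_es_aux [Fintype ι] (s : Finset ι) :
    ∀ g : (ι → Bool) → ℝ, (∀ x e, e ∉ s → g (cflip x e) = g x) →
      ∑ x, (g x - (∑ y, g y) / (Fintype.card (ι → Bool) : ℝ)) ^ 2
        ≤ 1 / 4 * ∑ e ∈ s, ∑ x, (g (cflip x e) - g x) ^ 2 := by
  induction s using Finset.induction_on with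
  | empty =>
    intro g hg
    have hc : ∀ x y, g x = g y := const_of_cflip g (fun x e => hg x e (Finset.notMem_empty e))
    have hcard : (Fintype.card (ι → Bool) : ℝ) ≠ 0 := by
      have : 0 < Fintype.card (ι → Bool) := Fintype.card_pos_iff.mpr ⟨fun _ => false⟩
      exact_mod_cast this.ne'
    have hz : ∀ x, g x - (∑ y, g y) / (Fintype.card (ι → Bool) : ℝ) = 0 := by
      intro x
      have : ∑ y, g y = (Fintype.card (ι → Bool) : ℝ) * g x := by
        rw [Finset.sum_congr rfl (fun y _ => hc y x), Finset.sum_const, Finset.card_univ,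
          nsmul_eq_mul]
      rw [this]
      field_simp
      ring
    have hzero : ∑ x, (g x - (∑ y, g y) / (Fintype.card (ι → Bool) : ℝ)) ^ 2 = 0 :=
      Finset.sum_eq_zero (fun x _ => by rw [hz x]; ring)
    rw [hzero, Finset.sum_empty, mul_zero]
  | insert a s ha ih =>
    intro g hg
    set m : ℝ := (∑ y, g y) / (Fintype.card (ι → Bool) : ℝ) with hm
    set h : (ι → Bool) → ℝ := fun x => (g x + g (cflip x a)) / 2 with hh
    have hh_a : ∀ x, h (cflip x a) = h x := by
      intro x
      simp only [hh, cflip_cflip]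
      ring
    have hh_inv : ∀ x e, e ∉ s → h (cflip x e) = h x := by
      intro x e he
      by_cases hea : e = a
      · subst hea
        exact hh_a x
      · have he' : e ∉ insert a s := by simp [hea, he]
        simp only [hh]
        rw [hg x e he', ← cflip_comm x (Ne.symm hea), hg (cflip x a) e he']
    have hsum : ∑ y, h y = ∑ y, g y := by
      simp only [hh]
      rw [← Finset.sum_div, Finset.sum_add_distrib, sum_cflip g a]
      ring
    have hIH := ih h hh_inv
    rw [hsum] at hIH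
    -- the cross term vanishes
    have hcross : ∑ x, (g x - g (cflip x a)) * (h x - m) = 0 := by
      have e1 := sum_cflip (fun x => (g x - g (cflip x a)) * (h x - m)) a
      simp only [cflip_cflip, hh_a] at e1
      have e2 : ∑ x, (g (cflip x a) - g x) * (h x - m)
          = - ∑ x, (g x - g (cflip x a)) * (h x - m) := by
        rw [← Finset.sum_neg_distrib]
        exact Finset.sum_congr rfl (fun x _ => by ring)
      linarith
    have hdecomp : ∑ x, (g x - m) ^ 2
        = ∑ x, (h x - m) ^ 2 + 1 / 4 * ∑ x, (g (cflip x a) - g x) ^ 2 := by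
      have e1 : ∀ x, (g x - m) ^ 2 = (h x - m) ^ 2 + 1 / 4 * (g (cflip x a) - g x) ^ 2
          + (g x - g (cflip x a)) * (h x - m) := by
        intro x
        simp only [hh]
        ring
      rw [Finset.sum_congr rfl (fun x _ => e1 x), Finset.sum_add_distrib,
        Finset.sum_add_distrib, hcross, ← Finset.mul_sum]
      ring
    -- averaging one coordinate does not increase the other energies
    have hcontr : ∀ e ∈ s, ∑ x, (h (cflip x e) - h x) ^ 2 ≤ ∑ x, (g (cflip x e) - g x) ^ 2 := by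
      intro e he
      have hea : e ≠ a := fun hEq => ha (hEq ▸ he)
      have e1 : ∀ x, (h (cflip x e) - h x) ^ 2
          ≤ ((g (cflip x e) - g x) ^ 2 + (g (cflip (cflip x a) e) - g (cflip x a)) ^ 2) / 2 := by
        intro x
        simp only [hh]
        rw [cflip_comm x (Ne.symm hea)]
        nlinarith [sq_nonneg ((g (cflip x e) - g x) - (g (cflip (cflip x e) a) - g (cflip x a)))]
      have e2 : ∑ x, (g (cflip (cflip x a) e) - g (cflip x a)) ^ 2
          = ∑ x, (g (cflip x e) - g x) ^ 2 :=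
        sum_cflip (fun x => (g (cflip x e) - g x) ^ 2) a
      calc ∑ x, (h (cflip x e) - h x) ^ 2
          ≤ ∑ x, ((g (cflip x e) - g x) ^ 2
              + (g (cflip (cflip x a) e) - g (cflip x a)) ^ 2) / 2 :=
            Finset.sum_le_sum (fun x _ => e1 x)
        _ = ∑ x, (g (cflip x e) - g x) ^ 2 := by
            rw [← Finset.sum_div, Finset.sum_add_distrib, e2]
            ring
    rw [hdecomp, Finset.sum_insert ha]
    have h5 : ∑ e ∈ s, ∑ x, (h (cflip x e) - h x) ^ 2
        ≤ ∑ e ∈ s, ∑ x, (g (cflip x e) - g x) ^ 2 :=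
      Finset.sum_le_sum hcontr
    linarith

/-- The Efron-Stein (Poincare) inequality on the cube with the uniform measure. -/
theorem cube_es [Fintype ι] (g : (ι → Bool) → ℝ) :
    ∑ x, (g x - (∑ y, g y) / (Fintype.card (ι → Bool) : ℝ)) ^ 2
      ≤ 1 / 4 * ∑ e, ∑ x, (g (cflip x e) - g x) ^ 2 :=
  cube_es_aux Finset.univ g (fun _ e he => absurd (Finset.mem_univ e) he)

end Cube

/-- Shifting the centre: the sum over `S` of the squared deviations of `f` from `a`. -/
theorem vsum_shift {α : Type*} (S : Finset α) (hS : S.Nonempty) (f : α → ℝ) (a : ℝ) :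
    ∑ T ∈ S, (f T - a) ^ 2 = vsum S f + (S.card : ℝ) * (mean S f - a) ^ 2 := by
  have h0 := sum_sub_mean S hS f
  have e1 : ∀ T, (f T - a) ^ 2 = (f T - mean S f) ^ 2
      + 2 * (mean S f - a) * (f T - mean S f) + (mean S f - a) ^ 2 := fun T => by ring
  rw [Finset.sum_congr rfl (fun T _ => e1 T), Finset.sum_add_distrib, Finset.sum_add_distrib,
    ← Finset.mul_sum, h0, Finset.sum_const, nsmul_eq_mul]
  unfold vsum
  ring

/-- The between-fibre variance over a cube of fibres.  The fibres `S x` are nonempty; for every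
point `x` and coordinate `e` the subsets `Ap x e ⊆ S x` and `Am x e ⊆ S (flip x e)` are matched
by the bijection `φ x e` and their complements have relative size at most `2 δ`, with
`8 * card ι * δ ≤ 1`; `m` is the mean of `f` over all fibres together. -/
theorem cube_between {α ι : Type*} [DecidableEq α] [Fintype ι] [DecidableEq ι]
    (S : (ι → Bool) → Finset α) (hS : ∀ x, (S x).Nonempty)
    (Ap Am : (ι → Bool) → ι → Finset α) (φ : (ι → Bool) → ι → α → α)
    (hAp : ∀ x e, Ap x e ⊆ S x)
    (hAm : ∀ x e, Am x e ⊆ S (Function.update x e (!(x e))))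
    (hφ : ∀ x e, Set.BijOn (φ x e) (Ap x e : Set α) (Am x e : Set α))
    (δ : ℝ) (hδ0 : 0 ≤ δ) (hδ : 8 * (Fintype.card ι : ℝ) * δ ≤ 1)
    (h1 : ∀ x e, ((S x \ Ap x e).card : ℝ) ≤ 2 * δ * ((S x).card : ℝ))
    (h2 : ∀ x e, ((S (Function.update x e (!(x e))) \ Am x e).card : ℝ)
        ≤ 2 * δ * ((S (Function.update x e (!(x e)))).card : ℝ))
    (f : α → ℝ) (m : ℝ)
    (hm : m * ∑ x, ((S x).card : ℝ) = ∑ x, ∑ T ∈ S x, f T) :
    ∑ x, ((S x).card : ℝ) * (mean (S x) f - m) ^ 2
      ≤ 8 * (Fintype.card ι : ℝ) * δ * ∑ x, vsum (S x) f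
        + 4 / 3 * ∑ x, ∑ e, ∑ T ∈ Ap x e, (f (φ x e T) - f T) ^ 2 := by
  set N : (ι → Bool) → ℝ := fun x => ((S x).card : ℝ) with hN
  set g : (ι → Bool) → ℝ := fun x => mean (S x) f with hg
  set V : (ι → Bool) → ℝ := fun x => vsum (S x) f with hV
  set SW : (ι → Bool) → ι → ℝ := fun x e => ∑ T ∈ Ap x e, (f (φ x e T) - f T) ^ 2 with hSW
  have hNpos : ∀ x, 0 < N x := fun x => by
    simp only [hN]
    exact_mod_cast Finset.card_pos.mpr (hS x)
  have hVnn : ∀ x, 0 ≤ V x := fun x => vsum_nonneg _ _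
  have hSWnn : ∀ x e, 0 ≤ SW x e := fun x e => Finset.sum_nonneg (fun _ _ => sq_nonneg _)
  have hNg : ∀ x, N x * g x = ∑ T ∈ S x, f T := by
    intro x
    have := (hNpos x).ne'
    simp only [hN, hg, mean] at this ⊢
    field_simp
  have hNgsum : ∑ x, N x * g x = m * ∑ x, N x := by
    rw [hm]
    exact Finset.sum_congr rfl (fun x _ => hNg x)
  -- Step A: the weighted mean minimises the weighted sum of squares
  set gbar : ℝ := (∑ y, g y) / (Fintype.card (ι → Bool) : ℝ) with hgbar
  have hA : ∑ x, N x * (g x - m) ^ 2 ≤ ∑ x, N x * (g x - gbar) ^ 2 := by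
    have e1 : ∀ x, N x * (g x - gbar) ^ 2 = N x * (g x - m) ^ 2
        + 2 * (m - gbar) * (N x * g x - m * N x) + (m - gbar) ^ 2 * N x := fun x => by ring
    have e2 : ∑ x, N x * (g x - gbar) ^ 2
        = ∑ x, N x * (g x - m) ^ 2 + (m - gbar) ^ 2 * ∑ x, N x := by
      rw [Finset.sum_congr rfl (fun x _ => e1 x), Finset.sum_add_distrib,
        Finset.sum_add_distrib, ← Finset.mul_sum, ← Finset.mul_sum, Finset.sum_sub_distrib,
        ← Finset.mul_sum, hNgsum]
      ring
    rw [e2]
    have : 0 ≤ (m - gbar) ^ 2 * ∑ x, N x :=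
      mul_nonneg (sq_nonneg _) (Finset.sum_nonneg (fun x _ => (hNpos x).le))
    linarith
  -- the largest fibre
  obtain ⟨x0, -, hx0⟩ := Finset.exists_max_image (Finset.univ : Finset (ι → Bool)) N
    ⟨fun _ => false, Finset.mem_univ _⟩
  have hmax : ∀ x, N x ≤ N x0 := fun x => hx0 x (Finset.mem_univ x)
  have hB : ∑ x, N x * (g x - gbar) ^ 2 ≤ N x0 * ∑ x, (g x - gbar) ^ 2 := by
    rw [Finset.mul_sum]
    exact Finset.sum_le_sum (fun x _ => mul_le_mul_of_nonneg_right (hmax x) (sq_nonneg _))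
  have hES := cube_es g
  -- the sizes of the fibres are comparable
  have hflip : ∀ (x : ι → Bool) (e : ι), (1 - 2 * δ) * N x ≤ N (Function.update x e (!(x e))) :=
    fun x e => card_ratio (S x) (S (Function.update x e (!(x e)))) (Ap x e) (Am x e) (φ x e)
      (hAp x e) (hAm x e) (hφ x e) δ (h1 x e)
  have hratio : ∀ x y, 3 * N x ≤ 4 * N y :=
    cube_ratio N (fun x => (hNpos x).le) δ hδ0 hδ hflip
  -- one edge
  have hedge : ∀ x e, N x0 * (g (cflip x e) - g x) ^ 2
      ≤ 3 * (128 / 27 * δ * V (cflip x e) + 128 / 27 * δ * V x + 16 / 9 * SW x e) := by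
    intro x e
    have hd1 : (1 : ℝ) ≤ (Fintype.card ι : ℝ) := by
      exact_mod_cast Fintype.card_pos_iff.mpr ⟨e⟩
    have hδ8 : δ ≤ 1 / 8 := by nlinarith
    have hb := edge_bound (S x) (S (cflip x e)) (Ap x e) (Am x e) (φ x e) (hAp x e) (hAm x e)
      (hφ x e) δ hδ0 hδ8 (h1 x e) (h2 x e) (hS x) (hS _) f
    have hAcard : 3 / 4 * N x ≤ ((Ap x e).card : ℝ) := by
      have h3 := card_ge_of_sdiff_le (S x) (Ap x e) (hAp x e) δ (h1 x e)
      have h4 := hNpos x
      simp only [hN] at h4 ⊢
      nlinarith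
    have hApos : (0 : ℝ) < ((Ap x e).card : ℝ) := by
      have h4 := hNpos x
      linarith
    have t1 : N x0 * (V (cflip x e) / N (cflip x e)) ≤ 4 / 3 * V (cflip x e) := by
      have h5 : N x0 / N (cflip x e) ≤ 4 / 3 := by
        rw [div_le_iff₀ (hNpos _)]
        linarith [hratio x0 (cflip x e)]
      calc N x0 * (V (cflip x e) / N (cflip x e))
          = N x0 / N (cflip x e) * V (cflip x e) := by ring
        _ ≤ 4 / 3 * V (cflip x e) := mul_le_mul_of_nonneg_right h5 (hVnn _)
    have t2 : N x0 * (V x / N x) ≤ 4 / 3 * V x := by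
      have h5 : N x0 / N x ≤ 4 / 3 := by
        rw [div_le_iff₀ (hNpos _)]
        linarith [hratio x0 x]
      calc N x0 * (V x / N x) = N x0 / N x * V x := by ring
        _ ≤ 4 / 3 * V x := mul_le_mul_of_nonneg_right h5 (hVnn _)
    have t3 : N x0 * (SW x e / ((Ap x e).card : ℝ)) ≤ 16 / 9 * SW x e := by
      have h5 : N x0 / ((Ap x e).card : ℝ) ≤ 16 / 9 := by
        rw [div_le_iff₀ hApos]
        linarith [hratio x0 x]
      calc N x0 * (SW x e / ((Ap x e).card : ℝ))
          = N x0 / ((Ap x e).card : ℝ) * SW x e := by ring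
        _ ≤ 16 / 9 * SW x e := mul_le_mul_of_nonneg_right h5 (hSWnn _ _)
    have hb' : N x0 * (g (cflip x e) - g x) ^ 2
        ≤ N x0 * (3 * (32 / 9 * δ * (V (cflip x e) / N (cflip x e))
            + 32 / 9 * δ * (V x / N x) + SW x e / ((Ap x e).card : ℝ))) :=
      mul_le_mul_of_nonneg_left hb (hNpos x0).le
    have e1 : N x0 * (3 * (32 / 9 * δ * (V (cflip x e) / N (cflip x e))
            + 32 / 9 * δ * (V x / N x) + SW x e / ((Ap x e).card : ℝ)))
        = 3 * (32 / 9 * δ * (N x0 * (V (cflip x e) / N (cflip x e)))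
            + 32 / 9 * δ * (N x0 * (V x / N x)) + N x0 * (SW x e / ((Ap x e).card : ℝ))) := by
      ring
    rw [e1] at hb'
    have t1' := mul_le_mul_of_nonneg_left t1 hδ0
    have t2' := mul_le_mul_of_nonneg_left t2 hδ0
    linarith
  -- summation over the edges
  have e2 : ∑ e, ∑ x, 3 * (128 / 27 * δ * V (cflip x e) + 128 / 27 * δ * V x + 16 / 9 * SW x e)
      = 3 * (128 / 27 * δ) * ∑ e : ι, ∑ x, V (cflip x e)
        + 3 * (128 / 27 * δ) * ∑ e : ι, ∑ x, V x + 3 * (16 / 9) * ∑ e, ∑ x, SW x e := by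
    simp only [Finset.mul_sum, ← Finset.sum_add_distrib]
    refine Finset.sum_congr rfl (fun e _ => Finset.sum_congr rfl (fun x _ => ?_))
    ring
  have e3 : ∑ e : ι, ∑ x, V (cflip x e) = (Fintype.card ι : ℝ) * ∑ x, V x := by
    rw [Finset.sum_congr rfl (fun e _ => sum_cflip V e), Finset.sum_const, Finset.card_univ,
      nsmul_eq_mul]
  have e4 : ∑ _e : ι, ∑ x, V x = (Fintype.card ι : ℝ) * ∑ x, V x := by
    rw [Finset.sum_const, Finset.card_univ, nsmul_eq_mul]
  have e5 : ∑ e, ∑ x, SW x e = ∑ x, ∑ e, SW x e := Finset.sum_comm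
  have hsumV : 0 ≤ ∑ x, V x := Finset.sum_nonneg (fun x _ => hVnn x)
  have hcardnn : (0 : ℝ) ≤ (Fintype.card ι : ℝ) := Nat.cast_nonneg _
  have hfin : N x0 * (1 / 4 * ∑ e, ∑ x, (g (cflip x e) - g x) ^ 2)
      ≤ 1 / 4 * ∑ e, ∑ x,
          3 * (128 / 27 * δ * V (cflip x e) + 128 / 27 * δ * V x + 16 / 9 * SW x e) := by
    have e6 : N x0 * (1 / 4 * ∑ e, ∑ x, (g (cflip x e) - g x) ^ 2)
        = 1 / 4 * ∑ e, ∑ x, N x0 * (g (cflip x e) - g x) ^ 2 := by
      simp only [Finset.mul_sum]
      refine Finset.sum_congr rfl (fun e _ => Finset.sum_congr rfl (fun x _ => ?_))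
      ring
    rw [e6]
    apply mul_le_mul_of_nonneg_left _ (by norm_num)
    exact Finset.sum_le_sum (fun e _ => Finset.sum_le_sum (fun x _ => hedge x e))
  have hES' := mul_le_mul_of_nonneg_left hES (hNpos x0).le
  rw [e2, e3, e4, e5] at hfin
  have hprod : 0 ≤ (Fintype.card ι : ℝ) * δ * ∑ x, V x :=
    mul_nonneg (mul_nonneg hcardnn hδ0) hsumV
  nlinarith

/-- The variance over a finite set cut into fibres over a cube.  `par` sends the elements of
`Ω` to the points of the cube `ι → Bool`, all fibres are nonempty; for every point `x` and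
coordinate `e` the subsets `Ap x e` of the fibre over `x` and `Am x e` of the fibre over the
flipped point are matched by the bijection `φ x e`, and their complements have relative size at
most `2 δ`, with `8 * card ι * δ ≤ 1`. -/
theorem cube_fibres {α ι : Type*} [DecidableEq α] [Fintype ι] [DecidableEq ι]
    (Ω : Finset α) (par : α → ι → Bool)
    (hne : ∀ x, (Ω.filter (fun T => par T = x)).Nonempty)
    (Ap Am : (ι → Bool) → ι → Finset α) (φ : (ι → Bool) → ι → α → α)
    (hAp : ∀ x e, Ap x e ⊆ Ω.filter (fun T => par T = x))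
    (hAm : ∀ x e, Am x e ⊆ Ω.filter (fun T => par T = Function.update x e (!(x e))))
    (hφ : ∀ x e, Set.BijOn (φ x e) (Ap x e : Set α) (Am x e : Set α))
    (δ : ℝ) (hδ0 : 0 ≤ δ) (hδ : 8 * (Fintype.card ι : ℝ) * δ ≤ 1)
    (h1 : ∀ x e, ((Ω.filter (fun T => par T = x) \ Ap x e).card : ℝ)
        ≤ 2 * δ * ((Ω.filter (fun T => par T = x)).card : ℝ))
    (h2 : ∀ x e,
        ((Ω.filter (fun T => par T = Function.update x e (!(x e))) \ Am x e).card : ℝ)
        ≤ 2 * δ * ((Ω.filter (fun T => par T = Function.update x e (!(x e)))).card : ℝ))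
    (f : α → ℝ) :
    vsum Ω f
      ≤ (1 + 8 * (Fintype.card ι : ℝ) * δ) * ∑ x, vsum (Ω.filter (fun T => par T = x)) f
        + 4 / 3 * ∑ x, ∑ e, ∑ T ∈ Ap x e, (f (φ x e T) - f T) ^ 2 := by
  have hΩ : Ω.Nonempty := (hne (fun _ => false)).mono (Finset.filter_subset _ _)
  have hΩc : (0 : ℝ) < (Ω.card : ℝ) := by exact_mod_cast Finset.card_pos.mpr hΩ
  have hcard : ∑ x, ((Ω.filter (fun T => par T = x)).card : ℝ) = (Ω.card : ℝ) := by
    have := Finset.card_eq_sum_card_fiberwise (f := par) (s := Ω) (t := Finset.univ)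
      (fun T _ => Finset.mem_univ _)
    rw [this]
    push_cast
    rfl
  have hsum : ∀ F : α → ℝ, ∑ x, ∑ T ∈ Ω.filter (fun T => par T = x), F T = ∑ T ∈ Ω, F T :=
    fun F => Finset.sum_fiberwise Ω par F
  have hm : mean Ω f * ∑ x, ((Ω.filter (fun T => par T = x)).card : ℝ)
      = ∑ x, ∑ T ∈ Ω.filter (fun T => par T = x), f T := by
    rw [hcard, hsum f]
    unfold mean
    field_simp
  have hmain := cube_between (fun x => Ω.filter (fun T => par T = x)) hne Ap Am φ hAp hAm hφ δ
    hδ0 hδ h1 h2 f (mean Ω f) hm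
  have hdec : vsum Ω f = ∑ x, vsum (Ω.filter (fun T => par T = x)) f
      + ∑ x, ((Ω.filter (fun T => par T = x)).card : ℝ)
          * (mean (Ω.filter (fun T => par T = x)) f - mean Ω f) ^ 2 := by
    have e1 : vsum Ω f = ∑ T ∈ Ω, (f T - mean Ω f) ^ 2 := rfl
    rw [e1, ← hsum (fun T => (f T - mean Ω f) ^ 2), ← Finset.sum_add_distrib]
    exact Finset.sum_congr rfl (fun x _ => vsum_shift _ (hne x) f (mean Ω f))
  rw [hdec]
  linarith

end Vale.Agent.Lib.P328.BP
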