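import Mathlib

/-!
# P328: the decay of the total in one step of the counting reduction

If `N < D * k` and `1 ≤ k ≤ N`, then `logb 2 (N - k + 1) + 1 / D ≤ logb 2 (N + 1)`.
-/

namespace Vale.Agent.Lib.P328.BP

/-- If `N < D * k` and `1 ≤ k ≤ N`, then `log₂ (N - k + 1) + 1 / D ≤ log₂ (N + 1)`. -/
theorem logb_decay (D N k : ℕ) (hD : 1 ≤ D) (_hk1 : 1 ≤ k) (hk : k ≤ N) (hN : N < D * k) :
    Real.logb 2 (((N - k : ℕ) : ℝ) + 1) + 1 / (D : ℝ) ≤ Real.logb 2 ((N : ℝ) + 1) := by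
  have hDr : (1 : ℝ) ≤ (D : ℝ) := by exact_mod_cast hD
  have hDpos : (0 : ℝ) < (D : ℝ) := by linarith
  have hcast : ((N - k : ℕ) : ℝ) = (N : ℝ) - (k : ℝ) := by rw [Nat.cast_sub hk]
  have hNk : (N : ℝ) + 1 ≤ (D : ℝ) * (k : ℝ) := by
    have h : N + 1 ≤ D * k := hN
    exact_mod_cast h
  have hkr : (k : ℝ) ≤ (N : ℝ) := by exact_mod_cast hk
  have hN0 : (0 : ℝ) ≤ (N : ℝ) := Nat.cast_nonneg N
  rw [hcast]
  have ha0 : (0 : ℝ) < (N : ℝ) - (k : ℝ) + 1 := by linarith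
  have hb0 : (0 : ℝ) < (N : ℝ) + 1 := by linarith
  have h1 : ((N : ℝ) - (k : ℝ) + 1) / ((N : ℝ) + 1) ≤ 1 - 1 / (D : ℝ) := by
    rw [div_le_iff₀ hb0]
    have h2 : (1 - 1 / (D : ℝ)) * ((N : ℝ) + 1) = (((D : ℝ) - 1) * ((N : ℝ) + 1)) / (D : ℝ) := by
      field_simp
    rw [h2, le_div_iff₀ hDpos]
    nlinarith
  have h3 : Real.log (((N : ℝ) - (k : ℝ) + 1) / ((N : ℝ) + 1))
      ≤ ((N : ℝ) - (k : ℝ) + 1) / ((N : ℝ) + 1) - 1 :=
    Real.log_le_sub_one_of_pos (div_pos ha0 hb0)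
  have h4 : Real.log ((N : ℝ) - (k : ℝ) + 1) - Real.log ((N : ℝ) + 1) ≤ -(1 / (D : ℝ)) := by
    rw [← Real.log_div (ne_of_gt ha0) (ne_of_gt hb0)]
    linarith
  have hl2 : (0 : ℝ) < Real.log 2 := Real.log_pos (by norm_num)
  have hl2' : Real.log 2 ≤ 1 := by
    have := Real.log_two_lt_d9
    linarith
  have h5 : 1 / (D : ℝ) ≤ (1 / (D : ℝ)) / Real.log 2 := by
    rw [le_div_iff₀ hl2]
    have h0 : (0 : ℝ) ≤ 1 / (D : ℝ) := by positivity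
    nlinarith
  have h6 : Real.log ((N : ℝ) - (k : ℝ) + 1) / Real.log 2 + (1 / (D : ℝ)) / Real.log 2
      ≤ Real.log ((N : ℝ) + 1) / Real.log 2 := by
    rw [← add_div, div_le_div_iff_of_pos_right hl2]
    linarith
  rw [← Real.log_div_log, ← Real.log_div_log]
  linarith

end Vale.Agent.Lib.P328.BP
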