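import Vale.Agent.Lib.P328.BP.CountStep
import Vale.Agent.Lib.P328.BP.CountDecay

/-!
# P328: the chain of instances reducing counting to sampling

For every nonempty instance `(r, c)` with total `N` there is a chain of instances
`(ρ 0, γ 0) = (r, c)`, `(ρ 1, γ 1)`, ..., `(ρ s, γ s)` of length
`s ≤ 2 (m n) logb 2 (N + 1)`, in which `(ρ (t + 1), γ (t + 1))` arises from `(ρ t, γ t)` by
subtracting `k t ≥ 1` from the row sum `i t` and from the column sum `j t`, the tables of
`(ρ (t + 1), γ (t + 1))` are as many as the tables `T` of `(ρ t, γ t)` with `k t ≤ T (i t) (j t)`,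
these are at least a fraction `1 / (2 (m n))` of all tables of `(ρ t, γ t)`, and the number of
tables of `(r, c)` is the product of the inverse fractions (`exists_chain`).
-/

namespace Vale.Agent.Lib.P328.BP

open Finset
open scoped Classical
open Vale.Agent.Lib.P328.CT

variable {R C : Type*} [Fintype R] [Fintype C]

/-- Prepend a term to a sequence. -/
def consSeq {α : Type*} (a : α) (f : ℕ → α) : ℕ → α
  | 0 => a
  | (t + 1) => f t

theorem consSeq_zero {α : Type*} (a : α) (f : ℕ → α) : consSeq a f 0 = a := rfl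

theorem consSeq_succ {α : Type*} (a : α) (f : ℕ → α) (t : ℕ) : consSeq a f (t + 1) = f t := rfl

/-- The total of the instance with `k` subtracted from the row sum `i`. -/
theorem sum_update_sub (r : R → ℕ) (i : R) (k : ℕ) (hk : k ≤ r i) :
    ∑ a, Function.update r i (r i - k) a + k = ∑ a, r a := by
  apply sum_add_of_point r (Function.update r i (r i - k)) i k
  · rw [Function.update_self]
    omega
  · intro b hb
    rw [Function.update_of_ne hb]

/-- With total zero there is exactly one table, if there is any. -/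
theorem card_tables_of_sum_zero (r : R → ℕ) (c : C → ℕ) (h : ∑ a, r a = 0)
    (hne : (tables r c).Nonempty) : (tables r c).card = 1 := by
  rw [Finset.card_eq_one]
  obtain ⟨T, hT⟩ := hne
  refine ⟨T, Finset.eq_singleton_iff_unique_mem.mpr ⟨hT, ?_⟩⟩
  intro T' hT'
  funext a b
  have hr : r a = 0 := Finset.sum_eq_zero_iff.mp h a (Finset.mem_univ a)
  have h1 : T a b = 0 := by
    have h3 := (mem_tables.mp hT).1 a
    rw [hr] at h3
    exact Finset.sum_eq_zero_iff.mp h3 b (Finset.mem_univ b)
  have h2 : T' a b = 0 := by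
    have h3 := (mem_tables.mp hT').1 a
    rw [hr] at h3
    exact Finset.sum_eq_zero_iff.mp h3 b (Finset.mem_univ b)
  rw [h1, h2]

/-- The chain of instances: see the header of this file. -/
theorem exists_chain (i0 : R) (j0 : C) (N : ℕ) :
    ∀ (r : R → ℕ) (c : C → ℕ), ∑ a, r a = N → (tables r c).Nonempty →
    ∃ (s : ℕ) (ρ : ℕ → R → ℕ) (γ : ℕ → C → ℕ) (i : ℕ → R) (j : ℕ → C) (k : ℕ → ℕ),
      (s : ℝ) ≤ ((2 * (Fintype.card R * Fintype.card C) : ℕ) : ℝ) * Real.logb 2 ((N : ℝ) + 1) ∧
      ρ 0 = r ∧ γ 0 = c ∧
      (∀ t, t < s → 1 ≤ k t ∧ k t ≤ ρ t (i t) ∧ k t ≤ γ t (j t) ∧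
        ρ (t + 1) = Function.update (ρ t) (i t) (ρ t (i t) - k t) ∧
        γ (t + 1) = Function.update (γ t) (j t) (γ t (j t) - k t) ∧
        (tables (ρ (t + 1)) (γ (t + 1))).card
          = ((tables (ρ t) (γ t)).filter (fun T => k t ≤ T (i t) (j t))).card ∧
        (tables (ρ t) (γ t)).card ≤ 2 * (Fintype.card R * Fintype.card C)
          * ((tables (ρ t) (γ t)).filter (fun T => k t ≤ T (i t) (j t))).card) ∧
      ((tables r c).card : ℝ) = ∏ t ∈ Finset.range s, ((tables (ρ t) (γ t)).card : ℝ)
          / (((tables (ρ t) (γ t)).filter (fun T => k t ≤ T (i t) (j t))).card : ℝ) := by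
  induction N using Nat.strong_induction_on with
  | _ N ih =>
    intro r c hN hne
    by_cases hN0 : N = 0
    · subst hN0
      refine ⟨0, fun _ => r, fun _ => c, fun _ => i0, fun _ => j0, fun _ => 0, ?_, rfl, rfl,
        ?_, ?_⟩
      · simp
      · intro t ht
        exact absurd ht (Nat.not_lt_zero t)
      · rw [Finset.prod_range_zero, card_tables_of_sum_zero r c hN hne]
        simp
    · have hN1 : 1 ≤ ∑ a, r a := by omega
      obtain ⟨i1, j1, k1, hk1, hkr, hkc, hlt, hfrac⟩ := exists_cell_threshold r c hne hN1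
      have hZ : 1 ≤ (tables r c).card := Finset.card_pos.mpr hne
      have hF1 : 1 ≤ ((tables r c).filter (fun T => k1 ≤ T i1 j1)).card := by
        by_contra hcon
        have h0 : ((tables r c).filter (fun T => k1 ≤ T i1 j1)).card = 0 := by omega
        rw [h0, Nat.mul_zero] at hfrac
        omega
      have hcard := card_filter_ge_eq r c i1 j1 k1 hkr hkc
      have hne' : (tables (Function.update r i1 (r i1 - k1))
          (Function.update c j1 (c j1 - k1))).Nonempty := by
        rw [← Finset.card_pos, ← hcard]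
        exact hF1
      have hsum' := sum_update_sub r i1 k1 hkr
      rw [hN] at hlt hsum'
      have hkN : k1 ≤ N := by omega
      have hlt' : N - k1 < N := by omega
      have hD : 1 ≤ 2 * (Fintype.card R * Fintype.card C) := by
        by_contra hcon
        have h0 : 2 * (Fintype.card R * Fintype.card C) = 0 := by omega
        rw [h0, Nat.zero_mul] at hlt
        omega
      obtain ⟨s', ρ', γ', i', j', k', hs', hρ0, hγ0, hstep, hprod⟩ :=
        ih (N - k1) hlt' _ _ (by omega) hne'
      refine ⟨s' + 1, consSeq r ρ', consSeq c γ', consSeq i1 i', consSeq j1 j', consSeq k1 k',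
        ?_, rfl, rfl, ?_, ?_⟩
      · have hdec := logb_decay (2 * (Fintype.card R * Fintype.card C)) N k1 hD hk1 hkN hlt
        have hDr : (1 : ℝ) ≤ ((2 * (Fintype.card R * Fintype.card C) : ℕ) : ℝ) := by
          exact_mod_cast hD
        have hDpos : (0 : ℝ) < ((2 * (Fintype.card R * Fintype.card C) : ℕ) : ℝ) := by linarith
        have h1 : ((2 * (Fintype.card R * Fintype.card C) : ℕ) : ℝ)
            * (Real.logb 2 (((N - k1 : ℕ) : ℝ) + 1)
              + 1 / ((2 * (Fintype.card R * Fintype.card C) : ℕ) : ℝ))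
            ≤ ((2 * (Fintype.card R * Fintype.card C) : ℕ) : ℝ) * Real.logb 2 ((N : ℝ) + 1) :=
          mul_le_mul_of_nonneg_left hdec (le_of_lt hDpos)
        rw [mul_add, mul_one_div_cancel (ne_of_gt hDpos)] at h1
        rw [Nat.cast_add, Nat.cast_one]
        linarith
      · intro t ht
        cases t with
        | zero =>
          show 1 ≤ k1 ∧ k1 ≤ r i1 ∧ k1 ≤ c j1 ∧
            ρ' 0 = Function.update r i1 (r i1 - k1) ∧
            γ' 0 = Function.update c j1 (c j1 - k1) ∧
            (tables (ρ' 0) (γ' 0)).card = ((tables r c).filter (fun T => k1 ≤ T i1 j1)).card ∧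
            (tables r c).card ≤ 2 * (Fintype.card R * Fintype.card C)
              * ((tables r c).filter (fun T => k1 ≤ T i1 j1)).card
          rw [hρ0, hγ0]
          exact ⟨hk1, hkr, hkc, rfl, rfl, hcard.symm, hfrac⟩
        | succ t => exact hstep t (by omega)
      · rw [Finset.prod_range_succ']
        show ((tables r c).card : ℝ)
          = (∏ t ∈ Finset.range s', ((tables (ρ' t) (γ' t)).card : ℝ)
            / (((tables (ρ' t) (γ' t)).filter (fun T => k' t ≤ T (i' t) (j' t))).card : ℝ))
            * (((tables r c).card : ℝ)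
              / (((tables r c).filter (fun T => k1 ≤ T i1 j1)).card : ℝ))
        rw [← hprod, ← hcard]
        have hFr : ((((tables r c).filter (fun T => k1 ≤ T i1 j1)).card : ℕ) : ℝ) ≠ 0 := by
          have : (1 : ℝ) ≤ ((((tables r c).filter (fun T => k1 ≤ T i1 j1)).card : ℕ) : ℝ) := by
            exact_mod_cast hF1
          linarith
        field_simp

end Vale.Agent.Lib.P328.BP
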