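import Vale.Agent.Lib.P328.BP.Usw
import Vale.Agent.Lib.P328.AM.CoreAvg

/-!
# P328 / bit planes: the energy of a unit switch is at most four times a 2 × 2 term
(step (IIc))

For rows `i ≠ i₀` and columns `j ≠ j₀`, the unit switch `usw i₀ i j₀ j` maps a table `T` with
positive entries in row `i₀`, column `j` and in row `i`, column `j₀` to a table of the same
2 × 2 class (rows `i₀`, `i`, columns `j₀`, `j`), injectively.  Hence the sum over these tables
of the squares of `f (usw T) - f T` is at most four times the 2 × 2 term of `f` for this pair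
of rows and this pair of columns (`switch_energy_le`).
-/

namespace Vale.Agent.Lib.P328.BP

open Finset
open scoped Classical
open Vale.Agent.Lib.P328.CT Vale.Agent.Lib.P335.Bip Vale.Agent.Lib.P328.AM

variable {R C : Type*} [Fintype R] [Fintype C]

/-- The tables on which the unit switch is defined: positive entries in row `i₀`, column `j`
and in row `i`, column `j₀`. -/
noncomputable def swDom (r : R → ℕ) (c : C → ℕ) (i₀ i : R) (j₀ j : C) : Finset (R → C → ℕ) :=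
  (tables r c).filter (fun T => 1 ≤ T i₀ j ∧ 1 ≤ T i j₀)

theorem mem_swDom {r : R → ℕ} {c : C → ℕ} {i₀ i : R} {j₀ j : C} {T : R → C → ℕ} :
    T ∈ swDom r c i₀ i j₀ j ↔ T ∈ tables r c ∧ 1 ≤ T i₀ j ∧ 1 ≤ T i j₀ := by
  unfold swDom
  exact Finset.mem_filter

/-- The switched table lies in the 2 × 2 class of the table: same box average. -/
theorem boxAvg_usw {r : R → ℕ} {c : C → ℕ} {i₀ i : R} {j₀ j : C} (hi : i ≠ i₀) (hj : j ≠ j₀)
    (f : (R → C → ℕ) → ℝ) {T : R → C → ℕ} (hT : T ∈ tables r c) (h1 : 1 ≤ T i₀ j)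
    (h2 : 1 ≤ T i j₀) :
    boxAvg r c {i₀, i} {j₀, j} f (usw i₀ i j₀ j T) = boxAvg r c {i₀, i} {j₀, j} f T :=
  boxAvg_congr {i₀, i} {j₀, j} f (usw_mem_tables hi hj hT h1 h2) hT
    (fun a b hab => usw_outside T a b hab)

/-- The unit switch is injective on its domain. -/
theorem usw_injOn_swDom {r : R → ℕ} {c : C → ℕ} {i₀ i : R} {j₀ j : C} (hi : i ≠ i₀)
    (hj : j ≠ j₀) :
    Set.InjOn (usw i₀ i j₀ j) (swDom r c i₀ i j₀ j : Set (R → C → ℕ)) := by
  intro T hT T' hT' heq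
  rw [Finset.mem_coe, mem_swDom] at hT hT'
  rw [← usw_inv hi hj T hT.2.1 hT.2.2, ← usw_inv hi hj T' hT'.2.1 hT'.2.2, heq]

/-- **Step (IIc).**  The energy of the unit switch on the rectangle with rows `i₀`, `i` and
columns `j₀`, `j` is at most four times the 2 × 2 term of this rectangle. -/
theorem switch_energy_le {r : R → ℕ} {c : C → ℕ} {i₀ i : R} {j₀ j : C} (hi : i ≠ i₀)
    (hj : j ≠ j₀) (f : (R → C → ℕ) → ℝ) :
    ∑ T ∈ swDom r c i₀ i j₀ j, (f (usw i₀ i j₀ j T) - f T) ^ 2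
      ≤ 4 * ∑ T ∈ tables r c, (f T - boxAvg r c {i₀, i} {j₀, j} f T) ^ 2 := by
  set G : (R → C → ℕ) → ℝ := fun T => (f T - boxAvg r c {i₀, i} {j₀, j} f T) ^ 2 with hG
  have hG0 : ∀ T, 0 ≤ G T := fun T => sq_nonneg _
  have hpt : ∀ T ∈ swDom r c i₀ i j₀ j,
      (f (usw i₀ i j₀ j T) - f T) ^ 2 ≤ 2 * G (usw i₀ i j₀ j T) + 2 * G T := by
    intro T hT
    rw [mem_swDom] at hT
    have hb := boxAvg_usw hi hj f hT.1 hT.2.1 hT.2.2
    show (f (usw i₀ i j₀ j T) - f T) ^ 2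
      ≤ 2 * (f (usw i₀ i j₀ j T) - boxAvg r c {i₀, i} {j₀, j} f (usw i₀ i j₀ j T)) ^ 2
        + 2 * (f T - boxAvg r c {i₀, i} {j₀, j} f T) ^ 2
    rw [hb]
    nlinarith [sq_nonneg ((f (usw i₀ i j₀ j T) - boxAvg r c {i₀, i} {j₀, j} f T)
      + (f T - boxAvg r c {i₀, i} {j₀, j} f T))]
  have hsub : swDom r c i₀ i j₀ j ⊆ tables r c := by
    unfold swDom
    exact Finset.filter_subset _ _
  have h1 : ∑ T ∈ swDom r c i₀ i j₀ j, G T ≤ ∑ T ∈ tables r c, G T :=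
    Finset.sum_le_sum_of_subset_of_nonneg hsub (fun T _ _ => hG0 T)
  have himg : (swDom r c i₀ i j₀ j).image (usw i₀ i j₀ j) ⊆ tables r c := by
    intro T' hT'
    obtain ⟨T, hT, rfl⟩ := Finset.mem_image.mp hT'
    rw [mem_swDom] at hT
    exact usw_mem_tables hi hj hT.1 hT.2.1 hT.2.2
  have h2 : ∑ T ∈ swDom r c i₀ i j₀ j, G (usw i₀ i j₀ j T) ≤ ∑ T ∈ tables r c, G T := by
    rw [← Finset.sum_image (f := G) (usw_injOn_swDom hi hj)]
    exact Finset.sum_le_sum_of_subset_of_nonneg himg (fun T _ _ => hG0 T)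
  calc ∑ T ∈ swDom r c i₀ i j₀ j, (f (usw i₀ i j₀ j T) - f T) ^ 2
      ≤ ∑ T ∈ swDom r c i₀ i j₀ j, (2 * G (usw i₀ i j₀ j T) + 2 * G T) :=
        Finset.sum_le_sum hpt
    _ = 2 * ∑ T ∈ swDom r c i₀ i j₀ j, G (usw i₀ i j₀ j T)
          + 2 * ∑ T ∈ swDom r c i₀ i j₀ j, G T := by
        rw [Finset.sum_add_distrib, ← Finset.mul_sum, ← Finset.mul_sum]
    _ ≤ 4 * ∑ T ∈ tables r c, G T := by linarith

end Vale.Agent.Lib.P328.BP
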