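import Vale.Agent.Lib.P328.BP.Parity

/-!
# P328 / bit planes: the parity patterns are parametrised by the free cells (step (II))

Fix a row `i₀` and a column `j₀`.  The free cells are the cells off the row `i₀` and off the
column `j₀`; `Free i₀ j₀` is their type and the cube is `Free i₀ j₀ → Bool`.  `pat r c i₀ j₀ x`
is the `0/1` matrix with the free cells given by `x`, the column `j₀` fixed by the row parities
`r`, the row `i₀` fixed by the column parities `c` and the corner `(i₀, j₀)` fixed by the parity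
of `r i₀`.  Every parity pattern of the margins `r`, `c` is `pat r c i₀ j₀ x` for its free part
`x` (`eq_pat_freePart`, `par_eq_pat`), `pat` is injective, and flipping the free cell `(i, j)`
flips `pat` exactly on the four cells of the rectangle with rows `i₀`, `i` and columns `j₀`, `j`
(`pat_flip`).  `sum_patterns` turns a sum over the parity patterns into a sum over the cube.
-/

namespace Vale.Agent.Lib.P328.BP

open Finset
open Vale.Agent.Lib.P328.CT

variable {R C : Type*} [Fintype R] [Fintype C] [DecidableEq R] [DecidableEq C]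

/-- The free cells: the cells off the row `i₀` and off the column `j₀`. -/
abbrev Free (i₀ : R) (j₀ : C) : Type _ := {i : R // i ≠ i₀} × {j : C // j ≠ j₀}

/-- `1` for `true` and `0` for `false`. -/
def bit (b : Bool) : ℕ := if b then 1 else 0

theorem bit_le_one (b : Bool) : bit b ≤ 1 := by
  cases b <;> simp [bit]

theorem bit_not (b : Bool) : bit (!b) + bit b = 1 := by
  cases b <;> simp [bit]

theorem bit_decide_of_le_one {k : ℕ} (hk : k ≤ 1) : bit (decide (k % 2 = 1)) = k := by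
  have h : k = 0 ∨ k = 1 := by omega
  rcases h with h | h <;> subst h <;> simp [bit]

/-- Changing one value of a `0/1` family changes the sum by the change of that value. -/
theorem sum_bit_update {ι : Type*} [Fintype ι] [DecidableEq ι] (x : ι → Bool) (e : ι)
    (v : Bool) :
    ∑ p, bit (Function.update x e v p) + bit (x e) = ∑ p, bit (x p) + bit v := by
  have h1 : ∀ p, bit (Function.update x e v p) + (if p = e then bit (x e) else 0)
      = bit (x p) + (if p = e then bit v else 0) := by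
    intro p
    by_cases hp : p = e
    · subst hp
      simp
      exact Nat.add_comm _ _
    · simp [hp]
  have h2 := Finset.sum_congr (s₁ := (Finset.univ : Finset ι)) rfl (fun p _ => h1 p)
  rw [Finset.sum_add_distrib, Finset.sum_add_distrib, Finset.sum_ite_eq', Finset.sum_ite_eq'] at h2
  simpa using h2

/-- The free part of a `0/1` matrix. -/
def freePart (i₀ : R) (j₀ : C) (B : R → C → ℕ) : Free i₀ j₀ → Bool :=
  fun e => decide (B e.1.1 e.2.1 % 2 = 1)

/-- The parity pattern of the margins `r`, `c` with the free cells `x`. -/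
def pat (r : R → ℕ) (c : C → ℕ) (i₀ : R) (j₀ : C) (x : Free i₀ j₀ → Bool) : R → C → ℕ :=
  fun a b =>
    if ha : a = i₀ then
      if hb : b = j₀ then
        (r i₀ + ∑ j' : {j : C // j ≠ j₀}, (c j'.1 + ∑ i' : {i : R // i ≠ i₀}, bit (x (i', j')))) % 2
      else (c b + ∑ i' : {i : R // i ≠ i₀}, bit (x (i', ⟨b, hb⟩))) % 2
    else
      if hb : b = j₀ then (r a + ∑ j' : {j : C // j ≠ j₀}, bit (x (⟨a, ha⟩, j'))) % 2
      else bit (x (⟨a, ha⟩, ⟨b, hb⟩))

theorem pat_corner (r : R → ℕ) (c : C → ℕ) (i₀ : R) (j₀ : C) (x : Free i₀ j₀ → Bool) :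
    pat r c i₀ j₀ x i₀ j₀
      = (r i₀ + ∑ j' : {j : C // j ≠ j₀},
          (c j'.1 + ∑ i' : {i : R // i ≠ i₀}, bit (x (i', j')))) % 2 := by
  simp [pat]

theorem pat_row (r : R → ℕ) (c : C → ℕ) (i₀ : R) (j₀ : C) (x : Free i₀ j₀ → Bool) {b : C}
    (hb : b ≠ j₀) :
    pat r c i₀ j₀ x i₀ b = (c b + ∑ i' : {i : R // i ≠ i₀}, bit (x (i', ⟨b, hb⟩))) % 2 := by
  simp [pat, hb]

theorem pat_col (r : R → ℕ) (c : C → ℕ) (i₀ : R) (j₀ : C) (x : Free i₀ j₀ → Bool) {a : R}
    (ha : a ≠ i₀) :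
    pat r c i₀ j₀ x a j₀ = (r a + ∑ j' : {j : C // j ≠ j₀}, bit (x (⟨a, ha⟩, j'))) % 2 := by
  simp [pat, ha]

theorem pat_free (r : R → ℕ) (c : C → ℕ) (i₀ : R) (j₀ : C) (x : Free i₀ j₀ → Bool) {a : R}
    {b : C} (ha : a ≠ i₀) (hb : b ≠ j₀) :
    pat r c i₀ j₀ x a b = bit (x (⟨a, ha⟩, ⟨b, hb⟩)) := by
  simp [pat, ha, hb]

/-- The entries of `pat` are `0` or `1`. -/
theorem pat_le_one (r : R → ℕ) (c : C → ℕ) (i₀ : R) (j₀ : C) (x : Free i₀ j₀ → Bool) (a : R)
    (b : C) : pat r c i₀ j₀ x a b ≤ 1 := by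
  by_cases ha : a = i₀
  · subst ha
    by_cases hb : b = j₀
    · subst hb
      rw [pat_corner]
      omega
    · rw [pat_row r c a j₀ x hb]
      omega
  · by_cases hb : b = j₀
    · subst hb
      rw [pat_col r c i₀ b x ha]
      omega
    · rw [pat_free r c i₀ j₀ x ha hb]
      exact bit_le_one _

/-- The free part of `pat r c i₀ j₀ x` is `x`. -/
theorem freePart_pat (r : R → ℕ) (c : C → ℕ) (i₀ : R) (j₀ : C) (x : Free i₀ j₀ → Bool) :
    freePart i₀ j₀ (pat r c i₀ j₀ x) = x := by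
  funext e
  obtain ⟨⟨a, ha⟩, ⟨b, hb⟩⟩ := e
  show decide (pat r c i₀ j₀ x a b % 2 = 1) = x (⟨a, ha⟩, ⟨b, hb⟩)
  rw [pat_free r c i₀ j₀ x ha hb]
  cases x (⟨a, ha⟩, ⟨b, hb⟩) <;> simp [bit]

theorem pat_injective (r : R → ℕ) (c : C → ℕ) (i₀ : R) (j₀ : C) :
    Function.Injective (pat r c i₀ j₀) := by
  intro x y h
  rw [← freePart_pat r c i₀ j₀ x, ← freePart_pat r c i₀ j₀ y, h]

/-- The row sums of `pat` have the parities of `r`. -/
theorem pat_row_parity (r : R → ℕ) (c : C → ℕ) (i₀ : R) (j₀ : C) (x : Free i₀ j₀ → Bool)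
    (a : R) : (∑ b, pat r c i₀ j₀ x a b) % 2 = r a % 2 := by
  rw [Fintype.sum_eq_add_sum_subtype_ne _ j₀]
  by_cases ha : a = i₀
  · subst ha
    rw [pat_corner]
    have h1 : ∑ j' : {j : C // j ≠ j₀}, pat r c a j₀ x a j'.1
        = ∑ j' : {j : C // j ≠ j₀},
            (c j'.1 + ∑ i' : {i : R // i ≠ a}, bit (x (i', j'))) % 2 :=
      Finset.sum_congr rfl (fun j' _ => pat_row r c a j₀ x j'.2)
    rw [h1]
    have h2 := Finset.sum_nat_mod (Finset.univ : Finset {j : C // j ≠ j₀})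
      2 (fun j' => c j'.1 + ∑ i' : {i : R // i ≠ a}, bit (x (i', j')))
    omega
  · rw [pat_col r c i₀ j₀ x ha]
    have h1 : ∑ j' : {j : C // j ≠ j₀}, pat r c i₀ j₀ x a j'.1
        = ∑ j' : {j : C // j ≠ j₀}, bit (x (⟨a, ha⟩, j')) :=
      Finset.sum_congr rfl (fun j' _ => pat_free r c i₀ j₀ x ha j'.2)
    rw [h1]
    omega

/-- The column sums of `pat` off the column `j₀` have the parities of `c`. -/
theorem pat_col_parity (r : R → ℕ) (c : C → ℕ) (i₀ : R) (j₀ : C) (x : Free i₀ j₀ → Bool)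
    {b : C} (hb : b ≠ j₀) : (∑ a, pat r c i₀ j₀ x a b) % 2 = c b % 2 := by
  rw [Fintype.sum_eq_add_sum_subtype_ne _ i₀, pat_row r c i₀ j₀ x hb]
  have h1 : ∑ i' : {i : R // i ≠ i₀}, pat r c i₀ j₀ x i'.1 b
      = ∑ i' : {i : R // i ≠ i₀}, bit (x (i', ⟨b, hb⟩)) :=
    Finset.sum_congr rfl (fun i' _ => pat_free r c i₀ j₀ x i'.2 hb)
  rw [h1]
  omega

/-- The sum of the column `j₀` of `pat` has the parity of `c j₀` when the two margins have
totals of the same parity. -/
theorem pat_col_parity₀ (r : R → ℕ) (c : C → ℕ) (i₀ : R) (j₀ : C) (x : Free i₀ j₀ → Bool)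
    (hsum : (∑ i, r i) % 2 = (∑ j, c j) % 2) : (∑ a, pat r c i₀ j₀ x a j₀) % 2 = c j₀ % 2 := by
  rw [Fintype.sum_eq_add_sum_subtype_ne _ i₀, pat_corner]
  rw [Fintype.sum_eq_add_sum_subtype_ne r i₀, Fintype.sum_eq_add_sum_subtype_ne c j₀] at hsum
  have h1 : ∑ i' : {i : R // i ≠ i₀}, pat r c i₀ j₀ x i'.1 j₀
      = ∑ i' : {i : R // i ≠ i₀},
          (r i'.1 + ∑ j' : {j : C // j ≠ j₀}, bit (x (i', j'))) % 2 :=
    Finset.sum_congr rfl (fun i' _ => pat_col r c i₀ j₀ x i'.2)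
  rw [h1]
  have h2 := Finset.sum_nat_mod (Finset.univ : Finset {i : R // i ≠ i₀})
    2 (fun i' => r i'.1 + ∑ j' : {j : C // j ≠ j₀}, bit (x (i', j')))
  rw [Finset.sum_add_distrib] at h2
  rw [Finset.sum_add_distrib]
  have h3 : ∑ j' : {j : C // j ≠ j₀}, ∑ i' : {i : R // i ≠ i₀}, bit (x (i', j'))
      = ∑ i' : {i : R // i ≠ i₀}, ∑ j' : {j : C // j ≠ j₀}, bit (x (i', j')) :=
    Finset.sum_comm
  rw [h3]
  omega

/-- A `0/1` matrix whose row sums have the parities of `r` and whose column sums off the column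
`j₀` have the parities of `c` is the pattern of its free part. -/
theorem eq_pat_freePart (r : R → ℕ) (c : C → ℕ) (i₀ : R) (j₀ : C) (B : R → C → ℕ)
    (hB1 : ∀ i j, B i j ≤ 1) (hr : ∀ i, (∑ j, B i j) % 2 = r i % 2)
    (hc : ∀ j, j ≠ j₀ → (∑ i, B i j) % 2 = c j % 2) :
    B = pat r c i₀ j₀ (freePart i₀ j₀ B) := by
  have hfree : ∀ (i' : {i : R // i ≠ i₀}) (j' : {j : C // j ≠ j₀}),
      bit (freePart i₀ j₀ B (i', j')) = B i'.1 j'.1 :=
    fun i' j' => bit_decide_of_le_one (hB1 i'.1 j'.1)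
  funext a b
  by_cases ha : a = i₀
  · subst ha
    by_cases hb : b = j₀
    · subst hb
      rw [pat_corner]
      have h1 : ∀ j' : {j : C // j ≠ b},
          (c j'.1 + ∑ i' : {i : R // i ≠ a}, bit (freePart a b B (i', j'))) % 2
            = B a j'.1 % 2 := by
        intro j'
        have h := hc j'.1 j'.2
        rw [Fintype.sum_eq_add_sum_subtype_ne _ a] at h
        have h' : ∑ i' : {i : R // i ≠ a}, bit (freePart a b B (i', j'))
            = ∑ i' : {i : R // i ≠ a}, B i'.1 j'.1 :=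
          Finset.sum_congr rfl (fun i' _ => hfree i' j')
        rw [h']
        omega
      have h2 := Finset.sum_nat_mod (Finset.univ : Finset {j : C // j ≠ b})
        2 (fun j' => c j'.1 + ∑ i' : {i : R // i ≠ a}, bit (freePart a b B (i', j')))
      rw [Finset.sum_congr rfl (fun j' _ => h1 j')] at h2
      have h3 := Finset.sum_nat_mod (Finset.univ : Finset {j : C // j ≠ b})
        2 (fun j' => B a j'.1)
      have h4 := hr a
      rw [Fintype.sum_eq_add_sum_subtype_ne _ b] at h4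
      have h5 := hB1 a b
      omega
    · rw [pat_row r c a j₀ _ hb]
      have h := hc b hb
      rw [Fintype.sum_eq_add_sum_subtype_ne _ a] at h
      have h' : ∑ i' : {i : R // i ≠ a}, bit (freePart a j₀ B (i', ⟨b, hb⟩))
          = ∑ i' : {i : R // i ≠ a}, B i'.1 b :=
        Finset.sum_congr rfl (fun i' _ => hfree i' ⟨b, hb⟩)
      rw [h']
      have h5 := hB1 a b
      omega
  · by_cases hb : b = j₀
    · subst hb
      rw [pat_col r c i₀ b _ ha]
      have h := hr a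
      rw [Fintype.sum_eq_add_sum_subtype_ne _ b] at h
      have h' : ∑ j' : {j : C // j ≠ b}, bit (freePart i₀ b B (⟨a, ha⟩, j'))
          = ∑ j' : {j : C // j ≠ b}, B a j'.1 :=
        Finset.sum_congr rfl (fun j' _ => hfree ⟨a, ha⟩ j')
      rw [h']
      have h5 := hB1 a b
      omega
    · rw [pat_free r c i₀ j₀ _ ha hb]
      exact (hfree ⟨a, ha⟩ ⟨b, hb⟩).symm

/-- The parity pattern of a table with margins `r`, `c` is the pattern of its free part. -/
theorem par_eq_pat {r : R → ℕ} {c : C → ℕ} (i₀ : R) (j₀ : C) {T : R → C → ℕ}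
    (hT : T ∈ tables r c) : par T = pat r c i₀ j₀ (freePart i₀ j₀ (par T)) := by
  have hP := (isPattern_par hT).parity
  exact eq_pat_freePart r c i₀ j₀ (par T) hP.1 hP.2.1 (fun j _ => hP.2.2 j)

/-- Every parity pattern of the margins `r`, `c` is a `pat`. -/
theorem exists_pat_of_mem_patterns {r : R → ℕ} {c : C → ℕ} (i₀ : R) (j₀ : C) {B : R → C → ℕ}
    (hB : B ∈ patterns r c) : ∃ x : Free i₀ j₀ → Bool, pat r c i₀ j₀ x = B := by
  have hP := (isPattern_of_mem hB).parity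
  exact ⟨freePart i₀ j₀ B,
    (eq_pat_freePart r c i₀ j₀ B hP.1 hP.2.1 (fun j _ => hP.2.2 j)).symm⟩

/-- `pat` has the parities of the margins: the hypotheses on a pattern in the halving step. -/
theorem pat_parity (r : R → ℕ) (c : C → ℕ) (i₀ : R) (j₀ : C) (x : Free i₀ j₀ → Bool)
    (hsum : (∑ i, r i) % 2 = (∑ j, c j) % 2) :
    (∀ i j, pat r c i₀ j₀ x i j ≤ 1) ∧ (∀ i, (∑ j, pat r c i₀ j₀ x i j) % 2 = r i % 2) ∧
      (∀ j, (∑ i, pat r c i₀ j₀ x i j) % 2 = c j % 2) := by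
  refine ⟨pat_le_one r c i₀ j₀ x, pat_row_parity r c i₀ j₀ x, fun j => ?_⟩
  by_cases hj : j = j₀
  · subst hj
    exact pat_col_parity₀ r c i₀ j x hsum
  · exact pat_col_parity r c i₀ j₀ x hj

omit [DecidableEq R] [DecidableEq C] in
/-- The totals of the two margins agree when there is a table. -/
theorem sum_margins_eq {r : R → ℕ} {c : C → ℕ} {T : R → C → ℕ} (hT : T ∈ tables r c) :
    ∑ i, r i = ∑ j, c j := by
  rw [mem_tables] at hT
  rw [← Finset.sum_congr rfl (fun i _ => hT.1 i), ← Finset.sum_congr rfl (fun j _ => hT.2 j)]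
  exact Finset.sum_comm

/-- `pat` is a parity pattern of the margins `r`, `c` when the margins are large and their
totals have the same parity. -/
theorem isPattern_pat (r : R → ℕ) (c : C → ℕ) (i₀ : R) (j₀ : C) (x : Free i₀ j₀ → Bool)
    (hsum : (∑ i, r i) % 2 = (∑ j, c j) % 2) (hrn : ∀ i, Fintype.card C ≤ r i)
    (hcm : ∀ j, Fintype.card R ≤ c j) : IsPattern r c (pat r c i₀ j₀ x) := by
  have h := pat_parity r c i₀ j₀ x hsum
  exact isPattern_of_parity h.1 h.2.1 h.2.2 hrn hcm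

/-- Flipping the free cell `(i, j)` flips `pat` exactly on the four cells of the rectangle with
rows `i₀`, `i` and columns `j₀`, `j`. -/
theorem pat_flip (r : R → ℕ) (c : C → ℕ) (i₀ : R) (j₀ : C) [DecidableEq (Free i₀ j₀)]
    (x : Free i₀ j₀ → Bool) (e : Free i₀ j₀) (a : R) (b : C) :
    pat r c i₀ j₀ (Function.update x e (!(x e))) a b
      = (pat r c i₀ j₀ x a b
          + if (a = i₀ ∨ a = e.1.1) ∧ (b = j₀ ∨ b = e.2.1) then 1 else 0) % 2 := by
  obtain ⟨⟨i, hi⟩, ⟨j, hj⟩⟩ := e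
  have hbn := bit_not (x (⟨i, hi⟩, ⟨j, hj⟩))
  -- the row of the free cells through `i`
  have hrowsum : ∑ j' : {j : C // j ≠ j₀},
        bit (Function.update x (⟨i, hi⟩, ⟨j, hj⟩) (!(x (⟨i, hi⟩, ⟨j, hj⟩))) (⟨i, hi⟩, j'))
        + bit (x (⟨i, hi⟩, ⟨j, hj⟩))
      = ∑ j' : {j : C // j ≠ j₀}, bit (x (⟨i, hi⟩, j')) + bit (!(x (⟨i, hi⟩, ⟨j, hj⟩))) := by
    have h := sum_bit_update (fun j' : {j : C // j ≠ j₀} => x (⟨i, hi⟩, j')) ⟨j, hj⟩
      (!(x (⟨i, hi⟩, ⟨j, hj⟩)))
    have e1 : ∀ j' : {j : C // j ≠ j₀},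
        Function.update x (⟨i, hi⟩, ⟨j, hj⟩) (!(x (⟨i, hi⟩, ⟨j, hj⟩))) (⟨i, hi⟩, j')
          = Function.update (fun j' : {j : C // j ≠ j₀} => x (⟨i, hi⟩, j')) ⟨j, hj⟩
              (!(x (⟨i, hi⟩, ⟨j, hj⟩))) j' := by
      intro j'
      by_cases hj' : j' = ⟨j, hj⟩
      · subst hj'
        simp
      · have hne : ((⟨i, hi⟩, j') : Free i₀ j₀) ≠ (⟨i, hi⟩, ⟨j, hj⟩) := by
          intro hh
          exact hj' (Prod.ext_iff.mp hh).2
        rw [Function.update_of_ne hne, Function.update_of_ne hj']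
    rw [Finset.sum_congr rfl (fun j' _ => congrArg bit (e1 j'))]
    exact h
  -- the column of the free cells through `j`
  have hcolsum : ∑ i' : {i : R // i ≠ i₀},
        bit (Function.update x (⟨i, hi⟩, ⟨j, hj⟩) (!(x (⟨i, hi⟩, ⟨j, hj⟩))) (i', ⟨j, hj⟩))
        + bit (x (⟨i, hi⟩, ⟨j, hj⟩))
      = ∑ i' : {i : R // i ≠ i₀}, bit (x (i', ⟨j, hj⟩)) + bit (!(x (⟨i, hi⟩, ⟨j, hj⟩))) := by
    have h := sum_bit_update (fun i' : {i : R // i ≠ i₀} => x (i', ⟨j, hj⟩)) ⟨i, hi⟩
      (!(x (⟨i, hi⟩, ⟨j, hj⟩)))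
    have e1 : ∀ i' : {i : R // i ≠ i₀},
        Function.update x (⟨i, hi⟩, ⟨j, hj⟩) (!(x (⟨i, hi⟩, ⟨j, hj⟩))) (i', ⟨j, hj⟩)
          = Function.update (fun i' : {i : R // i ≠ i₀} => x (i', ⟨j, hj⟩)) ⟨i, hi⟩
              (!(x (⟨i, hi⟩, ⟨j, hj⟩))) i' := by
      intro i'
      by_cases hi' : i' = ⟨i, hi⟩
      · subst hi'
        simp
      · have hne : ((i', ⟨j, hj⟩) : Free i₀ j₀) ≠ (⟨i, hi⟩, ⟨j, hj⟩) := by
          intro hh
          exact hi' (Prod.ext_iff.mp hh).1
        rw [Function.update_of_ne hne, Function.update_of_ne hi']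
    rw [Finset.sum_congr rfl (fun i' _ => congrArg bit (e1 i'))]
    exact h
  -- all the free cells
  have hallsum : ∑ j' : {j : C // j ≠ j₀}, ∑ i' : {i : R // i ≠ i₀},
        bit (Function.update x (⟨i, hi⟩, ⟨j, hj⟩) (!(x (⟨i, hi⟩, ⟨j, hj⟩))) (i', j'))
        + bit (x (⟨i, hi⟩, ⟨j, hj⟩))
      = ∑ j' : {j : C // j ≠ j₀}, ∑ i' : {i : R // i ≠ i₀}, bit (x (i', j'))
        + bit (!(x (⟨i, hi⟩, ⟨j, hj⟩))) := by
    have h := sum_bit_update x (⟨i, hi⟩, ⟨j, hj⟩) (!(x (⟨i, hi⟩, ⟨j, hj⟩)))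
    rw [Fintype.sum_prod_type_right, Fintype.sum_prod_type_right] at h
    exact h
  show pat r c i₀ j₀ (Function.update x (⟨i, hi⟩, ⟨j, hj⟩) (!(x (⟨i, hi⟩, ⟨j, hj⟩)))) a b
      = (pat r c i₀ j₀ x a b + if (a = i₀ ∨ a = i) ∧ (b = j₀ ∨ b = j) then 1 else 0) % 2
  by_cases ha : a = i₀
  · subst ha
    by_cases hb : b = j₀
    · subst hb
      rw [pat_corner, pat_corner, if_pos ⟨Or.inl rfl, Or.inl rfl⟩, Finset.sum_add_distrib,
        Finset.sum_add_distrib]
      omega
    · rw [pat_row r c a j₀ _ hb, pat_row r c a j₀ _ hb]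
      by_cases hbj : b = j
      · subst hbj
        rw [if_pos ⟨Or.inl rfl, Or.inr rfl⟩]
        omega
      · have hcond : ¬ ((a = a ∨ a = i) ∧ (b = j₀ ∨ b = j)) := by
          rintro ⟨_, h | h⟩
          · exact hb h
          · exact hbj h
        rw [if_neg hcond]
        have e2 : ∀ i' : {i : R // i ≠ a},
            Function.update x (⟨i, hi⟩, ⟨j, hj⟩) (!(x (⟨i, hi⟩, ⟨j, hj⟩))) (i', ⟨b, hb⟩)
              = x (i', ⟨b, hb⟩) := by
          intro i'
          apply Function.update_of_ne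
          intro hh
          exact hbj (congrArg Subtype.val (Prod.ext_iff.mp hh).2)
        rw [Finset.sum_congr rfl (fun i' _ => congrArg bit (e2 i'))]
        omega
  · by_cases hb : b = j₀
    · subst hb
      rw [pat_col r c i₀ b _ ha, pat_col r c i₀ b _ ha]
      by_cases hai : a = i
      · subst hai
        rw [if_pos ⟨Or.inr rfl, Or.inl rfl⟩]
        omega
      · have hcond : ¬ ((a = i₀ ∨ a = i) ∧ (b = b ∨ b = j)) := by
          rintro ⟨h | h, _⟩
          · exact ha h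
          · exact hai h
        rw [if_neg hcond]
        have e2 : ∀ j' : {j : C // j ≠ b},
            Function.update x (⟨i, hi⟩, ⟨j, hj⟩) (!(x (⟨i, hi⟩, ⟨j, hj⟩))) (⟨a, ha⟩, j')
              = x (⟨a, ha⟩, j') := by
          intro j'
          apply Function.update_of_ne
          intro hh
          exact hai (congrArg Subtype.val (Prod.ext_iff.mp hh).1)
        rw [Finset.sum_congr rfl (fun j' _ => congrArg bit (e2 j'))]
        omega
    · rw [pat_free r c i₀ j₀ _ ha hb, pat_free r c i₀ j₀ _ ha hb]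
      by_cases hab : a = i ∧ b = j
      · obtain ⟨hai, hbj⟩ := hab
        subst hai
        subst hbj
        rw [if_pos ⟨Or.inr rfl, Or.inr rfl⟩, Function.update_self]
        omega
      · have hcond : ¬ ((a = i₀ ∨ a = i) ∧ (b = j₀ ∨ b = j)) := by
          rintro ⟨h1 | h1, h2 | h2⟩
          · exact ha h1
          · exact ha h1
          · exact hb h2
          · exact hab ⟨h1, h2⟩
        rw [if_neg hcond]
        have hne : ((⟨a, ha⟩, ⟨b, hb⟩) : Free i₀ j₀) ≠ (⟨i, hi⟩, ⟨j, hj⟩) := by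
          intro hh
          exact hab ⟨congrArg Subtype.val (Prod.ext_iff.mp hh).1,
            congrArg Subtype.val (Prod.ext_iff.mp hh).2⟩
        rw [Function.update_of_ne hne]
        have := bit_le_one (x (⟨a, ha⟩, ⟨b, hb⟩))
        omega

/-- A sum over the parity patterns of the margins `r`, `c` is a sum over the cube of the free
cells, for a summand that vanishes at the patterns without tables. -/
theorem sum_patterns (r : R → ℕ) (c : C → ℕ) (i₀ : R) (j₀ : C) (F : (R → C → ℕ) → ℝ)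
    (hF : ∀ B, fib r c B = ∅ → F B = 0) :
    ∑ B ∈ patterns r c, F B = ∑ x : Free i₀ j₀ → Bool, F (pat r c i₀ j₀ x) := by
  classical
  have h1 : ∑ x : Free i₀ j₀ → Bool, F (pat r c i₀ j₀ x)
      = ∑ B ∈ (Finset.univ : Finset (Free i₀ j₀ → Bool)).image (pat r c i₀ j₀), F B :=
    (Finset.sum_image (fun x _ y _ h => pat_injective r c i₀ j₀ h)).symm
  rw [h1]
  apply Finset.sum_subset
  · intro B hB
    obtain ⟨x, hx⟩ := exists_pat_of_mem_patterns i₀ j₀ hB
    exact Finset.mem_image.mpr ⟨x, Finset.mem_univ x, hx⟩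
  · intro B _ hB
    apply hF
    by_contra hne
    exact hB (fib_nonempty_iff.mp (Finset.nonempty_iff_ne_empty.mpr hne))

end Vale.Agent.Lib.P328.BP
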