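import Vale.Agent.Lib.P328.BP.Parity
import Vale.Agent.Lib.P328.AM.CoreVar

/-!
# P328 / bit planes: the variance inside the parity fibres

Step (I) of the halving argument.  If `K'` is a Poincare constant of the 2 × 2 heat bath for
the half margins `hrow r B`, `hcol c B` of every parity pattern `B` of `tables r c`, then the
sum over the parity fibres of the squared deviations from the fibre means is at most `K'`
times the 2 × 2 heat bath energy on `tables r c` (`sum_fib_var_le`).  Inside a fibre the
2 × 2 classes of the half tables are the parts of the 2 × 2 classes of `tables r c` with the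
given parities, and the average over a part of a class is a better approximation than the
average over the class (`half_box_energy_le`).
-/

namespace Vale.Agent.Lib.P328.BP

open Finset
open scoped Classical
open Vale.Agent.Lib.P328.CT Vale.Agent.Lib.P328.AM Vale.Agent.Lib.P335.Bip

variable {R C : Type*} [Fintype R] [Fintype C]

/-- The 2 × 2 class of a table only depends on its entries outside the box. -/
theorem boxClass_eq_of_agree (r : R → ℕ) (c : C → ℕ) (q : Finset R) (p : Finset C)
    {M N : R → C → ℕ} (h : ∀ i j, (i ∉ q ∨ j ∉ p) → M i j = N i j) :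
    boxClass r c q p M = boxClass r c q p N := by
  unfold boxClass
  refine Finset.filter_congr (fun T _ => ?_)
  constructor
  · intro hT i j hij
    rw [hT i j hij, h i j hij]
  · intro hT i j hij
    rw [hT i j hij, h i j hij]

/-- The 2 × 2 class average at a table only depends on its entries outside the box. -/
theorem boxAvg_eq_of_agree (r : R → ℕ) (c : C → ℕ) (q : Finset R) (p : Finset C)
    (f : (R → C → ℕ) → ℝ) {M N : R → C → ℕ}
    (h : ∀ i j, (i ∉ q ∨ j ∉ p) → M i j = N i j) :
    boxAvg r c q p f M = boxAvg r c q p f N := by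
  unfold boxAvg
  rw [boxClass_eq_of_agree r c q p h]

/-- The 2 × 2 energy, for the box `q × p`, of `T' ↦ f (B + 2 T')` on the half class of the
parity pattern `B` is at most the part of the 2 × 2 energy of `f` carried by the parity fibre
of `B`. -/
theorem half_box_energy_le {r : R → ℕ} {c : C → ℕ} {B : R → C → ℕ} (hB : IsPattern r c B)
    (q : Finset R) (p : Finset C) (f : (R → C → ℕ) → ℝ) :
    ∑ M ∈ tables (hrow r B) (hcol c B),
        ((fun T' => f (dbl B T')) M
          - boxAvg (hrow r B) (hcol c B) q p (fun T' => f (dbl B T')) M) ^ 2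
      ≤ ∑ T ∈ fib r c B, (f T - boxAvg r c q p f T) ^ 2 := by
  rw [sum_fib hB (fun T => (f T - boxAvg r c q p f T) ^ 2),
    ← sum_tab_box_eq q p (fun T' => f (dbl B T')),
    ← Finset.sum_coe_sort (tables (hrow r B) (hcol c B))]
  exact sum_sub_av_sq_le (relBox_equivalence q p)
    (fun y : Tab (hrow r B) (hcol c B) => f (dbl B y.1))
    (fun x => boxAvg r c q p f (dbl B x.1))
    (fun x y hxy => boxAvg_eq_of_agree r c q p f (fun i j hij => by
      show B i j + 2 * x.1 i j = B i j + 2 * y.1 i j
      rw [hxy i j hij]))

/-- The variance inside one parity fibre is at most `K'` times the part of the 2 × 2 energy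
carried by the fibre, when `K'` is a Poincare constant of the 2 × 2 heat bath on the half
class. -/
theorem fib_var_le {r : R → ℕ} {c : C → ℕ} {K' : ℝ} (hK' : 0 ≤ K') {B : R → C → ℕ}
    (hB : IsPattern r c B) (hK : PCbox K' (hrow r B) (hcol c B)) (f : (R → C → ℕ) → ℝ) :
    ∑ T ∈ fib r c B, (f T - fibAvg r c f B) ^ 2
      ≤ K' * ∑ q ∈ (Finset.univ : Finset R).powersetCard 2,
            ∑ p ∈ (Finset.univ : Finset C).powersetCard 2,
              ∑ T ∈ fib r c B, (f T - boxAvg r c q p f T) ^ 2 := by
  have h1 := hK (fun T' => f (dbl B T'))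
  have hmean : fibAvg r c f B
      = (∑ N ∈ tables (hrow r B) (hcol c B), f (dbl B N))
        / ((tables (hrow r B) (hcol c B)).card : ℝ) := by
    unfold fibAvg
    rw [sum_fib hB f, card_fib hB]
  rw [sum_fib hB (fun T => (f T - fibAvg r c f B) ^ 2), hmean]
  refine le_trans h1 (mul_le_mul_of_nonneg_left ?_ hK')
  exact Finset.sum_le_sum (fun q _ => Finset.sum_le_sum (fun p _ =>
    half_box_energy_le hB q p f))

/-- Step (I) of the halving argument: if `K' ≥ 0` is a Poincare constant of the 2 × 2 heat
bath for the half margins of every parity pattern of `tables r c`, then the sum over the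
parity fibres of the squared deviations of `f` from the fibre means is at most `K'` times the
2 × 2 heat bath energy of `f` on `tables r c`. -/
theorem sum_fib_var_le {r : R → ℕ} {c : C → ℕ} {K' : ℝ} (hK' : 0 ≤ K')
    (hK : ∀ B ∈ patterns r c, PCbox K' (hrow r B) (hcol c B)) (f : (R → C → ℕ) → ℝ) :
    ∑ B ∈ patterns r c, ∑ T ∈ fib r c B, (f T - fibAvg r c f B) ^ 2
      ≤ K' * ∑ q ∈ (Finset.univ : Finset R).powersetCard 2,
            ∑ p ∈ (Finset.univ : Finset C).powersetCard 2,
              ∑ M ∈ tables r c, (f M - boxAvg r c q p f M) ^ 2 := by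
  calc ∑ B ∈ patterns r c, ∑ T ∈ fib r c B, (f T - fibAvg r c f B) ^ 2
      ≤ ∑ B ∈ patterns r c, K' * ∑ q ∈ (Finset.univ : Finset R).powersetCard 2,
            ∑ p ∈ (Finset.univ : Finset C).powersetCard 2,
              ∑ T ∈ fib r c B, (f T - boxAvg r c q p f T) ^ 2 :=
        Finset.sum_le_sum (fun B hBm => fib_var_le hK' (isPattern_of_mem hBm) (hK B hBm) f)
    _ = K' * ∑ q ∈ (Finset.univ : Finset R).powersetCard 2,
            ∑ p ∈ (Finset.univ : Finset C).powersetCard 2,
              ∑ M ∈ tables r c, (f M - boxAvg r c q p f M) ^ 2 := by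
        rw [← Finset.mul_sum, Finset.sum_comm]
        congr 1
        refine Finset.sum_congr rfl (fun q _ => ?_)
        rw [Finset.sum_comm]
        refine Finset.sum_congr rfl (fun p _ => ?_)
        exact (sum_tables_fib r c (fun T => (f T - boxAvg r c q p f T) ^ 2)).symm

end Vale.Agent.Lib.P328.BP
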