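import Vale.Agent.Lib.P328.CT.BoxDefs

/-!
# P328 / bit planes: the unit switch on a 2 × 2 rectangle

`usw i₀ i j₀ j T` adds one unit to the table `T` at the cells `(i₀, j₀)` and `(i, j)` and
removes one unit at the cells `(i₀, j)` and `(i, j₀)` (`i ≠ i₀`, `j ≠ j₀`).  It preserves all
row and column sums, it is inverted by `usw i i₀ j₀ j`, it changes the parity of exactly the
four cells of the rectangle, and it changes the table only inside the rectangle.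
-/

namespace Vale.Agent.Lib.P328.BP

open Finset
open Vale.Agent.Lib.P328.CT

variable {R C : Type*} [DecidableEq R] [DecidableEq C]

/-- The unit switch on the rectangle with rows `i₀`, `i` and columns `j₀`, `j`. -/
def usw (i₀ i : R) (j₀ j : C) (T : R → C → ℕ) : R → C → ℕ :=
  fun a b =>
    if (a = i₀ ∧ b = j₀) ∨ (a = i ∧ b = j) then T a b + 1
    else if (a = i₀ ∧ b = j) ∨ (a = i ∧ b = j₀) then T a b - 1
    else T a b

theorem usw_plus₁ {i₀ i : R} {j₀ j : C} (T : R → C → ℕ) :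
    usw i₀ i j₀ j T i₀ j₀ = T i₀ j₀ + 1 := by
  unfold usw
  simp

theorem usw_plus₂ {i₀ i : R} {j₀ j : C} (T : R → C → ℕ) :
    usw i₀ i j₀ j T i j = T i j + 1 := by
  unfold usw
  simp

theorem usw_minus₁ {i₀ i : R} {j₀ j : C} (hi : i ≠ i₀) (hj : j ≠ j₀) (T : R → C → ℕ) :
    usw i₀ i j₀ j T i₀ j = T i₀ j - 1 := by
  unfold usw
  simp [hj, Ne.symm hi]

theorem usw_minus₂ {i₀ i : R} {j₀ j : C} (hi : i ≠ i₀) (hj : j ≠ j₀) (T : R → C → ℕ) :
    usw i₀ i j₀ j T i j₀ = T i j₀ - 1 := by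
  unfold usw
  simp [hi, Ne.symm hj]

/-- Outside the rectangle the table is unchanged. -/
theorem usw_off {i₀ i : R} {j₀ j : C} (T : R → C → ℕ) {a : R} {b : C}
    (h : ¬ ((a = i₀ ∨ a = i) ∧ (b = j₀ ∨ b = j))) : usw i₀ i j₀ j T a b = T a b := by
  unfold usw
  have h1 : ¬ ((a = i₀ ∧ b = j₀) ∨ (a = i ∧ b = j)) := by
    rintro (⟨ha, hb⟩ | ⟨ha, hb⟩)
    · exact h ⟨Or.inl ha, Or.inl hb⟩
    · exact h ⟨Or.inr ha, Or.inr hb⟩
  have h2 : ¬ ((a = i₀ ∧ b = j) ∨ (a = i ∧ b = j₀)) := by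
    rintro (⟨ha, hb⟩ | ⟨ha, hb⟩)
    · exact h ⟨Or.inl ha, Or.inr hb⟩
    · exact h ⟨Or.inr ha, Or.inl hb⟩
  rw [if_neg h1, if_neg h2]

/-- The switch as an identity between natural numbers, cell by cell. -/
theorem usw_add {i₀ i : R} {j₀ j : C} (hi : i ≠ i₀) (hj : j ≠ j₀) (T : R → C → ℕ)
    (h1 : 1 ≤ T i₀ j) (h2 : 1 ≤ T i j₀) (a : R) (b : C) :
    usw i₀ i j₀ j T a b + (if (a = i₀ ∧ b = j) ∨ (a = i ∧ b = j₀) then 1 else 0)
      = T a b + (if (a = i₀ ∧ b = j₀) ∨ (a = i ∧ b = j) then 1 else 0) := by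
  unfold usw
  by_cases hp : (a = i₀ ∧ b = j₀) ∨ (a = i ∧ b = j)
  · have hm : ¬ ((a = i₀ ∧ b = j) ∨ (a = i ∧ b = j₀)) := by
      rintro (⟨ha, hb⟩ | ⟨ha, hb⟩)
      · rcases hp with ⟨_, hb'⟩ | ⟨ha', _⟩
        · exact hj (hb.symm.trans hb')
        · exact hi (ha'.symm.trans ha)
      · rcases hp with ⟨ha', _⟩ | ⟨_, hb'⟩
        · exact hi (ha.symm.trans ha')
        · exact hj (hb'.symm.trans hb)
    rw [if_pos hp, if_neg hm, if_pos hp]
  · rw [if_neg hp, if_neg hp]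
    by_cases hm : (a = i₀ ∧ b = j) ∨ (a = i ∧ b = j₀)
    · rw [if_pos hm, if_pos hm]
      rcases hm with ⟨ha, hb⟩ | ⟨ha, hb⟩
      · subst ha
        subst hb
        omega
      · subst ha
        subst hb
        omega
    · rw [if_neg hm, if_neg hm]

theorem usw_row_sum [Fintype C] {i₀ i : R} {j₀ j : C} (hi : i ≠ i₀) (hj : j ≠ j₀)
    (T : R → C → ℕ) (h1 : 1 ≤ T i₀ j) (h2 : 1 ≤ T i j₀) (a : R) :
    ∑ b, usw i₀ i j₀ j T a b = ∑ b, T a b := by
  have h : ∑ b : C, (usw i₀ i j₀ j T a b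
        + (if (a = i₀ ∧ b = j) ∨ (a = i ∧ b = j₀) then 1 else 0))
      = ∑ b : C, (T a b + (if (a = i₀ ∧ b = j₀) ∨ (a = i ∧ b = j) then 1 else 0)) :=
    Finset.sum_congr rfl (fun b _ => usw_add hi hj T h1 h2 a b)
  rw [Finset.sum_add_distrib, Finset.sum_add_distrib] at h
  have e : ∑ b : C, (if (a = i₀ ∧ b = j) ∨ (a = i ∧ b = j₀) then 1 else 0)
      = ∑ b : C, (if (a = i₀ ∧ b = j₀) ∨ (a = i ∧ b = j) then 1 else 0) := by
    by_cases ha : a = i₀
    · subst ha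
      simp [Ne.symm hi]
    · by_cases ha' : a = i
      · subst ha'
        simp [hi]
      · simp [ha, ha']
  rw [e] at h
  exact Nat.add_right_cancel h

theorem usw_col_sum [Fintype R] {i₀ i : R} {j₀ j : C} (hi : i ≠ i₀) (hj : j ≠ j₀)
    (T : R → C → ℕ) (h1 : 1 ≤ T i₀ j) (h2 : 1 ≤ T i j₀) (b : C) :
    ∑ a, usw i₀ i j₀ j T a b = ∑ a, T a b := by
  have h : ∑ a : R, (usw i₀ i j₀ j T a b
        + (if (a = i₀ ∧ b = j) ∨ (a = i ∧ b = j₀) then 1 else 0))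
      = ∑ a : R, (T a b + (if (a = i₀ ∧ b = j₀) ∨ (a = i ∧ b = j) then 1 else 0)) :=
    Finset.sum_congr rfl (fun a _ => usw_add hi hj T h1 h2 a b)
  rw [Finset.sum_add_distrib, Finset.sum_add_distrib] at h
  have e : ∑ a : R, (if (a = i₀ ∧ b = j) ∨ (a = i ∧ b = j₀) then 1 else 0)
      = ∑ a : R, (if (a = i₀ ∧ b = j₀) ∨ (a = i ∧ b = j) then 1 else 0) := by
    by_cases hb : b = j₀
    · subst hb
      simp [Ne.symm hj]
    · by_cases hb' : b = j
      · subst hb'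
        simp [hj]
      · simp [hb, hb']
  rw [e] at h
  exact Nat.add_right_cancel h

/-- The switch of a table with positive entries at `(i₀, j)` and `(i, j₀)` is a table with the
same margins. -/
theorem usw_mem_tables [Fintype R] [Fintype C] {r : R → ℕ} {c : C → ℕ} {i₀ i : R} {j₀ j : C}
    (hi : i ≠ i₀) (hj : j ≠ j₀) {T : R → C → ℕ} (hT : T ∈ tables r c) (h1 : 1 ≤ T i₀ j)
    (h2 : 1 ≤ T i j₀) : usw i₀ i j₀ j T ∈ tables r c := by
  rw [mem_tables] at hT ⊢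
  exact ⟨fun a => (usw_row_sum hi hj T h1 h2 a).trans (hT.1 a),
    fun b => (usw_col_sum hi hj T h1 h2 b).trans (hT.2 b)⟩

/-- The switch with the two rows exchanged is the inverse switch. -/
theorem usw_inv {i₀ i : R} {j₀ j : C} (hi : i ≠ i₀) (hj : j ≠ j₀) (T : R → C → ℕ)
    (h1 : 1 ≤ T i₀ j) (h2 : 1 ≤ T i j₀) : usw i i₀ j₀ j (usw i₀ i j₀ j T) = T := by
  funext a b
  by_cases hr : (a = i₀ ∨ a = i) ∧ (b = j₀ ∨ b = j)
  · rcases hr with ⟨ha | ha, hb | hb⟩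
    · subst ha
      subst hb
      rw [usw_minus₂ (Ne.symm hi) hj, usw_plus₁]
      omega
    · subst ha
      subst hb
      rw [usw_plus₂, usw_minus₁ hi hj]
      omega
    · subst ha
      subst hb
      rw [usw_plus₁, usw_minus₂ hi hj]
      omega
    · subst ha
      subst hb
      rw [usw_minus₁ (Ne.symm hi) hj, usw_plus₂]
      omega
  · have hr' : ¬ ((a = i ∨ a = i₀) ∧ (b = j₀ ∨ b = j)) := fun h => hr ⟨h.1.symm, h.2⟩
    rw [usw_off _ hr', usw_off _ hr]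

/-- The switch changes the parity of exactly the four cells of the rectangle. -/
theorem usw_parity {i₀ i : R} {j₀ j : C} (hi : i ≠ i₀) (hj : j ≠ j₀) (T : R → C → ℕ)
    (h1 : 1 ≤ T i₀ j) (h2 : 1 ≤ T i j₀) (a : R) (b : C) :
    usw i₀ i j₀ j T a b % 2
      = (T a b + if (a = i₀ ∨ a = i) ∧ (b = j₀ ∨ b = j) then 1 else 0) % 2 := by
  by_cases hr : (a = i₀ ∨ a = i) ∧ (b = j₀ ∨ b = j)
  · rw [if_pos hr]
    rcases hr with ⟨ha | ha, hb | hb⟩
    · subst ha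
      subst hb
      rw [usw_plus₁]
    · subst ha
      subst hb
      rw [usw_minus₁ hi hj]
      omega
    · subst ha
      subst hb
      rw [usw_minus₂ hi hj]
      omega
    · subst ha
      subst hb
      rw [usw_plus₂]
  · rw [if_neg hr, usw_off _ hr, add_zero]

/-- Outside the rows `{i₀, i}` or outside the columns `{j₀, j}` the table is unchanged. -/
theorem usw_outside {i₀ i : R} {j₀ j : C} (T : R → C → ℕ) (a : R) (b : C)
    (h : a ∉ ({i₀, i} : Finset R) ∨ b ∉ ({j₀, j} : Finset C)) :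
    usw i₀ i j₀ j T a b = T a b := by
  apply usw_off
  rintro ⟨ha, hb⟩
  rcases h with h | h
  · apply h
    rw [Finset.mem_insert, Finset.mem_singleton]
    exact ha
  · apply h
    rw [Finset.mem_insert, Finset.mem_singleton]
    exact hb

/-- The switch is a bijection from the tables with parity pattern `B` and positive entries at
`(i₀, j)`, `(i, j₀)` onto the tables with the parity pattern flipped on the rectangle and
positive entries at `(i₀, j₀)`, `(i, j)`. -/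
theorem usw_bijOn [Fintype R] [Fintype C] (r : R → ℕ) (c : C → ℕ) {i₀ i : R} {j₀ j : C}
    (hi : i ≠ i₀) (hj : j ≠ j₀) (B : R → C → ℕ) :
    Set.BijOn (usw i₀ i j₀ j)
      {T | T ∈ tables r c ∧ (∀ a b, T a b % 2 = B a b % 2) ∧ 1 ≤ T i₀ j ∧ 1 ≤ T i j₀}
      {T | T ∈ tables r c ∧
        (∀ a b, T a b % 2
          = (B a b + if (a = i₀ ∨ a = i) ∧ (b = j₀ ∨ b = j) then 1 else 0) % 2) ∧
        1 ≤ T i₀ j₀ ∧ 1 ≤ T i j} := by
  refine ⟨?_, ?_, ?_⟩
  · rintro T ⟨hT, hpar, h1, h2⟩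
    refine ⟨usw_mem_tables hi hj hT h1 h2, ?_, ?_, ?_⟩
    · intro a b
      rw [usw_parity hi hj T h1 h2 a b, Nat.add_mod, hpar a b, ← Nat.add_mod]
    · rw [usw_plus₁]
      exact Nat.le_add_left 1 _
    · rw [usw_plus₂]
      exact Nat.le_add_left 1 _
  · rintro T ⟨_, _, h1, h2⟩ T' ⟨_, _, h1', h2'⟩ heq
    rw [← usw_inv hi hj T h1 h2, ← usw_inv hi hj T' h1' h2', heq]
  · rintro T' ⟨hT', hpar', h1', h2'⟩
    refine ⟨usw i i₀ j₀ j T', ⟨usw_mem_tables (Ne.symm hi) hj hT' h2' h1', ?_, ?_, ?_⟩,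
      usw_inv (Ne.symm hi) hj T' h2' h1'⟩
    · intro a b
      rw [usw_parity (Ne.symm hi) hj T' h2' h1' a b, Nat.add_mod, hpar' a b]
      by_cases hr : (a = i₀ ∨ a = i) ∧ (b = j₀ ∨ b = j)
      · have hr' : (a = i ∨ a = i₀) ∧ (b = j₀ ∨ b = j) := ⟨hr.1.symm, hr.2⟩
        rw [if_pos hr, if_pos hr']
        omega
      · have hr' : ¬ ((a = i ∨ a = i₀) ∧ (b = j₀ ∨ b = j)) := fun h => hr ⟨h.1.symm, h.2⟩
        rw [if_neg hr, if_neg hr']
        omega
    · rw [usw_plus₂]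
      exact Nat.le_add_left 1 _
    · rw [usw_plus₁]
      exact Nat.le_add_left 1 _

end Vale.Agent.Lib.P328.BP
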