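import Vale.Agent.Lib.P328.BP.Parity
import Vale.Agent.Lib.P328.BP.Usw
import Vale.Agent.Lib.P328.BP.SwitchAbs

/-!
# P328 / bit planes: the unit switch between two neighbouring parity fibres

For a parity pattern `B` and a rectangle `{i₀, i} × {j₀, j}`, `flipB i₀ i j₀ j B` is the pattern
with the four cells of the rectangle flipped.  The unit switch `usw i₀ i j₀ j` is a bijection
from the tables of the fibre of `B` with positive entries at `(i₀, j)`, `(i, j₀)`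
(`fibP`) onto the tables of the fibre of `flipB i₀ i j₀ j B` with positive entries at
`(i₀, j₀)`, `(i, j)` (`fibM`); when at most a fraction `δ` of the tables of a fibre vanish at a
given cell, these subsets miss at most a fraction `2 δ` of their fibres.  These are the inputs of
the abstract estimates `edge_bound` and `card_ratio`.
-/

namespace Vale.Agent.Lib.P328.BP

open Finset
open Vale.Agent.Lib.P328.CT

variable {R C : Type*} [Fintype R] [Fintype C] [DecidableEq R] [DecidableEq C]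

omit [Fintype R] [Fintype C] in
/-- The pattern `B` with the four cells of the rectangle `{i₀, i} × {j₀, j}` flipped. -/
def flipB (i₀ i : R) (j₀ j : C) (B : R → C → ℕ) : R → C → ℕ :=
  fun a b => (B a b + if (a = i₀ ∨ a = i) ∧ (b = j₀ ∨ b = j) then 1 else 0) % 2

omit [Fintype R] [Fintype C] in
theorem flipB_lt_two (i₀ i : R) (j₀ j : C) (B : R → C → ℕ) (a : R) (b : C) :
    flipB i₀ i j₀ j B a b < 2 :=
  Nat.mod_lt _ (by norm_num)

omit [Fintype R] [Fintype C] in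
theorem flipB_in (i₀ i : R) (j₀ j : C) (B : R → C → ℕ) {a : R} {b : C}
    (h : (a = i₀ ∨ a = i) ∧ (b = j₀ ∨ b = j)) : flipB i₀ i j₀ j B a b = (B a b + 1) % 2 := by
  unfold flipB
  rw [if_pos h]

omit [Fintype R] [Fintype C] in
theorem flipB_out (i₀ i : R) (j₀ j : C) (B : R → C → ℕ) {a : R} {b : C}
    (h : ¬ ((a = i₀ ∨ a = i) ∧ (b = j₀ ∨ b = j))) : flipB i₀ i j₀ j B a b = B a b % 2 := by
  unfold flipB
  rw [if_neg h, Nat.add_zero]

omit [Fintype R] [Fintype C] in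
/-- Flipping twice gives back a `0/1` pattern. -/
theorem flipB_flipB (i₀ i : R) (j₀ j : C) (B : R → C → ℕ) (hB : ∀ a b, B a b < 2) :
    flipB i₀ i j₀ j (flipB i₀ i j₀ j B) = B := by
  funext a b
  have h := hB a b
  by_cases hc : (a = i₀ ∨ a = i) ∧ (b = j₀ ∨ b = j)
  · rw [flipB_in _ _ _ _ _ hc, flipB_in _ _ _ _ _ hc]
    omega
  · rw [flipB_out _ _ _ _ _ hc, flipB_out _ _ _ _ _ hc]
    omega

/-- The tables of the fibre of `B` with positive entries at `(i₀, j)` and `(i, j₀)`: the unit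
switch `usw i₀ i j₀ j` applies to them. -/
noncomputable def fibP (r : R → ℕ) (c : C → ℕ) (i₀ i : R) (j₀ j : C) (B : R → C → ℕ) :
    Finset (R → C → ℕ) :=
  (fib r c B).filter (fun T => 1 ≤ T i₀ j ∧ 1 ≤ T i j₀)

/-- The tables of the fibre of `B` with positive entries at `(i₀, j₀)` and `(i, j)`: the images
of the unit switch `usw i₀ i j₀ j`. -/
noncomputable def fibM (r : R → ℕ) (c : C → ℕ) (i₀ i : R) (j₀ j : C) (B : R → C → ℕ) :
    Finset (R → C → ℕ) :=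
  (fib r c B).filter (fun T => 1 ≤ T i₀ j₀ ∧ 1 ≤ T i j)

omit [DecidableEq R] [DecidableEq C] in
theorem mem_fibP {r : R → ℕ} {c : C → ℕ} {i₀ i : R} {j₀ j : C} {B T : R → C → ℕ} :
    T ∈ fibP r c i₀ i j₀ j B ↔ T ∈ fib r c B ∧ 1 ≤ T i₀ j ∧ 1 ≤ T i j₀ := by
  unfold fibP
  rw [Finset.mem_filter]

omit [DecidableEq R] [DecidableEq C] in
theorem mem_fibM {r : R → ℕ} {c : C → ℕ} {i₀ i : R} {j₀ j : C} {B T : R → C → ℕ} :
    T ∈ fibM r c i₀ i j₀ j B ↔ T ∈ fib r c B ∧ 1 ≤ T i₀ j₀ ∧ 1 ≤ T i j := by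
  unfold fibM
  rw [Finset.mem_filter]

omit [DecidableEq R] [DecidableEq C] in
theorem fibP_subset (r : R → ℕ) (c : C → ℕ) (i₀ i : R) (j₀ j : C) (B : R → C → ℕ) :
    fibP r c i₀ i j₀ j B ⊆ fib r c B :=
  Finset.filter_subset _ _

omit [DecidableEq R] [DecidableEq C] in
theorem fibM_subset (r : R → ℕ) (c : C → ℕ) (i₀ i : R) (j₀ j : C) (B : R → C → ℕ) :
    fibM r c i₀ i j₀ j B ⊆ fib r c B :=
  Finset.filter_subset _ _

omit [DecidableEq R] [DecidableEq C] in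
/-- Membership in a fibre, entrywise. -/
theorem mem_fib_iff {r : R → ℕ} {c : C → ℕ} {B T : R → C → ℕ} (hB : ∀ a b, B a b < 2) :
    T ∈ fib r c B ↔ T ∈ tables r c ∧ ∀ a b, T a b % 2 = B a b % 2 := by
  rw [mem_fib]
  constructor
  · rintro ⟨h1, h2⟩
    refine ⟨h1, fun a b => ?_⟩
    rw [← h2]
    show T a b % 2 = T a b % 2 % 2
    omega
  · rintro ⟨h1, h2⟩
    refine ⟨h1, ?_⟩
    funext a b
    show T a b % 2 = B a b
    rw [h2 a b]
    exact Nat.mod_eq_of_lt (hB a b)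

/-- The unit switch on the rectangle `{i₀, i} × {j₀, j}` is a bijection from the tables of
the fibre of `B` with positive entries at `(i₀, j)`, `(i, j₀)` onto the tables of the fibre
of the flipped pattern with positive entries at `(i₀, j₀)`, `(i, j)`. -/
theorem usw_bijOn_fib (r : R → ℕ) (c : C → ℕ) {i₀ i : R} {j₀ j : C} (hi : i ≠ i₀)
    (hj : j ≠ j₀) (B : R → C → ℕ) (hB : ∀ a b, B a b < 2) :
    Set.BijOn (usw i₀ i j₀ j) (fibP r c i₀ i j₀ j B : Set (R → C → ℕ))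
      (fibM r c i₀ i j₀ j (flipB i₀ i j₀ j B) : Set (R → C → ℕ)) := by
  have h := usw_bijOn r c hi hj B
  have e1 : (fibP r c i₀ i j₀ j B : Set (R → C → ℕ))
      = {T | T ∈ tables r c ∧ (∀ a b, T a b % 2 = B a b % 2) ∧ 1 ≤ T i₀ j ∧ 1 ≤ T i j₀} := by
    ext T
    rw [Finset.mem_coe, mem_fibP, mem_fib_iff hB, and_assoc]
    exact Iff.rfl
  have e2 : (fibM r c i₀ i j₀ j (flipB i₀ i j₀ j B) : Set (R → C → ℕ))
      = {T | T ∈ tables r c ∧
        (∀ a b, T a b % 2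
          = (B a b + if (a = i₀ ∨ a = i) ∧ (b = j₀ ∨ b = j) then 1 else 0) % 2) ∧
        1 ≤ T i₀ j₀ ∧ 1 ≤ T i j} := by
    ext T
    rw [Finset.mem_coe, mem_fibM, mem_fib_iff (flipB_lt_two i₀ i j₀ j B), and_assoc]
    show _ ↔ T ∈ tables r c ∧
        (∀ a b, T a b % 2
          = (B a b + if (a = i₀ ∨ a = i) ∧ (b = j₀ ∨ b = j) then 1 else 0) % 2) ∧
        1 ≤ T i₀ j₀ ∧ 1 ≤ T i j
    have e3 : (∀ a b, T a b % 2 = flipB i₀ i j₀ j B a b % 2)
        ↔ (∀ a b, T a b % 2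
          = (B a b + if (a = i₀ ∨ a = i) ∧ (b = j₀ ∨ b = j) then 1 else 0) % 2) := by
      constructor
      · intro h3 a b
        rw [h3 a b]
        exact Nat.mod_eq_of_lt (flipB_lt_two i₀ i j₀ j B a b)
      · intro h3 a b
        rw [h3 a b]
        exact (Nat.mod_eq_of_lt (flipB_lt_two i₀ i j₀ j B a b)).symm
    rw [e3]
  rw [e1, e2]
  exact h

omit [DecidableEq R] [DecidableEq C] in
/-- If at most a fraction `δ` of the tables of the fibre vanish at `(a₁, b₁)` and at most a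
fraction `δ` at `(a₂, b₂)`, all but a fraction `2 δ` of them are positive at both cells. -/
theorem card_fib_sdiff_le (r : R → ℕ) (c : C → ℕ) (B : R → C → ℕ) (a₁ a₂ : R) (b₁ b₂ : C)
    (δ : ℝ)
    (h1 : (((fib r c B).filter (fun T => T a₁ b₁ = 0)).card : ℝ) ≤ δ * ((fib r c B).card : ℝ))
    (h2 : (((fib r c B).filter (fun T => T a₂ b₂ = 0)).card : ℝ) ≤ δ * ((fib r c B).card : ℝ)) :
    ((fib r c B \ (fib r c B).filter (fun T => 1 ≤ T a₁ b₁ ∧ 1 ≤ T a₂ b₂)).card : ℝ)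
      ≤ 2 * δ * ((fib r c B).card : ℝ) := by
  classical
  have hsub : fib r c B \ (fib r c B).filter (fun T => 1 ≤ T a₁ b₁ ∧ 1 ≤ T a₂ b₂)
      ⊆ (fib r c B).filter (fun T => T a₁ b₁ = 0) ∪ (fib r c B).filter (fun T => T a₂ b₂ = 0) := by
    intro T hT
    rw [Finset.mem_sdiff, Finset.mem_filter] at hT
    rw [Finset.mem_union, Finset.mem_filter, Finset.mem_filter]
    by_cases h0 : T a₁ b₁ = 0
    · exact Or.inl ⟨hT.1, h0⟩
    · refine Or.inr ⟨hT.1, ?_⟩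
      by_contra h0'
      exact hT.2 ⟨hT.1, Nat.one_le_iff_ne_zero.mpr h0, Nat.one_le_iff_ne_zero.mpr h0'⟩
  have hc : ((fib r c B \ (fib r c B).filter (fun T => 1 ≤ T a₁ b₁ ∧ 1 ≤ T a₂ b₂)).card : ℝ)
      ≤ (((fib r c B).filter (fun T => T a₁ b₁ = 0)).card : ℝ)
        + (((fib r c B).filter (fun T => T a₂ b₂ = 0)).card : ℝ) := by
    exact_mod_cast le_trans (Finset.card_le_card hsub) (Finset.card_union_le _ _)
  linarith

omit [DecidableEq R] [DecidableEq C] in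
/-- `fibP` misses at most a fraction `2 δ` of the fibre. -/
theorem card_fib_sdiff_fibP (r : R → ℕ) (c : C → ℕ) (i₀ i : R) (j₀ j : C) (B : R → C → ℕ)
    (δ : ℝ)
    (hZ : ∀ a b, (((fib r c B).filter (fun T => T a b = 0)).card : ℝ)
      ≤ δ * ((fib r c B).card : ℝ)) :
    ((fib r c B \ fibP r c i₀ i j₀ j B).card : ℝ) ≤ 2 * δ * ((fib r c B).card : ℝ) :=
  card_fib_sdiff_le r c B i₀ i j j₀ δ (hZ i₀ j) (hZ i j₀)

omit [DecidableEq R] [DecidableEq C] in
/-- `fibM` misses at most a fraction `2 δ` of the fibre. -/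
theorem card_fib_sdiff_fibM (r : R → ℕ) (c : C → ℕ) (i₀ i : R) (j₀ j : C) (B : R → C → ℕ)
    (δ : ℝ)
    (hZ : ∀ a b, (((fib r c B).filter (fun T => T a b = 0)).card : ℝ)
      ≤ δ * ((fib r c B).card : ℝ)) :
    ((fib r c B \ fibM r c i₀ i j₀ j B).card : ℝ) ≤ 2 * δ * ((fib r c B).card : ℝ) :=
  card_fib_sdiff_le r c B i₀ i j₀ j δ (hZ i₀ j₀) (hZ i j)

omit [DecidableEq R] [DecidableEq C] in
/-- The fibre mean of Parity is the mean of SwitchAbs. -/
theorem fibAvg_eq_mean (r : R → ℕ) (c : C → ℕ) (f : (R → C → ℕ) → ℝ) (B : R → C → ℕ) :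
    fibAvg r c f B = mean (fib r c B) f := rfl

/-- (IIb, one step) A neighbouring fibre is not much smaller: `(1 - 2 δ) #Ω_B ≤ #Ω_{B'}` for
the flipped pattern `B'`. -/
theorem card_fib_flip (r : R → ℕ) (c : C → ℕ) {i₀ i : R} {j₀ j : C} (hi : i ≠ i₀)
    (hj : j ≠ j₀) (B : R → C → ℕ) (hB : ∀ a b, B a b < 2) (δ : ℝ)
    (hZ : ∀ a b, (((fib r c B).filter (fun T => T a b = 0)).card : ℝ)
      ≤ δ * ((fib r c B).card : ℝ)) :
    (1 - 2 * δ) * ((fib r c B).card : ℝ) ≤ ((fib r c (flipB i₀ i j₀ j B)).card : ℝ) := by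
  classical
  exact card_ratio (fib r c B) (fib r c (flipB i₀ i j₀ j B)) (fibP r c i₀ i j₀ j B)
    (fibM r c i₀ i j₀ j (flipB i₀ i j₀ j B)) (usw i₀ i j₀ j) (fibP_subset r c i₀ i j₀ j B)
    (fibM_subset r c i₀ i j₀ j _) (usw_bijOn_fib r c hi hj B hB) δ
    (card_fib_sdiff_fibP r c i₀ i j₀ j B δ hZ)

/-- A neighbouring fibre of a nonempty fibre is nonempty, when `δ < 1 / 2`. -/
theorem fib_flip_nonempty (r : R → ℕ) (c : C → ℕ) {i₀ i : R} {j₀ j : C} (hi : i ≠ i₀)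
    (hj : j ≠ j₀) (B : R → C → ℕ) (hB : ∀ a b, B a b < 2) (δ : ℝ) (hδ : δ < 1 / 2)
    (hZ : ∀ a b, (((fib r c B).filter (fun T => T a b = 0)).card : ℝ)
      ≤ δ * ((fib r c B).card : ℝ))
    (hne : (fib r c B).Nonempty) : (fib r c (flipB i₀ i j₀ j B)).Nonempty := by
  have h := card_fib_flip r c hi hj B hB δ hZ
  have hpos : (0 : ℝ) < ((fib r c B).card : ℝ) := Nat.cast_pos.mpr (Finset.card_pos.mpr hne)
  have h2 : (0 : ℝ) < ((fib r c (flipB i₀ i j₀ j B)).card : ℝ) :=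
    lt_of_lt_of_le (mul_pos (by linarith) hpos) h
  exact Finset.card_pos.mp (Nat.cast_pos.mp h2)

/-- (IIa) The squared difference of the means of `f` over two neighbouring fibres is bounded
by the variances inside the two fibres (with a factor `δ`) and the mean square of the change
of `f` along the unit switch. -/
theorem fib_edge (r : R → ℕ) (c : C → ℕ) {i₀ i : R} {j₀ j : C} (hi : i ≠ i₀) (hj : j ≠ j₀)
    (B : R → C → ℕ) (hB : ∀ a b, B a b < 2) (δ : ℝ) (hδ0 : 0 ≤ δ) (hδ : δ ≤ 1 / 8)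
    (hZ : ∀ a b, (((fib r c B).filter (fun T => T a b = 0)).card : ℝ)
      ≤ δ * ((fib r c B).card : ℝ))
    (hZ' : ∀ a b, (((fib r c (flipB i₀ i j₀ j B)).filter (fun T => T a b = 0)).card : ℝ)
      ≤ δ * ((fib r c (flipB i₀ i j₀ j B)).card : ℝ))
    (hne : (fib r c B).Nonempty) (f : (R → C → ℕ) → ℝ) :
    (fibAvg r c f (flipB i₀ i j₀ j B) - fibAvg r c f B) ^ 2
      ≤ 3 * (32 / 9 * δ * (vsum (fib r c (flipB i₀ i j₀ j B)) f
              / ((fib r c (flipB i₀ i j₀ j B)).card : ℝ))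
          + 32 / 9 * δ * (vsum (fib r c B) f / ((fib r c B).card : ℝ))
          + (∑ T ∈ fibP r c i₀ i j₀ j B, (f (usw i₀ i j₀ j T) - f T) ^ 2)
              / ((fibP r c i₀ i j₀ j B).card : ℝ)) := by
  classical
  have hne' : (fib r c (flipB i₀ i j₀ j B)).Nonempty :=
    fib_flip_nonempty r c hi hj B hB δ (by linarith) hZ hne
  rw [fibAvg_eq_mean, fibAvg_eq_mean]
  exact edge_bound (fib r c B) (fib r c (flipB i₀ i j₀ j B)) (fibP r c i₀ i j₀ j B)
    (fibM r c i₀ i j₀ j (flipB i₀ i j₀ j B)) (usw i₀ i j₀ j) (fibP_subset r c i₀ i j₀ j B)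
    (fibM_subset r c i₀ i j₀ j _) (usw_bijOn_fib r c hi hj B hB) δ hδ0 hδ
    (card_fib_sdiff_fibP r c i₀ i j₀ j B δ hZ)
    (card_fib_sdiff_fibM r c i₀ i j₀ j (flipB i₀ i j₀ j B) δ hZ') hne hne' f

end Vale.Agent.Lib.P328.BP
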