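import Vale.Agent.Lib.P328.BP.Statements
import Vale.Agent.Lib.P328.BP.FreeCells
import Vale.Agent.Lib.P328.BP.Switch
import Vale.Agent.Lib.P328.BP.Between
import Vale.Agent.Lib.P328.BP.Edge
import Vale.Agent.Lib.P328.BP.ParFiner

/-!
# P328 / bit planes: the halving step

`halveStatement`: the statement `HalveStatement` of `BP/Statements.lean`.  The variance of `f`
over `tables r c` is the sum of the variances inside the parity fibres and the variance of the
fibre means (`anova`).  The first part is bounded by the 2 × 2 heat bath of the half classes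
(`sum_fib_var_le`).  For the second part the parity patterns are the points of the cube of the
free cells (`pat`, `sum_patterns`), a flip of a free cell is a unit switch between the two
fibres (`usw_bijOn_fib`), and `between_fibres` bounds the variance of the fibre means by the
variances inside the fibres and the energies of the unit switches, which are 2 × 2 terms
(`switch_energy_le`).
-/

namespace Vale.Agent.Lib.P328.BP

open Finset
open scoped Classical
open Vale.Agent.Lib.P328.CT Vale.Agent.Lib.P328.AM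

universe u v

variable {R : Type u} {C : Type v} [Fintype R] [Fintype C]

/-- The number of free cells. -/
theorem card_free (i₀ : R) (j₀ : C) :
    Fintype.card (Free i₀ j₀) = (Fintype.card R - 1) * (Fintype.card C - 1) := by
  have h1 : Fintype.card {i : R // i ≠ i₀} = Fintype.card R - 1 := by
    rw [Fintype.card_subtype_compl (fun i => i = i₀), Fintype.card_subtype_eq]
  have h2 : Fintype.card {j : C // j ≠ j₀} = Fintype.card C - 1 := by
    rw [Fintype.card_subtype_compl (fun j => j = j₀), Fintype.card_subtype_eq]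
  rw [Fintype.card_prod, h1, h2]

/-- The sum of a nonnegative function of a pair over the pairs through a fixed element is at
most its sum over all pairs. -/
theorem sum_pair_le {α : Type*} [Fintype α] (a₀ : α) (H : Finset α → ℝ) (hH : ∀ q, 0 ≤ H q) :
    ∑ a : {a : α // a ≠ a₀}, H {a₀, a.1}
      ≤ ∑ q ∈ (Finset.univ : Finset α).powersetCard 2, H q := by
  have hinj : ∀ a ∈ (Finset.univ : Finset {a : α // a ≠ a₀}),
      ∀ a' ∈ (Finset.univ : Finset {a : α // a ≠ a₀}),
      ({a₀, a.1} : Finset α) = {a₀, a'.1} → a = a' := by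
    intro a _ a' _ h
    have h1 : a.1 ∈ ({a₀, a'.1} : Finset α) := by
      rw [← h]
      exact Finset.mem_insert_of_mem (Finset.mem_singleton_self _)
    rw [Finset.mem_insert, Finset.mem_singleton] at h1
    rcases h1 with h1 | h1
    · exact absurd h1 a.2
    · exact Subtype.ext h1
  have himg := Finset.sum_image (f := H)
    (g := fun a : {a : α // a ≠ a₀} => ({a₀, a.1} : Finset α)) hinj
  rw [← himg]
  apply Finset.sum_le_sum_of_subset_of_nonneg
  · intro q hq
    obtain ⟨a, _, rfl⟩ := Finset.mem_image.mp hq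
    rw [Finset.mem_powersetCard]
    exact ⟨Finset.subset_univ _, Finset.card_pair (Ne.symm a.2)⟩
  · intro q _ _
    exact hH q

/-- The pattern of a flipped point of the cube is the flipped pattern. -/
theorem pat_flip_eq (r : R → ℕ) (c : C → ℕ) (i₀ : R) (j₀ : C) (x : Free i₀ j₀ → Bool)
    (e : Free i₀ j₀) :
    pat r c i₀ j₀ (Function.update x e (!(x e))) = flipB i₀ e.1.1 j₀ e.2.1 (pat r c i₀ j₀ x) := by
  funext a b
  exact pat_flip r c i₀ j₀ x e a b

/-- The pattern of the free part of a table is its parity pattern; the table lies in the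
fibre of this pattern. -/
theorem mem_fib_pat {r : R → ℕ} {c : C → ℕ} (i₀ : R) (j₀ : C) {T : R → C → ℕ}
    (hT : T ∈ tables r c) : T ∈ fib r c (pat r c i₀ j₀ (freePart i₀ j₀ (par T))) := by
  rw [← par_eq_pat i₀ j₀ hT]
  exact mem_fib.mpr ⟨hT, rfl⟩

/-- A sum over the cube of sums over the fibres is a sum over all tables. -/
theorem sum_cube_fib (r : R → ℕ) (c : C → ℕ) (i₀ : R) (j₀ : C) (F : (R → C → ℕ) → ℝ) :
    ∑ x : Free i₀ j₀ → Bool, ∑ T ∈ fib r c (pat r c i₀ j₀ x), F T = ∑ T ∈ tables r c, F T := by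
  rw [sum_tables_fib r c F]
  refine (sum_patterns r c i₀ j₀ (fun B => ∑ T ∈ fib r c B, F T) (fun B hB => ?_)).symm
  show ∑ T ∈ fib r c B, F T = 0
  rw [hB]
  exact Finset.sum_empty

/-- The sum over the cube of the sums over the domains of the unit switch inside the fibres
is the sum over the domain of the unit switch. -/
theorem sum_cube_fibP (r : R → ℕ) (c : C → ℕ) (i₀ i : R) (j₀ j : C) (i₁ : R) (j₁ : C)
    (g : (R → C → ℕ) → ℝ) :
    ∑ x : Free i₁ j₁ → Bool, ∑ T ∈ fibP r c i₀ i j₀ j (pat r c i₁ j₁ x), g T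
      = ∑ T ∈ swDom r c i₀ i j₀ j, g T := by
  have h1 : ∀ B : R → C → ℕ, ∑ T ∈ fibP r c i₀ i j₀ j B, g T
      = ∑ T ∈ fib r c B, if 1 ≤ T i₀ j ∧ 1 ≤ T i j₀ then g T else 0 := by
    intro B
    unfold fibP
    rw [Finset.sum_filter]
  have h2 : ∑ T ∈ swDom r c i₀ i j₀ j, g T
      = ∑ T ∈ tables r c, if 1 ≤ T i₀ j ∧ 1 ≤ T i j₀ then g T else 0 := by
    unfold swDom
    rw [Finset.sum_filter]
  rw [h2, Finset.sum_congr rfl (fun x _ => h1 (pat r c i₁ j₁ x))]
  exact sum_cube_fib r c i₁ j₁ _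

/-- All the fibres of the patterns of the cube are nonempty, as soon as there is a table. -/
theorem fib_pat_nonempty (r : R → ℕ) (c : C → ℕ) (i₀ : R) (j₀ : C) (δ : ℝ) (hδ0 : 0 ≤ δ)
    (hδ : 8 * (Fintype.card (Free i₀ j₀) : ℝ) * δ ≤ 1)
    (hZ : ∀ (x : Free i₀ j₀ → Bool) (a : R) (b : C),
      (((fib r c (pat r c i₀ j₀ x)).filter (fun T => T a b = 0)).card : ℝ)
        ≤ δ * ((fib r c (pat r c i₀ j₀ x)).card : ℝ))
    {T₀ : R → C → ℕ} (hT₀ : T₀ ∈ tables r c) (x : Free i₀ j₀ → Bool) :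
    (fib r c (pat r c i₀ j₀ x)).Nonempty := by
  have hflip : ∀ (y : Free i₀ j₀ → Bool) (e : Free i₀ j₀),
      (1 - 2 * δ) * ((fib r c (pat r c i₀ j₀ y)).card : ℝ)
        ≤ ((fib r c (pat r c i₀ j₀ (Function.update y e (!(y e))))).card : ℝ) := by
    intro y e
    rw [pat_flip_eq]
    exact card_fib_flip r c e.1.2 e.2.2 (pat r c i₀ j₀ y)
      (fun a b => Nat.lt_succ_of_le (pat_le_one r c i₀ j₀ y a b)) δ (hZ y)
  have h := cube_ratio (fun y => ((fib r c (pat r c i₀ j₀ y)).card : ℝ))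
    (fun y => Nat.cast_nonneg _) δ hδ0 hδ hflip (freePart i₀ j₀ (par T₀)) x
  have hpos : (0 : ℝ) < ((fib r c (pat r c i₀ j₀ (freePart i₀ j₀ (par T₀)))).card : ℝ) :=
    Nat.cast_pos.mpr (Finset.card_pos.mpr ⟨T₀, mem_fib_pat i₀ j₀ hT₀⟩)
  have h2 : (0 : ℝ) < ((fib r c (pat r c i₀ j₀ x)).card : ℝ) := by linarith
  exact Finset.card_pos.mp (Nat.cast_pos.mp h2)

/-- Step (II) for tables: the variance of the fibre means is bounded by the variances inside
the fibres and the 2 × 2 terms of the rectangles through the cell `(i₀, j₀)`. -/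
theorem between_tables (r : R → ℕ) (c : C → ℕ) (i₀ : R) (j₀ : C) (δ : ℝ) (hδ0 : 0 ≤ δ)
    (hδ : 8 * (Fintype.card (Free i₀ j₀) : ℝ) * δ ≤ 1)
    (hZ : ∀ (x : Free i₀ j₀ → Bool) (a : R) (b : C),
      (((fib r c (pat r c i₀ j₀ x)).filter (fun T => T a b = 0)).card : ℝ)
        ≤ δ * ((fib r c (pat r c i₀ j₀ x)).card : ℝ))
    {T₀ : R → C → ℕ} (hT₀ : T₀ ∈ tables r c) (f : (R → C → ℕ) → ℝ) :
    ∑ B ∈ patterns r c, ((fib r c B).card : ℝ)
        * (fibAvg r c f B - (∑ N ∈ tables r c, f N) / ((tables r c).card : ℝ)) ^ 2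
      ≤ 8 * (Fintype.card (Free i₀ j₀) : ℝ) * δ
          * ∑ B ∈ patterns r c, ∑ T ∈ fib r c B, (f T - fibAvg r c f B) ^ 2
        + 4 / 3 * ∑ e : Free i₀ j₀,
            4 * ∑ T ∈ tables r c, (f T - boxAvg r c {i₀, e.1.1} {j₀, e.2.1} f T) ^ 2 := by
  obtain ⟨μ, hμdef⟩ : ∃ μ : ℝ, μ = (∑ N ∈ tables r c, f N) / ((tables r c).card : ℝ) :=
    ⟨_, rfl⟩
  rw [← hμdef]
  have hne := fib_pat_nonempty r c i₀ j₀ δ hδ0 hδ hZ hT₀
  have e1 : ∑ B ∈ patterns r c, ((fib r c B).card : ℝ) * (fibAvg r c f B - μ) ^ 2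
      = ∑ x : Free i₀ j₀ → Bool, ((fib r c (pat r c i₀ j₀ x)).card : ℝ)
          * (mean (fib r c (pat r c i₀ j₀ x)) f - μ) ^ 2 :=
    sum_patterns r c i₀ j₀ (fun B => ((fib r c B).card : ℝ) * (fibAvg r c f B - μ) ^ 2)
      (fun B hB => by
        show ((fib r c B).card : ℝ) * (fibAvg r c f B - μ) ^ 2 = 0
        rw [hB, Finset.card_empty, Nat.cast_zero, zero_mul])
  have e2 : ∑ B ∈ patterns r c, ∑ T ∈ fib r c B, (f T - fibAvg r c f B) ^ 2
      = ∑ x : Free i₀ j₀ → Bool, vsum (fib r c (pat r c i₀ j₀ x)) f :=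
    sum_patterns r c i₀ j₀ (fun B => ∑ T ∈ fib r c B, (f T - fibAvg r c f B) ^ 2)
      (fun B hB => by
        show ∑ T ∈ fib r c B, (f T - fibAvg r c f B) ^ 2 = 0
        rw [hB]
        exact Finset.sum_empty)
  have e3 : ∑ x : Free i₀ j₀ → Bool, ((fib r c (pat r c i₀ j₀ x)).card : ℝ)
      = ((tables r c).card : ℝ) := by
    rw [← sum_card_fib r c]
    exact (sum_patterns r c i₀ j₀ (fun B => ((fib r c B).card : ℝ))
      (fun B hB => by
        show ((fib r c B).card : ℝ) = 0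
        rw [hB, Finset.card_empty, Nat.cast_zero])).symm
  have e4 : ∑ x : Free i₀ j₀ → Bool, ((fib r c (pat r c i₀ j₀ x)).card : ℝ)
        * mean (fib r c (pat r c i₀ j₀ x)) f = ∑ T ∈ tables r c, f T := by
    rw [← sum_fibAvg r c f]
    exact (sum_patterns r c i₀ j₀ (fun B => ((fib r c B).card : ℝ) * fibAvg r c f B)
      (fun B hB => by
        show ((fib r c B).card : ℝ) * fibAvg r c f B = 0
        rw [hB, Finset.card_empty, Nat.cast_zero, zero_mul])).symm
  have hcard : ((tables r c).card : ℝ) ≠ 0 :=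
    Nat.cast_ne_zero.mpr (Nat.pos_iff_ne_zero.mp (Finset.card_pos.mpr ⟨T₀, hT₀⟩))
  rw [e1, e2]
  refine between_fibres (fun x => fib r c (pat r c i₀ j₀ x))
    (fun x e => fibP r c i₀ e.1.1 j₀ e.2.1 (pat r c i₀ j₀ x))
    (fun x e => fibM r c i₀ e.1.1 j₀ e.2.1 (pat r c i₀ j₀ (Function.update x e (!(x e)))))
    (fun e => usw i₀ e.1.1 j₀ e.2.1) hne
    (fun x e => fibP_subset r c i₀ e.1.1 j₀ e.2.1 _)
    (fun x e => fibM_subset r c i₀ e.1.1 j₀ e.2.1 _)
    (fun x e => ?_) δ hδ0 hδ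
    (fun x e => card_fib_sdiff_fibP r c i₀ e.1.1 j₀ e.2.1 _ δ (hZ x))
    (fun x e => card_fib_sdiff_fibM r c i₀ e.1.1 j₀ e.2.1 _ δ (hZ _))
    f μ ?_
    (fun e => 4 * ∑ T ∈ tables r c, (f T - boxAvg r c {i₀, e.1.1} {j₀, e.2.1} f T) ^ 2)
    (fun e => ?_)
  · rw [pat_flip_eq]
    exact usw_bijOn_fib r c e.1.2 e.2.2 (pat r c i₀ j₀ x)
      (fun a b => Nat.lt_succ_of_le (pat_le_one r c i₀ j₀ x a b))
  · rw [e3, e4, hμdef]
    exact div_mul_cancel₀ _ hcard
  · rw [sum_cube_fibP r c i₀ e.1.1 j₀ e.2.1 i₀ j₀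
      (fun T => (f (usw i₀ e.1.1 j₀ e.2.1 T) - f T) ^ 2)]
    exact switch_energy_le e.1.2 e.2.2 f

/-- The sum over the free cells of a nonnegative function of the rectangle through
`(i₀, j₀)` and the free cell is at most its sum over all pairs of rows and pairs of columns. -/
theorem sum_free_le (i₀ : R) (j₀ : C) (G : Finset R → Finset C → ℝ) (hG : ∀ q p, 0 ≤ G q p) :
    ∑ e : Free i₀ j₀, G {i₀, e.1.1} {j₀, e.2.1}
      ≤ ∑ q ∈ (Finset.univ : Finset R).powersetCard 2,
          ∑ p ∈ (Finset.univ : Finset C).powersetCard 2, G q p := by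
  rw [Fintype.sum_prod_type]
  calc ∑ a : {i : R // i ≠ i₀}, ∑ b : {j : C // j ≠ j₀}, G {i₀, a.1} {j₀, b.1}
      ≤ ∑ a : {i : R // i ≠ i₀}, ∑ p ∈ (Finset.univ : Finset C).powersetCard 2,
          G {i₀, a.1} p :=
        Finset.sum_le_sum (fun a _ =>
          sum_pair_le j₀ (fun p => G {i₀, a.1} p) (fun p => hG _ p))
    _ ≤ ∑ q ∈ (Finset.univ : Finset R).powersetCard 2,
          ∑ p ∈ (Finset.univ : Finset C).powersetCard 2, G q p :=
        sum_pair_le i₀ (fun q => ∑ p ∈ (Finset.univ : Finset C).powersetCard 2, G q p)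
          (fun q => Finset.sum_nonneg (fun p _ => hG q p))

/-- **The halving step.**  If every row sum is at least the number of columns, every column
sum at least the number of rows, and for every `0/1` matrix `B` with the parities of the
margins the half class has the Poincare constant `K'` of the 2 × 2 heat bath and at most the
fraction `δ` of its tables vanish at any given cell, where `8 d δ ≤ 1` for
`d = (m - 1) (n - 1)`, then `(1 + 8 d δ) K' + 6` is a Poincare constant of the 2 × 2 heat bath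
for the margins `r`, `c`. -/
theorem halveStatement : HalveStatement.{u, v} := by
  intro R _ C _ r c K' δ hR hC hrn hcm hK' hδ0 hδ H f
  obtain ⟨Ebox, hEbox⟩ : ∃ E : ℝ, E = ∑ q ∈ (Finset.univ : Finset R).powersetCard 2,
      ∑ p ∈ (Finset.univ : Finset C).powersetCard 2,
        ∑ M ∈ tables r c, (f M - boxAvg r c q p f M) ^ 2 := ⟨_, rfl⟩
  rw [← hEbox]
  have hE0 : 0 ≤ Ebox := by
    rw [hEbox]
    exact Finset.sum_nonneg (fun q _ => Finset.sum_nonneg (fun p _ =>
      Finset.sum_nonneg (fun M _ => sq_nonneg _)))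
  obtain ⟨D, hD⟩ : ∃ D : ℝ,
      D = 8 * (((Fintype.card R - 1) * (Fintype.card C - 1) : ℕ) : ℝ) * δ := ⟨_, rfl⟩
  rw [← hD]
  rw [← hD] at hδ
  have hD0 : 0 ≤ D := by
    rw [hD]
    exact mul_nonneg (mul_nonneg (by norm_num) (Nat.cast_nonneg _)) hδ0
  rcases Finset.eq_empty_or_nonempty (tables r c) with hemp | ⟨T₀, hT₀⟩
  · rw [hemp, Finset.sum_empty]
    have hc0 : 0 ≤ (1 + D) * K' + 6 := by
      have := mul_nonneg (by linarith : (0 : ℝ) ≤ 1 + D) hK'
      linarith
    exact mul_nonneg hc0 hE0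
  · obtain ⟨i₀⟩ : Nonempty R := Fintype.card_pos_iff.mp (by omega)
    obtain ⟨j₀⟩ : Nonempty C := Fintype.card_pos_iff.mp (by omega)
    have hsum : (∑ i, r i) % 2 = (∑ j, c j) % 2 := by rw [sum_margins_eq hT₀]
    have hpar := fun x : Free i₀ j₀ → Bool => pat_parity r c i₀ j₀ x hsum
    have hpatt := fun x : Free i₀ j₀ → Bool => isPattern_pat r c i₀ j₀ x hsum hrn hcm
    have hZ : ∀ (x : Free i₀ j₀ → Bool) (a : R) (b : C),
        (((fib r c (pat r c i₀ j₀ x)).filter (fun T => T a b = 0)).card : ℝ)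
          ≤ δ * ((fib r c (pat r c i₀ j₀ x)).card : ℝ) := fun x a b =>
      fib_zero_le (hpatt x) a b δ ((H _ (hpar x).1 (hpar x).2.1 (hpar x).2.2).2 a b)
    have hK : ∀ B ∈ patterns r c, PCbox K' (hrow r B) (hcol c B) := fun B hB =>
      (H B (isPattern_of_mem hB).parity.1 (isPattern_of_mem hB).parity.2.1
        (isPattern_of_mem hB).parity.2.2).1
    have hδ' : 8 * (Fintype.card (Free i₀ j₀) : ℝ) * δ ≤ 1 := by
      rw [card_free, ← hD]
      exact hδ
    have h1 := sum_fib_var_le hK' hK f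
    have h2 := between_tables r c i₀ j₀ δ hδ0 hδ' hZ hT₀ f
    have h3 := anova r c f ((∑ N ∈ tables r c, f N) / ((tables r c).card : ℝ))
    have h4 : ∑ e : Free i₀ j₀,
        4 * ∑ T ∈ tables r c, (f T - boxAvg r c {i₀, e.1.1} {j₀, e.2.1} f T) ^ 2
          ≤ 4 * Ebox := by
      rw [← Finset.mul_sum, hEbox]
      exact mul_le_mul_of_nonneg_left
        (sum_free_le i₀ j₀ (fun q p => ∑ T ∈ tables r c, (f T - boxAvg r c q p f T) ^ 2)
          (fun q p => Finset.sum_nonneg (fun M _ => sq_nonneg _))) (by norm_num)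
    rw [← hEbox] at h1
    rw [card_free, ← hD] at h2
    rw [h3]
    have h5 := mul_le_mul_of_nonneg_left h1 hD0
    nlinarith [h1, h2, h4, h5, hE0]

end Vale.Agent.Lib.P328.BP
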