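import Vale.Agent.Lib.P328.AM.BoxSym

/-!
# P328 / bit planes: the mixing time in terms of the input length

The input length of the margins `r`, `c` is
`inLen r c = m + n + ∑ i, logb 2 (r i + 2) + ∑ j, logb 2 (c j + 2)` (`m` rows, `n` columns).
If `K ≤ 3500 * inLen r c ^ 17` is a Poincare constant of the 2 × 2 heat bath, then after
`t ≥ 875 * L ^ 21 * (L ^ 2 + log (1 / ε))` steps, `L = inLen r c`, the chain is within `ε` of
the uniform distribution (`pcbox_time_input_length`).  The number of rows, the number of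
columns, `2` and the number of binary digits of the total `∑ i, r i` are at most `inLen r c`.
-/

namespace Vale.Agent.Lib.P328.BP

open Finset
open scoped Classical
open Vale.Agent.Lib.P328.CT Vale.Agent.Lib.P328.AM

variable {R C : Type*} [Fintype R] [Fintype C]

/-- The input length of the margins `r`, `c`. -/
noncomputable def inLen (r : R → ℕ) (c : C → ℕ) : ℝ :=
  (Fintype.card R : ℝ) + (Fintype.card C : ℝ) + ∑ i, Real.logb 2 ((r i : ℝ) + 2)
    + ∑ j, Real.logb 2 ((c j : ℝ) + 2)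

theorem logb_add_two_nonneg (k : ℕ) : 0 ≤ Real.logb 2 ((k : ℝ) + 2) := by
  have hk : (0 : ℝ) ≤ (k : ℝ) := Nat.cast_nonneg k
  exact Real.logb_nonneg (by norm_num) (by linarith)

theorem card_rows_le_inLen (r : R → ℕ) (c : C → ℕ) : (Fintype.card R : ℝ) ≤ inLen r c := by
  have h1 : (0 : ℝ) ≤ ∑ i, Real.logb 2 ((r i : ℝ) + 2) :=
    Finset.sum_nonneg (fun i _ => logb_add_two_nonneg (r i))
  have h2 : (0 : ℝ) ≤ ∑ j, Real.logb 2 ((c j : ℝ) + 2) :=
    Finset.sum_nonneg (fun j _ => logb_add_two_nonneg (c j))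
  have h3 : (0 : ℝ) ≤ (Fintype.card C : ℝ) := Nat.cast_nonneg _
  unfold inLen
  linarith

theorem card_cols_le_inLen (r : R → ℕ) (c : C → ℕ) : (Fintype.card C : ℝ) ≤ inLen r c := by
  have h1 : (0 : ℝ) ≤ ∑ i, Real.logb 2 ((r i : ℝ) + 2) :=
    Finset.sum_nonneg (fun i _ => logb_add_two_nonneg (r i))
  have h2 : (0 : ℝ) ≤ ∑ j, Real.logb 2 ((c j : ℝ) + 2) :=
    Finset.sum_nonneg (fun j _ => logb_add_two_nonneg (c j))
  have h3 : (0 : ℝ) ≤ (Fintype.card R : ℝ) := Nat.cast_nonneg _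
  unfold inLen
  linarith

theorem four_le_inLen (r : R → ℕ) (c : C → ℕ) (hR : 2 ≤ Fintype.card R)
    (hC : 2 ≤ Fintype.card C) : (4 : ℝ) ≤ inLen r c := by
  have h1 : (0 : ℝ) ≤ ∑ i, Real.logb 2 ((r i : ℝ) + 2) :=
    Finset.sum_nonneg (fun i _ => logb_add_two_nonneg (r i))
  have h2 : (0 : ℝ) ≤ ∑ j, Real.logb 2 ((c j : ℝ) + 2) :=
    Finset.sum_nonneg (fun j _ => logb_add_two_nonneg (c j))
  have h3 : (2 : ℝ) ≤ (Fintype.card R : ℝ) := by exact_mod_cast hR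
  have h4 : (2 : ℝ) ≤ (Fintype.card C : ℝ) := by exact_mod_cast hC
  unfold inLen
  linarith

/-- The number of binary digits of `N` is at most `1 + logb 2 (N + 1)`. -/
theorem size_le_logb (N : ℕ) : (Nat.size N : ℝ) ≤ 1 + Real.logb 2 ((N : ℝ) + 1) := by
  have hN0 : (0 : ℝ) ≤ (N : ℝ) := Nat.cast_nonneg N
  by_cases hN : Nat.size N = 0
  · rw [hN]
    have h := Real.logb_nonneg (b := 2) (x := (N : ℝ) + 1) (by norm_num) (by linarith)
    simp only [Nat.cast_zero]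
    linarith
  · have hk : Nat.size N - 1 < Nat.size N := by omega
    have h2 : 2 ^ (Nat.size N - 1) ≤ N := Nat.lt_size.mp hk
    have h3 : ((Nat.size N - 1 : ℕ) : ℝ) ≤ Real.logb 2 ((N : ℝ) + 1) := by
      rw [Real.le_logb_iff_rpow_le (by norm_num) (by linarith), Real.rpow_natCast]
      have h4 : ((2 : ℝ) ^ (Nat.size N - 1)) ≤ (N : ℝ) := by exact_mod_cast h2
      linarith
    have h5 : (Nat.size N : ℝ) = ((Nat.size N - 1 : ℕ) : ℝ) + 1 := by
      have h6 : Nat.size N = (Nat.size N - 1) + 1 := by omega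
      exact_mod_cast h6
    linarith

/-- `logb 2 (1 + ∑ a)` is at most `∑ logb 2 (a + 2)`. -/
theorem logb_sum_le {ι : Type*} (s : Finset ι) (a : ι → ℕ) :
    Real.logb 2 (((∑ i ∈ s, a i : ℕ) : ℝ) + 1) ≤ ∑ i ∈ s, Real.logb 2 ((a i : ℝ) + 2) := by
  induction s using Finset.induction_on with
  | empty => simp
  | insert b s hb ih =>
    rw [Finset.sum_insert hb, Finset.sum_insert hb]
    have hb0 : (0 : ℝ) ≤ (a b : ℝ) := Nat.cast_nonneg _
    have hs0 : (0 : ℝ) ≤ ((∑ i ∈ s, a i : ℕ) : ℝ) := Nat.cast_nonneg _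
    have h1 : ((a b + ∑ i ∈ s, a i : ℕ) : ℝ) + 1
        ≤ ((a b : ℝ) + 2) * (((∑ i ∈ s, a i : ℕ) : ℝ) + 1) := by
      rw [Nat.cast_add]
      nlinarith [mul_nonneg hb0 hs0]
    have h2 : Real.logb 2 (((a b + ∑ i ∈ s, a i : ℕ) : ℝ) + 1)
        ≤ Real.logb 2 (((a b : ℝ) + 2) * (((∑ i ∈ s, a i : ℕ) : ℝ) + 1)) := by
      refine Real.logb_le_logb_of_le (by norm_num) ?_ h1
      have h3 : (0 : ℝ) ≤ ((a b + ∑ i ∈ s, a i : ℕ) : ℝ) := Nat.cast_nonneg _
      linarith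
    rw [Real.logb_mul (by linarith) (by linarith)] at h2
    linarith

/-- The number of binary digits of the total is at most the input length. -/
theorem size_sum_le_inLen (r : R → ℕ) (c : C → ℕ) (hR : 1 ≤ Fintype.card R) :
    (Nat.size (∑ i, r i) : ℝ) ≤ inLen r c := by
  have h1 := size_le_logb (∑ i, r i)
  have h2 := logb_sum_le (Finset.univ : Finset R) r
  have h3 : (0 : ℝ) ≤ ∑ j, Real.logb 2 ((c j : ℝ) + 2) :=
    Finset.sum_nonneg (fun j _ => logb_add_two_nonneg (c j))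
  have h4 : (1 : ℝ) ≤ (Fintype.card R : ℝ) := by exact_mod_cast hR
  have h5 : (0 : ℝ) ≤ (Fintype.card C : ℝ) := Nat.cast_nonneg _
  unfold inLen
  linarith

/-- The maximum of the number of rows, the number of columns and `2` is at most the input
length. -/
theorem max_le_inLen (r : R → ℕ) (c : C → ℕ) (hR : 2 ≤ Fintype.card R)
    (hC : 2 ≤ Fintype.card C) :
    ((max (max (Fintype.card R) (Fintype.card C)) 2 : ℕ) : ℝ) ≤ inLen r c := by
  have h1 := card_rows_le_inLen r c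
  have h2 := card_cols_le_inLen r c
  have h3 := four_le_inLen r c hR hC
  rw [Nat.cast_max, Nat.cast_max]
  refine max_le (max_le h1 h2) ?_
  push_cast
  linarith

/-- A constant `3500 * M ^ 15 * b ^ 2` with `M`, `b` at most `L` is at most `3500 * L ^ 17`. -/
theorem poly_const_le {M b L : ℝ} (hM0 : 0 ≤ M) (hM : M ≤ L) (hb0 : 0 ≤ b) (hb : b ≤ L) :
    3500 * M ^ 15 * b ^ 2 ≤ 3500 * L ^ 17 := by
  have hL0 : 0 ≤ L := le_trans hM0 hM
  have h1 : M ^ 15 ≤ L ^ 15 := pow_le_pow_left₀ hM0 hM 15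
  have h2 : b ^ 2 ≤ L ^ 2 := pow_le_pow_left₀ hb0 hb 2
  have h3 : M ^ 15 * b ^ 2 ≤ L ^ 15 * L ^ 2 :=
    mul_le_mul h1 h2 (pow_nonneg hb0 2) (pow_nonneg hL0 15)
  have h4 : L ^ 15 * L ^ 2 = L ^ 17 := by ring
  nlinarith

/-- The constant of the bit plane argument is at most `3500 * inLen r c ^ 17`. -/
theorem bp_const_le_inLen (r : R → ℕ) (c : C → ℕ) (hR : 2 ≤ Fintype.card R)
    (hC : 2 ≤ Fintype.card C) :
    3500 * ((max (max (Fintype.card R) (Fintype.card C)) 2 : ℕ) : ℝ) ^ 15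
        * (Nat.size (∑ i, r i) : ℝ) ^ 2 ≤ 3500 * inLen r c ^ 17 :=
  poly_const_le (Nat.cast_nonneg _) (max_le_inLen r c hR hC) (Nat.cast_nonneg _)
    (size_sum_le_inLen r c (by omega))

theorem log_add_one_le_logb (k : ℕ) :
    Real.log ((k : ℝ) + 1) ≤ Real.logb 2 ((k : ℝ) + 2) := by
  have hk : (0 : ℝ) ≤ (k : ℝ) := Nat.cast_nonneg k
  have h1 : Real.log ((k : ℝ) + 1) ≤ Real.log ((k : ℝ) + 2) :=
    Real.log_le_log (by linarith) (by linarith)
  have h2 : (0 : ℝ) < Real.log 2 := Real.log_pos (by norm_num)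
  have h3 : Real.log 2 ≤ 1 := by
    have := Real.log_two_lt_d9
    linarith
  have h4 : Real.log ((k : ℝ) + 2) = Real.logb 2 ((k : ℝ) + 2) * Real.log 2 := by
    rw [← Real.log_div_log, div_mul_cancel₀ _ (ne_of_gt h2)]
  have h5 := logb_add_two_nonneg k
  nlinarith

theorem choose_two_le (n : ℕ) : ((n.choose 2 : ℕ) : ℝ) ≤ (n : ℝ) ^ 2 / 2 := by
  rw [Nat.cast_choose_two]
  have hn : (0 : ℝ) ≤ (n : ℝ) := Nat.cast_nonneg n
  nlinarith

/-- The mixing time of the 2 × 2 heat bath in terms of the input length `L = inLen r c`: if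
`K ≤ 3500 * L ^ 17` is a Poincare constant, then after `t ≥ 875 * L ^ 21 * (L ^ 2 + log (1 / ε))`
steps the chain is within `ε` of the uniform distribution in `ℓ¹` distance. -/
theorem pcbox_time_input_length {r : R → ℕ} {c : C → ℕ} {K : ℝ} (h : PCbox K r c)
    (hKL : K ≤ 3500 * inLen r c ^ 17)
    (hR : 2 ≤ Fintype.card R) (hC : 2 ≤ Fintype.card C) (ε : ℝ) (hε : 0 < ε) (t : ℕ)
    (ht : 875 * inLen r c ^ 21 * (inLen r c ^ 2 + Real.log (1 / ε)) ≤ t) (x : Tab r c) :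
    ∑ y, |(heatKernel (((Finset.univ : Finset R).powersetCard 2) ×ˢ
            ((Finset.univ : Finset C).powersetCard 2))
          (fun qp => RelBox (r := r) (c := c) qp.1 qp.2) ^ t) x y
          - 1 / (Fintype.card (Tab r c) : ℝ)|
      ≤ ε := by
  have hL4 : (4 : ℝ) ≤ inLen r c := four_le_inLen r c hR hC
  have hL0 : (0 : ℝ) ≤ inLen r c := by linarith
  have hL1 : (1 : ℝ) ≤ inLen r c := by linarith
  have hK' : (1 : ℝ) ≤ 3500 * inLen r c ^ 17 := by
    have h17 : (1 : ℝ) ≤ inLen r c ^ 17 := one_le_pow₀ hL1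
    linarith
  refine pcbox_mixing_time hK' (h.mono hKL) hR hC ε hε t ?_ x
  have hm : (Fintype.card R : ℝ) ≤ inLen r c := card_rows_le_inLen r c
  have hn : (Fintype.card C : ℝ) ≤ inLen r c := card_cols_le_inLen r c
  have hm0 : (0 : ℝ) ≤ (Fintype.card R : ℝ) := Nat.cast_nonneg _
  have hn0 : (0 : ℝ) ≤ (Fintype.card C : ℝ) := Nat.cast_nonneg _
  have hcm : (((Fintype.card R).choose 2 : ℕ) : ℝ) ≤ inLen r c ^ 2 / 2 :=
    le_trans (choose_two_le _) (by nlinarith)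
  have hcn : (((Fintype.card C).choose 2 : ℕ) : ℝ) ≤ inLen r c ^ 2 / 2 :=
    le_trans (choose_two_le _) (by nlinarith)
  have hcm0 : (0 : ℝ) ≤ (((Fintype.card R).choose 2 : ℕ) : ℝ) := Nat.cast_nonneg _
  have hcn0 : (0 : ℝ) ≤ (((Fintype.card C).choose 2 : ℕ) : ℝ) := Nat.cast_nonneg _
  have hL2 : (0 : ℝ) ≤ inLen r c ^ 2 / 2 := by positivity
  have hCC : (((Fintype.card R).choose 2 : ℕ) : ℝ) * (((Fintype.card C).choose 2 : ℕ) : ℝ)
      ≤ inLen r c ^ 4 / 4 := by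
    have h1 := mul_le_mul hcm hcn hcn0 hL2
    have h2 : inLen r c ^ 2 / 2 * (inLen r c ^ 2 / 2) = inLen r c ^ 4 / 4 := by ring
    linarith
  have hS : ∑ j, Real.log ((c j : ℝ) + 1) ≤ inLen r c := by
    have h1 : ∑ j, Real.log ((c j : ℝ) + 1) ≤ ∑ j, Real.logb 2 ((c j : ℝ) + 2) :=
      Finset.sum_le_sum (fun j _ => log_add_one_le_logb (c j))
    have h2 : (0 : ℝ) ≤ ∑ i, Real.logb 2 ((r i : ℝ) + 2) :=
      Finset.sum_nonneg (fun i _ => logb_add_two_nonneg (r i))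
    have h3 : ∑ j, Real.logb 2 ((c j : ℝ) + 2) ≤ inLen r c := by
      unfold inLen
      linarith
    linarith
  have hS0 : (0 : ℝ) ≤ ∑ j, Real.log ((c j : ℝ) + 1) := by
    refine Finset.sum_nonneg (fun j _ => Real.log_nonneg ?_)
    have hc : (0 : ℝ) ≤ (c j : ℝ) := Nat.cast_nonneg _
    linarith
  have hA : (Fintype.card R : ℝ) / 2 * ∑ j, Real.log ((c j : ℝ) + 1) ≤ inLen r c ^ 2 := by
    have h1 : (Fintype.card R : ℝ) / 2 ≤ inLen r c := by linarith
    have h2 := mul_le_mul h1 hS hS0 hL0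
    have h3 : inLen r c * inLen r c = inLen r c ^ 2 := by ring
    linarith
  have hP : (0 : ℝ) ≤ 3500 * inLen r c ^ 17 := by positivity
  have hCC0 : (0 : ℝ) ≤ (((Fintype.card R).choose 2 : ℕ) : ℝ)
      * (((Fintype.card C).choose 2 : ℕ) : ℝ) := mul_nonneg hcm0 hcn0
  by_cases hneg : (Fintype.card R : ℝ) / 2 * ∑ j, Real.log ((c j : ℝ) + 1)
      + Real.log (1 / ε) ≤ 0
  · have h1 : 3500 * inLen r c ^ 17
        * ((((Fintype.card R).choose 2 : ℕ) : ℝ) * (((Fintype.card C).choose 2 : ℕ) : ℝ))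
        * ((Fintype.card R : ℝ) / 2 * ∑ j, Real.log ((c j : ℝ) + 1) + Real.log (1 / ε)) ≤ 0 :=
      mul_nonpos_of_nonneg_of_nonpos (mul_nonneg hP hCC0) hneg
    exact le_trans h1 (Nat.cast_nonneg t)
  · push Not at hneg
    have h1 : 3500 * inLen r c ^ 17
        * ((((Fintype.card R).choose 2 : ℕ) : ℝ) * (((Fintype.card C).choose 2 : ℕ) : ℝ))
        ≤ 3500 * inLen r c ^ 17 * (inLen r c ^ 4 / 4) :=
      mul_le_mul_of_nonneg_left hCC hP
    have h2 := mul_le_mul_of_nonneg_right h1 hneg.le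
    have hQ : (0 : ℝ) ≤ 3500 * inLen r c ^ 17 * (inLen r c ^ 4 / 4) := by positivity
    have h3 : 3500 * inLen r c ^ 17 * (inLen r c ^ 4 / 4)
        * ((Fintype.card R : ℝ) / 2 * ∑ j, Real.log ((c j : ℝ) + 1) + Real.log (1 / ε))
        ≤ 3500 * inLen r c ^ 17 * (inLen r c ^ 4 / 4)
          * (inLen r c ^ 2 + Real.log (1 / ε)) :=
      mul_le_mul_of_nonneg_left (by linarith) hQ
    have h4 : 3500 * inLen r c ^ 17 * (inLen r c ^ 4 / 4)
          * (inLen r c ^ 2 + Real.log (1 / ε))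
        = 875 * inLen r c ^ 21 * (inLen r c ^ 2 + Real.log (1 / ε)) := by ring
    linarith

end Vale.Agent.Lib.P328.BP
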