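import Vale.Agent.Lib.P328.BP.Top
import Vale.Agent.Lib.P328.BP.Halve
import Vale.Agent.Lib.P328.BP.InputLength
import Vale.Agent.Lib.P328.BP.CountChain

/-!
# P328: counting reduced to sampling, in terms of the input length

`count_chain`: for every nonempty instance `(r, c)` with `m ≥ 2` rows, `n ≥ 2` columns and
input length `L = inLen r c` there is a chain of at most `2 (m n) L` instances as in
`exists_chain`, and the 2 × 2 heat bath of every instance of the chain is within `ε` of the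
uniform distribution after `875 L ^ 21 (L ^ 2 + log (1 / ε))` steps (with the `L` of `(r, c)`).
-/

namespace Vale.Agent.Lib.P328.BP

open Finset
open scoped Classical
open Vale.Agent.Lib.P328.CT Vale.Agent.Lib.P328.AM

variable {R C : Type*} [Fintype R] [Fintype C]

/-- The input length is monotone in the margins. -/
theorem inLen_mono (r r' : R → ℕ) (c c' : C → ℕ) (hr : ∀ a, r' a ≤ r a) (hc : ∀ b, c' b ≤ c b) :
    inLen r' c' ≤ inLen r c := by
  have h1 : ∑ i, Real.logb 2 ((r' i : ℝ) + 2) ≤ ∑ i, Real.logb 2 ((r i : ℝ) + 2) := by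
    refine Finset.sum_le_sum (fun i _ => ?_)
    have h0 : (0 : ℝ) ≤ (r' i : ℝ) := Nat.cast_nonneg _
    have h2 : (r' i : ℝ) ≤ (r i : ℝ) := by exact_mod_cast hr i
    exact Real.logb_le_logb_of_le (by norm_num) (by linarith) (by linarith)
  have h2 : ∑ j, Real.logb 2 ((c' j : ℝ) + 2) ≤ ∑ j, Real.logb 2 ((c j : ℝ) + 2) := by
    refine Finset.sum_le_sum (fun j _ => ?_)
    have h0 : (0 : ℝ) ≤ (c' j : ℝ) := Nat.cast_nonneg _
    have h2 : (c' j : ℝ) ≤ (c j : ℝ) := by exact_mod_cast hc j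
    exact Real.logb_le_logb_of_le (by norm_num) (by linarith) (by linarith)
  unfold inLen
  linarith

/-- The time bound for a shorter input is at most the time bound for a longer input. -/
theorem time_mono {L' L a u : ℝ} (h0 : 0 ≤ L') (hle : L' ≤ L) (hu : 0 ≤ u)
    (h : 875 * L ^ 21 * (L ^ 2 + a) ≤ u) : 875 * L' ^ 21 * (L' ^ 2 + a) ≤ u := by
  have hL0 : 0 ≤ L := le_trans h0 hle
  have hP : (0 : ℝ) ≤ 875 * L' ^ 21 := by positivity
  by_cases hneg : L' ^ 2 + a ≤ 0
  · exact le_trans (mul_nonpos_of_nonneg_of_nonpos hP hneg) hu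
  · push Not at hneg
    have h1 : L' ^ 21 ≤ L ^ 21 := pow_le_pow_left₀ h0 hle 21
    have h2 : L' ^ 2 ≤ L ^ 2 := pow_le_pow_left₀ h0 hle 2
    have h3 : 875 * L' ^ 21 * (L' ^ 2 + a) ≤ 875 * L ^ 21 * (L ^ 2 + a) := by
      have h4 : 875 * L' ^ 21 ≤ 875 * L ^ 21 := by linarith
      have h5 : L' ^ 2 + a ≤ L ^ 2 + a := by linarith
      exact mul_le_mul h4 h5 hneg.le (by positivity)
    linarith

/-- Along a chain of updates that only subtract, the values are at most the initial ones. -/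
theorem chain_le {ι : Type*} (s : ℕ) (ρ : ℕ → ι → ℕ) (i : ℕ → ι) (k : ℕ → ℕ)
    (h : ∀ t, t < s → ρ (t + 1) = Function.update (ρ t) (i t) (ρ t (i t) - k t)) :
    ∀ t, t ≤ s → ∀ a, ρ t a ≤ ρ 0 a := by
  intro t
  induction t with
  | zero =>
    intro _ a
    exact le_refl _
  | succ t ih =>
    intro ht a
    have h1 := h t (by omega)
    have h2 := ih (by omega) a
    rw [h1]
    by_cases ha : a = i t
    · rw [ha, Function.update_self]
      rw [ha] at h2
      exact (Nat.sub_le _ _).trans h2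
    · rw [Function.update_of_ne ha]
      exact h2

/-- `logb 2 (N + 1)` is at most the input length. -/
theorem logb_total_le_inLen (r : R → ℕ) (c : C → ℕ) :
    Real.logb 2 (((∑ a, r a : ℕ) : ℝ) + 1) ≤ inLen r c := by
  have h2 := logb_sum_le (Finset.univ : Finset R) r
  have h3 : (0 : ℝ) ≤ ∑ j, Real.logb 2 ((c j : ℝ) + 2) :=
    Finset.sum_nonneg (fun j _ => logb_add_two_nonneg (c j))
  have h4 : (0 : ℝ) ≤ (Fintype.card R : ℝ) := Nat.cast_nonneg _
  have h5 : (0 : ℝ) ≤ (Fintype.card C : ℝ) := Nat.cast_nonneg _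
  unfold inLen
  linarith

/-- Counting reduced to sampling: see the header of this file. -/
theorem count_chain (r : R → ℕ) (c : C → ℕ) (hR : 2 ≤ Fintype.card R)
    (hC : 2 ≤ Fintype.card C) (hne : (tables r c).Nonempty) :
    ∃ (s : ℕ) (ρ : ℕ → R → ℕ) (γ : ℕ → C → ℕ) (i : ℕ → R) (j : ℕ → C) (k : ℕ → ℕ),
      (s : ℝ) ≤ 2 * ((Fintype.card R : ℝ) * (Fintype.card C : ℝ)) * inLen r c ∧
      ρ 0 = r ∧ γ 0 = c ∧
      (∀ t, t < s → 1 ≤ k t ∧ k t ≤ ρ t (i t) ∧ k t ≤ γ t (j t) ∧
        ρ (t + 1) = Function.update (ρ t) (i t) (ρ t (i t) - k t) ∧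
        γ (t + 1) = Function.update (γ t) (j t) (γ t (j t) - k t) ∧
        (tables (ρ (t + 1)) (γ (t + 1))).card
          = ((tables (ρ t) (γ t)).filter (fun T => k t ≤ T (i t) (j t))).card ∧
        (tables (ρ t) (γ t)).card ≤ 2 * (Fintype.card R * Fintype.card C)
          * ((tables (ρ t) (γ t)).filter (fun T => k t ≤ T (i t) (j t))).card) ∧
      ((tables r c).card : ℝ) = ∏ t ∈ Finset.range s, ((tables (ρ t) (γ t)).card : ℝ)
          / (((tables (ρ t) (γ t)).filter (fun T => k t ≤ T (i t) (j t))).card : ℝ) ∧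
      (∀ t, t ≤ s → ∀ (ε : ℝ), 0 < ε → ∀ u : ℕ,
        875 * inLen r c ^ 21 * (inLen r c ^ 2 + Real.log (1 / ε)) ≤ u →
        ∀ x : Tab (ρ t) (γ t),
          ∑ y, |(heatKernel (((Finset.univ : Finset R).powersetCard 2) ×ˢ
                ((Finset.univ : Finset C).powersetCard 2))
              (fun qp => RelBox (r := ρ t) (c := γ t) qp.1 qp.2) ^ u) x y
              - 1 / (Fintype.card (Tab (ρ t) (γ t)) : ℝ)|
            ≤ ε) := by
  have hRne : Nonempty R := Fintype.card_pos_iff.mp (by omega)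
  have hCne : Nonempty C := Fintype.card_pos_iff.mp (by omega)
  obtain ⟨i0⟩ := hRne
  obtain ⟨j0⟩ := hCne
  obtain ⟨s, ρ, γ, i, j, k, hs, hρ0, hγ0, hstep, hprod⟩ :=
    exists_chain i0 j0 (∑ a, r a) r c rfl hne
  refine ⟨s, ρ, γ, i, j, k, ?_, hρ0, hγ0, hstep, hprod, ?_⟩
  · have h1 := logb_total_le_inLen r c
    have hD : (0 : ℝ) ≤ ((2 * (Fintype.card R * Fintype.card C) : ℕ) : ℝ) := Nat.cast_nonneg _
    have h2 := mul_le_mul_of_nonneg_left h1 hD
    have h3 : ((2 * (Fintype.card R * Fintype.card C) : ℕ) : ℝ)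
        = 2 * ((Fintype.card R : ℝ) * (Fintype.card C : ℝ)) := by
      push_cast
      ring
    rw [h3] at h2 hs
    linarith
  · intro t ht ε hε u hu x
    have hρle : ∀ a, ρ t a ≤ r a := by
      intro a
      have h1 := chain_le s ρ i k (fun t' ht' => (hstep t' ht').2.2.2.1) t ht a
      rw [hρ0] at h1
      exact h1
    have hγle : ∀ b, γ t b ≤ c b := by
      intro b
      have h1 := chain_le s γ j k (fun t' ht' => (hstep t' ht').2.2.2.2.1) t ht b
      rw [hγ0] at h1
      exact h1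
    have hmono := inLen_mono r (ρ t) c (γ t) hρle hγle
    have h4 : (4 : ℝ) ≤ inLen (ρ t) (γ t) := four_le_inLen (ρ t) (γ t) hR hC
    exact pcbox_time_input_length (pcbox_poly halveStatement R C (ρ t) (γ t))
      (bp_const_le_inLen (ρ t) (γ t) hR hC) hR hC ε hε u
      (time_mono (by linarith) hmono (Nat.cast_nonneg u) hu) x

end Vale.Agent.Lib.P328.BP
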