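import Vale.Agent.Lib.P328.CT.Defs

/-!
# P328: one step of the reduction from counting to sampling

For margins `r`, `c`, a cell `(i, j)` and a threshold `k ≤ min (r i) (c j)`, subtracting `k`
from the cell `(i, j)` is a bijection from the tables with `k ≤ T i j` onto the tables with
margins `r - k e_i`, `c - k e_j` (`card_filter_ge_eq`).  For every nonempty instance with
positive total `N` there are a cell and a threshold `k` with `N < 2 (m n) k` such that the
tables with `k ≤ T i j` are at least a fraction `1 / (2 (m n))` of all tables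
(`exists_cell_threshold`).
-/

namespace Vale.Agent.Lib.P328.BP

open Finset
open scoped Classical
open Vale.Agent.Lib.P328.CT

variable {R C : Type*} [Fintype R] [Fintype C]

/-- If `g` agrees with `f` except at `j`, where `g j + k = f j`, then `∑ g + k = ∑ f`. -/
theorem sum_add_of_point {ι : Type*} [Fintype ι] (f g : ι → ℕ) (j : ι) (k : ℕ)
    (hj : g j + k = f j) (h : ∀ b, b ≠ j → g b = f b) : ∑ b, g b + k = ∑ b, f b := by
  rw [← Finset.add_sum_erase Finset.univ g (Finset.mem_univ j),
    ← Finset.add_sum_erase Finset.univ f (Finset.mem_univ j)]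
  have h2 : ∑ b ∈ Finset.univ.erase j, g b = ∑ b ∈ Finset.univ.erase j, f b :=
    Finset.sum_congr rfl (fun b hb => h b (Finset.ne_of_mem_erase hb))
  rw [h2]
  omega

/-- Subtract `k` from the cell `(i, j)`. -/
noncomputable def subCell (i : R) (j : C) (k : ℕ) (T : R → C → ℕ) : R → C → ℕ :=
  fun a b => if a = i ∧ b = j then T a b - k else T a b

/-- Add `k` to the cell `(i, j)`. -/
noncomputable def addCell (i : R) (j : C) (k : ℕ) (T : R → C → ℕ) : R → C → ℕ :=
  fun a b => if a = i ∧ b = j then T a b + k else T a b

omit [Fintype R] [Fintype C] in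
theorem subCell_apply (i : R) (j : C) (k : ℕ) (T : R → C → ℕ) (a : R) (b : C) :
    subCell i j k T a b = if a = i ∧ b = j then T a b - k else T a b := rfl

omit [Fintype R] [Fintype C] in
theorem addCell_apply (i : R) (j : C) (k : ℕ) (T : R → C → ℕ) (a : R) (b : C) :
    addCell i j k T a b = if a = i ∧ b = j then T a b + k else T a b := rfl

omit [Fintype R] [Fintype C] in
theorem subCell_addCell (i : R) (j : C) (k : ℕ) (T : R → C → ℕ) :
    subCell i j k (addCell i j k T) = T := by
  funext a b
  rw [subCell_apply, addCell_apply]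
  split_ifs
  · omega
  · rfl

omit [Fintype R] [Fintype C] in
theorem addCell_subCell (i : R) (j : C) (k : ℕ) (T : R → C → ℕ) (h : k ≤ T i j) :
    addCell i j k (subCell i j k T) = T := by
  funext a b
  rw [addCell_apply, subCell_apply]
  split_ifs with hab
  · obtain ⟨rfl, rfl⟩ := hab
    omega
  · rfl

theorem addCell_mem (r : R → ℕ) (c : C → ℕ) (i : R) (j : C) (k : ℕ) (hr : k ≤ r i)
    (hc : k ≤ c j) {T : R → C → ℕ}
    (hT : T ∈ tables (Function.update r i (r i - k)) (Function.update c j (c j - k))) :
    addCell i j k T ∈ tables r c := by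
  rw [mem_tables] at hT ⊢
  refine ⟨?_, ?_⟩
  · intro a
    by_cases ha : a = i
    · subst ha
      have h1 := hT.1 a
      rw [Function.update_self] at h1
      have h2 : ∑ b, T a b + k = ∑ b, addCell a j k T a b := by
        apply sum_add_of_point (fun b => addCell a j k T a b) (fun b => T a b) j k
        · show T a j + k = addCell a j k T a j
          rw [addCell_apply, if_pos ⟨rfl, rfl⟩]
        · intro b hb
          show T a b = addCell a j k T a b
          rw [addCell_apply, if_neg (fun hh => hb hh.2)]
      omega
    · have h1 := hT.1 a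
      rw [Function.update_of_ne ha] at h1
      rw [← h1]
      apply Finset.sum_congr rfl
      intro b _
      rw [addCell_apply, if_neg (fun hh => ha hh.1)]
  · intro b
    by_cases hb : b = j
    · subst hb
      have h1 := hT.2 b
      rw [Function.update_self] at h1
      have h2 : ∑ a, T a b + k = ∑ a, addCell i b k T a b := by
        apply sum_add_of_point (fun a => addCell i b k T a b) (fun a => T a b) i k
        · show T i b + k = addCell i b k T i b
          rw [addCell_apply, if_pos ⟨rfl, rfl⟩]
        · intro a ha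
          show T a b = addCell i b k T a b
          rw [addCell_apply, if_neg (fun hh => ha hh.1)]
      omega
    · have h1 := hT.2 b
      rw [Function.update_of_ne hb] at h1
      rw [← h1]
      apply Finset.sum_congr rfl
      intro a _
      rw [addCell_apply, if_neg (fun hh => hb hh.2)]

theorem subCell_mem (r : R → ℕ) (c : C → ℕ) (i : R) (j : C) (k : ℕ) {T : R → C → ℕ}
    (hT : T ∈ tables r c) (hk : k ≤ T i j) :
    subCell i j k T ∈ tables (Function.update r i (r i - k)) (Function.update c j (c j - k)) := by
  rw [mem_tables] at hT ⊢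
  refine ⟨?_, ?_⟩
  · intro a
    by_cases ha : a = i
    · subst ha
      rw [Function.update_self]
      have h1 := hT.1 a
      have h2 : ∑ b, subCell a j k T a b + k = ∑ b, T a b := by
        apply sum_add_of_point (fun b => T a b) (fun b => subCell a j k T a b) j k
        · show subCell a j k T a j + k = T a j
          rw [subCell_apply, if_pos ⟨rfl, rfl⟩]
          omega
        · intro b hb
          show subCell a j k T a b = T a b
          rw [subCell_apply, if_neg (fun hh => hb hh.2)]
      omega
    · rw [Function.update_of_ne ha, ← hT.1 a]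
      apply Finset.sum_congr rfl
      intro b _
      rw [subCell_apply, if_neg (fun hh => ha hh.1)]
  · intro b
    by_cases hb : b = j
    · subst hb
      rw [Function.update_self]
      have h1 := hT.2 b
      have h2 : ∑ a, subCell i b k T a b + k = ∑ a, T a b := by
        apply sum_add_of_point (fun a => T a b) (fun a => subCell i b k T a b) i k
        · show subCell i b k T i b + k = T i b
          rw [subCell_apply, if_pos ⟨rfl, rfl⟩]
          omega
        · intro a ha
          show subCell i b k T a b = T a b
          rw [subCell_apply, if_neg (fun hh => ha hh.1)]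
      omega
    · rw [Function.update_of_ne hb, ← hT.2 b]
      apply Finset.sum_congr rfl
      intro a _
      rw [subCell_apply, if_neg (fun hh => hb hh.2)]

/-- Subtracting `k` from the cell `(i, j)` is a bijection from the tables with `k ≤ T i j`
onto the tables with margins `r - k e_i`, `c - k e_j`. -/
theorem card_filter_ge_eq (r : R → ℕ) (c : C → ℕ) (i : R) (j : C) (k : ℕ) (hr : k ≤ r i)
    (hc : k ≤ c j) :
    ((tables r c).filter (fun T => k ≤ T i j)).card
      = (tables (Function.update r i (r i - k)) (Function.update c j (c j - k))).card := by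
  apply Finset.card_nbij' (subCell i j k) (addCell i j k)
  · intro T hT
    rw [Finset.mem_coe, Finset.mem_filter] at hT
    exact subCell_mem r c i j k hT.1 hT.2
  · intro T hT
    rw [Finset.mem_coe] at hT
    rw [Finset.mem_coe, Finset.mem_filter]
    refine ⟨addCell_mem r c i j k hr hc hT, ?_⟩
    rw [addCell_apply, if_pos ⟨rfl, rfl⟩]
    exact Nat.le_add_left _ _
  · intro T hT
    rw [Finset.mem_coe, Finset.mem_filter] at hT
    exact addCell_subCell i j k T hT.2
  · intro T _
    exact subCell_addCell i j k T

theorem entry_le_row {r : R → ℕ} {c : C → ℕ} {T : R → C → ℕ} (hT : T ∈ tables r c) (i : R)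
    (j : C) : T i j ≤ r i := by
  rw [← (mem_tables.mp hT).1 i]
  exact Finset.single_le_sum (f := fun b => T i b) (fun _ _ => Nat.zero_le _) (Finset.mem_univ j)

theorem entry_le_col {r : R → ℕ} {c : C → ℕ} {T : R → C → ℕ} (hT : T ∈ tables r c) (i : R)
    (j : C) : T i j ≤ c j := by
  rw [← (mem_tables.mp hT).2 j]
  exact Finset.single_le_sum (f := fun a => T a j) (fun _ _ => Nat.zero_le _) (Finset.mem_univ i)

/-- The sum over all cells of the sum over all tables of the entry is `|tables| * N`. -/
theorem sum_all_entries (r : R → ℕ) (c : C → ℕ) :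
    ∑ p : R × C, ∑ T ∈ tables r c, T p.1 p.2 = (tables r c).card * ∑ a, r a := by
  rw [Finset.sum_comm]
  have h : ∀ T ∈ tables r c, ∑ p : R × C, T p.1 p.2 = ∑ a, r a := by
    intro T hT
    rw [Fintype.sum_prod_type]
    exact Finset.sum_congr rfl (fun a _ => (mem_tables.mp hT).1 a)
  rw [Finset.sum_congr rfl h, Finset.sum_const, smul_eq_mul]

/-- For a nonempty instance with positive total there are a cell `(i, j)` and a threshold
`k ≥ 1` with `N < 2 (m n) k` such that at least a fraction `1 / (2 (m n))` of the tables
have `k ≤ T i j`. -/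
theorem exists_cell_threshold (r : R → ℕ) (c : C → ℕ) (hne : (tables r c).Nonempty)
    (hN : 1 ≤ ∑ a, r a) :
    ∃ (i : R) (j : C) (k : ℕ), 1 ≤ k ∧ k ≤ r i ∧ k ≤ c j ∧
      ∑ a, r a < 2 * (Fintype.card R * Fintype.card C) * k ∧
      (tables r c).card
        ≤ 2 * (Fintype.card R * Fintype.card C) * ((tables r c).filter (fun T => k ≤ T i j)).card := by
  set Z := (tables r c).card with hZdef
  set N := ∑ a, r a with hNdef
  have hZ : 1 ≤ Z := Finset.card_pos.mpr hne
  have hsum : ∑ p : R × C, ∑ T ∈ tables r c, T p.1 p.2 = Z * N := sum_all_entries r c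
  -- a cell with a large column of entries
  have hex : ∃ p : R × C, Z * N ≤ (Fintype.card R * Fintype.card C) * ∑ T ∈ tables r c, T p.1 p.2 := by
    have hne' : (Finset.univ : Finset (R × C)).Nonempty := by
      by_contra hcon
      rw [Finset.not_nonempty_iff_eq_empty] at hcon
      rw [hcon, Finset.sum_empty] at hsum
      have : 1 ≤ Z * N := Nat.mul_pos hZ hN
      omega
    have hle : ∑ _p : R × C, Z * N
        ≤ ∑ p : R × C, (Fintype.card R * Fintype.card C) * ∑ T ∈ tables r c, T p.1 p.2 := by
      have hl : ∑ _p : R × C, Z * N = (Fintype.card R * Fintype.card C) * (Z * N) := by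
        rw [Finset.sum_const, smul_eq_mul, Finset.card_univ, Fintype.card_prod]
      have hr : ∑ p : R × C, (Fintype.card R * Fintype.card C) * ∑ T ∈ tables r c, T p.1 p.2
          = (Fintype.card R * Fintype.card C) * (Z * N) := by
        rw [← Finset.mul_sum, hsum]
      rw [hl, hr]
    obtain ⟨p, _, hp⟩ := Finset.exists_le_of_sum_le hne' hle
    exact ⟨p, hp⟩
  obtain ⟨⟨i, j⟩, hp⟩ := hex
  simp only at hp
  set S := ∑ T ∈ tables r c, T i j with hSdef
  set k := S / (2 * Z) + 1 with hkdef
  set F := ((tables r c).filter (fun T => k ≤ T i j)).card with hFdef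
  have hk1 : 1 ≤ k := Nat.le_add_left 1 _
  have h2Z : 0 < 2 * Z := by omega
  have hdiv1 : 2 * Z * (S / (2 * Z)) ≤ S := Nat.mul_div_le S (2 * Z)
  have hdiv2 : S < 2 * Z * (S / (2 * Z) + 1) := Nat.lt_mul_div_succ S h2Z
  -- the entries are at most `N`
  have hent : ∀ T ∈ tables r c, T i j ≤ N := by
    intro T hT
    exact (entry_le_row hT i j).trans
      (Finset.single_le_sum (f := r) (fun _ _ => Nat.zero_le _) (Finset.mem_univ i))
  -- `S ≤ Z (k - 1) + F N`
  have hS : S ≤ Z * (S / (2 * Z)) + F * N := by
    have hpt : ∀ T ∈ tables r c, T i j ≤ S / (2 * Z) + (if k ≤ T i j then 1 else 0) * N := by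
      intro T hT
      by_cases hkT : k ≤ T i j
      · rw [if_pos hkT, one_mul]
        exact (hent T hT).trans (Nat.le_add_left _ _)
      · rw [if_neg hkT, zero_mul, add_zero]
        omega
    calc S = ∑ T ∈ tables r c, T i j := rfl
      _ ≤ ∑ T ∈ tables r c, (S / (2 * Z) + (if k ≤ T i j then 1 else 0) * N) :=
          Finset.sum_le_sum hpt
      _ = Z * (S / (2 * Z)) + F * N := by
          rw [Finset.sum_add_distrib, Finset.sum_const, smul_eq_mul, ← Finset.sum_mul,
            ← Finset.card_filter]
  -- hence `S ≤ 2 F N`
  have hS2 : S ≤ 2 * (F * N) := by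
    have : 2 * (Z * (S / (2 * Z))) ≤ S := by
      calc 2 * (Z * (S / (2 * Z))) = 2 * Z * (S / (2 * Z)) := by ring
        _ ≤ S := hdiv1
    omega
  -- the fraction
  have hfrac : Z ≤ 2 * (Fintype.card R * Fintype.card C) * F := by
    have h1 : Z * N ≤ (2 * (Fintype.card R * Fintype.card C) * F) * N := by
      calc Z * N ≤ (Fintype.card R * Fintype.card C) * S := hp
        _ ≤ (Fintype.card R * Fintype.card C) * (2 * (F * N)) := Nat.mul_le_mul_left _ hS2
        _ = (2 * (Fintype.card R * Fintype.card C) * F) * N := by ring
    exact Nat.le_of_mul_le_mul_right h1 hN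
  -- the filter is nonempty
  have hF : 1 ≤ F := by
    by_contra hcon
    have hF0 : F = 0 := by omega
    rw [hF0, Nat.mul_zero] at hfrac
    omega
  obtain ⟨T, hT⟩ := Finset.card_pos.mp hF
  rw [Finset.mem_filter] at hT
  refine ⟨i, j, k, hk1, hT.2.trans (entry_le_row hT.1 i j), hT.2.trans (entry_le_col hT.1 i j),
    ?_, hfrac⟩
  -- `N < 2 (m n) k`
  have h2 : Z * N < Z * (2 * (Fintype.card R * Fintype.card C) * k) := by
    have hmn : 0 < Fintype.card R * Fintype.card C := by
      by_contra hcon
      have h0 : Fintype.card R * Fintype.card C = 0 := by omega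
      rw [h0, Nat.zero_mul] at hp
      have : 1 ≤ Z * N := Nat.mul_pos hZ hN
      omega
    calc Z * N ≤ (Fintype.card R * Fintype.card C) * S := hp
      _ < (Fintype.card R * Fintype.card C) * (2 * Z * (S / (2 * Z) + 1)) :=
          Nat.mul_lt_mul_of_pos_left hdiv2 hmn
      _ = Z * (2 * (Fintype.card R * Fintype.card C) * k) := by ring
  exact Nat.lt_of_mul_lt_mul_left h2

end Vale.Agent.Lib.P328.BP
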