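import Mathlib

/-!
# P328 / bit planes: the Efron-Stein inequality on the cube (step (II))

Generic part.  For a real function `g` on the cube `ι → Bool`,
`∑ x, (g x - mean g)^2 ≤ (1/4) ∑ e, ∑ x, (g (flip e x) - g x)^2`, where `flip e x` changes the
coordinate `e` (`efron_stein`), and the weighted form for weights `0 ≤ w ≤ Wmax` and the
`w`-mean (`efron_stein_weighted`).
-/

namespace Vale.Agent.Lib.P328.BP

open Finset

/-- A sum over the cube of dimension `n + 1` splits along the first coordinate. -/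
theorem sum_cube_succ (n : ℕ) (F : (Fin (n + 1) → Bool) → ℝ) :
    ∑ x, F x = ∑ y : Fin n → Bool, F (Fin.cons true y) + ∑ y : Fin n → Bool, F (Fin.cons false y) := by
  rw [← Equiv.sum_comp (Fin.consEquiv (fun _ : Fin (n + 1) => Bool)) F, Fintype.sum_prod_type,
    Fintype.sum_bool]
  rfl

/-- Sum of squared deviations from an arbitrary centre. -/
theorem sum_sq_shift {α : Type*} [Fintype α] [Nonempty α] (a : α → ℝ) (μ : ℝ) :
    ∑ x, (a x - μ) ^ 2
      = ∑ x, (a x - (∑ y, a y) / (Fintype.card α : ℝ)) ^ 2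
        + (Fintype.card α : ℝ) * ((∑ y, a y) / (Fintype.card α : ℝ) - μ) ^ 2 := by
  have hN : (Fintype.card α : ℝ) ≠ 0 := by
    have : 0 < Fintype.card α := Fintype.card_pos
    positivity
  set S := ∑ y, a y with hS
  set N := (Fintype.card α : ℝ) with hNdef
  have e1 : ∀ ν : ℝ, ∑ x, (a x - ν) ^ 2 = ∑ x, (a x) ^ 2 - 2 * ν * S + N * ν ^ 2 := by
    intro ν
    have : ∀ x, (a x - ν) ^ 2 = (a x) ^ 2 - 2 * ν * a x + ν ^ 2 := fun x => by ring
    rw [Finset.sum_congr rfl (fun x _ => this x), Finset.sum_add_distrib, Finset.sum_sub_distrib,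
      ← Finset.mul_sum, Finset.sum_const, Finset.card_univ, nsmul_eq_mul]
  rw [e1 μ, e1 (S / N)]
  field_simp
  ring

/-- The Efron-Stein inequality on the cube `Fin n → Bool`. -/
theorem efron_stein_fin (n : ℕ) (g : (Fin n → Bool) → ℝ) :
    ∑ x, (g x - (∑ y, g y) / 2 ^ n) ^ 2
      ≤ (1 / 4) * ∑ e, ∑ x, (g (Function.update x e (!(x e))) - g x) ^ 2 := by
  induction n with
  | zero =>
    have h1 : ∀ x : Fin 0 → Bool, x = default := fun x => Subsingleton.elim _ _
    rw [Fintype.sum_eq_single (default : Fin 0 → Bool) (fun x hx => absurd (h1 x) hx)]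
    rw [Fintype.sum_eq_single (default : Fin 0 → Bool) (fun x hx => absurd (h1 x) hx)]
    simp
  | succ n ih =>
    set g1 : (Fin n → Bool) → ℝ := fun y => g (Fin.cons true y) with hg1
    set g0 : (Fin n → Bool) → ℝ := fun y => g (Fin.cons false y) with hg0
    have hcard : (Fintype.card (Fin n → Bool) : ℝ) = 2 ^ n := by
      simp
    have hpos : (0 : ℝ) < 2 ^ n := by positivity
    set S1 := ∑ y, g1 y with hS1
    set S0 := ∑ y, g0 y with hS0
    have hsum : ∑ y, g y = S1 + S0 := sum_cube_succ n g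
    -- left side
    have hL : ∑ x, (g x - (∑ y, g y) / 2 ^ (n + 1)) ^ 2
        = (∑ y, (g1 y - S1 / 2 ^ n) ^ 2 + ∑ y, (g0 y - S0 / 2 ^ n) ^ 2)
          + (S1 - S0) ^ 2 / (2 * 2 ^ n) := by
      rw [sum_cube_succ n (fun x => (g x - (∑ y, g y) / 2 ^ (n + 1)) ^ 2), hsum]
      have a1 := sum_sq_shift g1 ((S1 + S0) / 2 ^ (n + 1))
      have a0 := sum_sq_shift g0 ((S1 + S0) / 2 ^ (n + 1))
      rw [hcard, ← hS1] at a1
      rw [hcard, ← hS0] at a0
      generalize ∑ y, (g1 y - S1 / 2 ^ n) ^ 2 = V1 at a1 ⊢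
      generalize ∑ y, (g0 y - S0 / 2 ^ n) ^ 2 = V0 at a0 ⊢
      have b1 : ∑ y, (g (Fin.cons true y) - (S1 + S0) / 2 ^ (n + 1)) ^ 2
          = ∑ y, (g1 y - (S1 + S0) / 2 ^ (n + 1)) ^ 2 := rfl
      have b0 : ∑ y, (g (Fin.cons false y) - (S1 + S0) / 2 ^ (n + 1)) ^ 2
          = ∑ y, (g0 y - (S1 + S0) / 2 ^ (n + 1)) ^ 2 := rfl
      rw [b1, b0, a1, a0]
      rw [pow_succ]
      field_simp
      ring
    -- Cauchy-Schwarz for the difference of the two halves
    have hCS : (S1 - S0) ^ 2 ≤ 2 ^ n * ∑ y, (g1 y - g0 y) ^ 2 := by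
      have h := sq_sum_le_card_mul_sum_sq (s := (Finset.univ : Finset (Fin n → Bool)))
        (f := fun y => g1 y - g0 y)
      rw [Finset.sum_sub_distrib, Finset.card_univ, hcard] at h
      exact h
    -- right side
    have hR : ∑ e : Fin (n + 1), ∑ x, (g (Function.update x e (!(x e))) - g x) ^ 2
        = (∑ y, (g0 y - g1 y) ^ 2 + ∑ y, (g1 y - g0 y) ^ 2)
          + (∑ e : Fin n, ∑ y, (g1 (Function.update y e (!(y e))) - g1 y) ^ 2
            + ∑ e : Fin n, ∑ y, (g0 (Function.update y e (!(y e))) - g0 y) ^ 2) := by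
      rw [Fin.sum_univ_succ]
      congr 1
      · rw [sum_cube_succ]
        simp only [Fin.cons_zero, Fin.update_cons_zero, Bool.not_true, Bool.not_false, hg1, hg0]
      · rw [← Finset.sum_add_distrib]
        refine Finset.sum_congr rfl (fun e _ => ?_)
        rw [sum_cube_succ]
        simp only [Fin.cons_succ, ← Fin.cons_update, hg1, hg0]
    rw [hL, hR]
    have i1 := ih g1
    have i0 := ih g0
    have hsym : ∑ y, (g0 y - g1 y) ^ 2 = ∑ y, (g1 y - g0 y) ^ 2 :=
      Finset.sum_congr rfl (fun y _ => by ring)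
    rw [hsym]
    have hdiv : (S1 - S0) ^ 2 / (2 * 2 ^ n) ≤ (1 / 2) * ∑ y, (g1 y - g0 y) ^ 2 := by
      rw [div_le_iff₀ (by positivity)]
      nlinarith
    rw [← hS1] at i1
    rw [← hS0] at i0
    linarith

/-- The Efron-Stein inequality on the cube `ι → Bool` (uniform measure): the sum of the
squared deviations of `g` from its mean is at most a quarter of the sum over all
coordinates `e` and all points `x` of the squared change of `g` when `x` is flipped at `e`. -/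
theorem efron_stein {ι : Type*} [Fintype ι] [DecidableEq ι] (g : (ι → Bool) → ℝ) :
    ∑ x, (g x - (∑ y, g y) / 2 ^ Fintype.card ι) ^ 2
      ≤ (1 / 4) * ∑ e, ∑ x, (g (Function.update x e (!(x e))) - g x) ^ 2 := by
  classical
  set n := Fintype.card ι with hn
  let σ : ι ≃ Fin n := Fintype.equivFin ι
  let Φ : (Fin n → Bool) ≃ (ι → Bool) := Equiv.arrowCongr σ.symm (Equiv.refl Bool)
  have hΦ : ∀ y : Fin n → Bool, Φ y = y ∘ σ := fun y => rfl
  have h := efron_stein_fin n (fun y => g (Φ y))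
  have e1 : ∑ y : Fin n → Bool, g (Φ y) = ∑ x, g x := Equiv.sum_comp Φ g
  have e2 : ∑ y : Fin n → Bool, (g (Φ y) - (∑ z, g z) / 2 ^ n) ^ 2
      = ∑ x, (g x - (∑ z, g z) / 2 ^ n) ^ 2 :=
    Equiv.sum_comp Φ (fun x => (g x - (∑ z, g z) / 2 ^ n) ^ 2)
  have e3 : ∑ e : Fin n, ∑ y : Fin n → Bool,
        (g (Φ (Function.update y e (!(y e)))) - g (Φ y)) ^ 2
      = ∑ i : ι, ∑ x, (g (Function.update x i (!(x i))) - g x) ^ 2 := by
    rw [← Equiv.sum_comp σ]
    refine Finset.sum_congr rfl (fun i _ => ?_)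
    rw [← Equiv.sum_comp Φ (fun x => (g (Function.update x i (!(x i))) - g x) ^ 2)]
    refine Finset.sum_congr rfl (fun y _ => ?_)
    have hup : Φ (Function.update y (σ i) (!(y (σ i)))) = Function.update (Φ y) i (!(Φ y i)) := by
      rw [hΦ, hΦ, Function.update_comp_equiv]
      simp
    rw [hup]
  rw [e1] at h
  rw [e2, e3] at h
  exact h

/-- Weighted form: weights `0 ≤ w ≤ Wmax` on the cube and `μ` the `w`-mean of `g`. -/
theorem efron_stein_weighted {ι : Type*} [Fintype ι] [DecidableEq ι] (g w : (ι → Bool) → ℝ)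
    (Wmax : ℝ) (hw0 : ∀ x, 0 ≤ w x) (hw : ∀ x, w x ≤ Wmax) (μ : ℝ)
    (hμ : μ * ∑ x, w x = ∑ x, w x * g x) :
    ∑ x, w x * (g x - μ) ^ 2
      ≤ Wmax / 4 * ∑ e, ∑ x, (g (Function.update x e (!(x e))) - g x) ^ 2 := by
  set a := (∑ y, g y) / 2 ^ Fintype.card ι with ha
  have h1 : ∑ x, w x * (g x - μ) ^ 2 ≤ ∑ x, w x * (g x - a) ^ 2 := by
    have e : ∑ x, w x * (g x - a) ^ 2
        = ∑ x, w x * (g x - μ) ^ 2 + (μ - a) ^ 2 * ∑ x, w x := by
      have e' : ∀ x, w x * (g x - a) ^ 2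
          = w x * (g x - μ) ^ 2 + (μ - a) ^ 2 * w x + 2 * (μ - a) * (w x * g x - μ * w x) :=
        fun x => by ring
      rw [Finset.sum_congr rfl (fun x _ => e' x), Finset.sum_add_distrib, Finset.sum_add_distrib,
        ← Finset.mul_sum, ← Finset.mul_sum, Finset.sum_sub_distrib, ← Finset.mul_sum, hμ]
      ring
    rw [e]
    have : 0 ≤ (μ - a) ^ 2 * ∑ x, w x :=
      mul_nonneg (sq_nonneg _) (Finset.sum_nonneg (fun x _ => hw0 x))
    linarith
  have h2 : ∑ x, w x * (g x - a) ^ 2 ≤ Wmax * ∑ x, (g x - a) ^ 2 := by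
    rw [Finset.mul_sum]
    exact Finset.sum_le_sum (fun x _ => mul_le_mul_of_nonneg_right (hw x) (sq_nonneg _))
  have hW : 0 ≤ Wmax := by
    have x0 : ι → Bool := fun _ => false
    exact le_trans (hw0 x0) (hw x0)
  have h3 := efron_stein g
  have h4 : Wmax * ∑ x, (g x - a) ^ 2
      ≤ Wmax * ((1 / 4) * ∑ e, ∑ x, (g (Function.update x e (!(x e))) - g x) ^ 2) :=
    mul_le_mul_of_nonneg_left h3 hW
  calc ∑ x, w x * (g x - μ) ^ 2 ≤ Wmax * ∑ x, (g x - a) ^ 2 := le_trans h1 h2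
    _ ≤ Wmax * ((1 / 4) * ∑ e, ∑ x, (g (Function.update x e (!(x e))) - g x) ^ 2) := h4
    _ = Wmax / 4 * ∑ e, ∑ x, (g (Function.update x e (!(x e))) - g x) ^ 2 := by ring

end Vale.Agent.Lib.P328.BP
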