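import Vale.Agent.Lib.P328.AM.ApproxKernel
import Vale.Agent.Lib.P328.AM.BoxSym

/-!
# P328 / bit planes: the degenerate class with total zero

If the total `∑ i, r i` of the margins is zero there is at most one table, and every power of
the transition matrix of the 2 × 2 heat bath is at distance zero from the uniform
distribution.  (This covers the case in which the number of binary digits of the total is
zero in the polynomial mixing time bound.)
-/

namespace Vale.Agent.Lib.P328.BP

open Finset
open scoped Classical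
open Vale.Agent.Lib.P328.CT Vale.Agent.Lib.P328.AM

variable {R C : Type*} [Fintype R] [Fintype C]

/-- If the total of the row sums is zero, any two tables are equal. -/
theorem tab_eq_of_sum_zero {r : R → ℕ} {c : C → ℕ} (h : ∑ i, r i = 0) (x y : Tab r c) :
    x = y := by
  apply Subtype.ext
  funext i j
  have hr : r i = 0 := Finset.sum_eq_zero_iff.mp h i (Finset.mem_univ i)
  have hx : x.1 i j = 0 := by
    have h1 := x.rowSum i
    rw [hr] at h1
    exact Finset.sum_eq_zero_iff.mp h1 j (Finset.mem_univ j)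
  have hy : y.1 i j = 0 := by
    have h1 := y.rowSum i
    rw [hr] at h1
    exact Finset.sum_eq_zero_iff.mp h1 j (Finset.mem_univ j)
  rw [hx, hy]

/-- If the total of the row sums is zero, the `t`-step distribution of the 2 × 2 heat bath
from the only table is the uniform distribution. -/
theorem box_mix_of_sum_zero {r : R → ℕ} {c : C → ℕ} (hR : 2 ≤ Fintype.card R)
    (hC : 2 ≤ Fintype.card C) (h : ∑ i, r i = 0) (x : Tab r c) (t : ℕ) :
    ∑ y, |(heatKernel (((Finset.univ : Finset R).powersetCard 2) ×ˢ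
            ((Finset.univ : Finset C).powersetCard 2))
          (fun qp => RelBox (r := r) (c := c) qp.1 qp.2) ^ t) x y
          - 1 / (Fintype.card (Tab r c) : ℝ)| = 0 := by
  haveI : Subsingleton (Tab r c) := ⟨tab_eq_of_sum_zero h⟩
  have hcard : Fintype.card (Tab r c) = 1 :=
    Fintype.card_eq_one_iff.mpr ⟨x, fun y => Subsingleton.elim y x⟩
  have hI : ((((Finset.univ : Finset R).powersetCard 2) ×ˢ
      ((Finset.univ : Finset C).powersetCard 2))).Nonempty := by
    apply Finset.Nonempty.product
    · apply Finset.powersetCard_nonempty.mpr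
      rw [Finset.card_univ]
      exact hR
    · apply Finset.powersetCard_nonempty.mpr
      rw [Finset.card_univ]
      exact hC
  have hrow := pow_row_sum
    (heatKernel (((Finset.univ : Finset R).powersetCard 2) ×ˢ
            ((Finset.univ : Finset C).powersetCard 2))
          (fun qp => RelBox (r := r) (c := c) qp.1 qp.2))
    (fun z => heatKernel_row_sum _ hI _
      (fun qp _ z => (relBox_equivalence qp.1 qp.2).refl z) z) t x
  rw [Fintype.sum_subsingleton _ x] at hrow ⊢
  rw [hrow, hcard]
  simp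

/-- The polynomial constant is at least `1` when the total is positive. -/
theorem one_le_binConst {r : R → ℕ} (hR : 2 ≤ Fintype.card R) (h : ∑ i, r i ≠ 0) :
    (1 : ℝ) ≤ 3500 * ((max (Fintype.card R) (Fintype.card C) : ℕ) : ℝ) ^ 15
      * ((Nat.size (∑ i, r i) : ℕ) : ℝ) ^ 2 := by
  have hX : (1 : ℝ) ≤ ((max (Fintype.card R) (Fintype.card C) : ℕ) : ℝ) := by
    have h1 : 1 ≤ max (Fintype.card R) (Fintype.card C) :=
      le_trans (by omega) (le_max_left (Fintype.card R) (Fintype.card C))
    exact_mod_cast h1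
  have hb : (1 : ℝ) ≤ ((Nat.size (∑ i, r i) : ℕ) : ℝ) := by
    have h1 : 1 ≤ Nat.size (∑ i, r i) := by
      rcases Nat.eq_zero_or_pos (Nat.size (∑ i, r i)) with h0 | h0
      · exact absurd (Nat.size_eq_zero.mp h0) h
      · exact h0
    exact_mod_cast h1
  have h15 : (1 : ℝ) ≤ ((max (Fintype.card R) (Fintype.card C) : ℕ) : ℝ) ^ 15 :=
    one_le_pow₀ hX
  have h2 : (1 : ℝ) ≤ ((Nat.size (∑ i, r i) : ℕ) : ℝ) ^ 2 := one_le_pow₀ hb
  nlinarith [mul_le_mul h15 h2 (by norm_num : (0 : ℝ) ≤ 1) (by linarith : (0 : ℝ) ≤ _)]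

/-- The mixing time of the 2 × 2 heat bath from the polynomial Poincare constant
`3500 (max m n)^15 b^2`, `b` the number of binary digits of the total; the case of total zero
(`b = 0`) is included. -/
theorem binary_mixing_time {r : R → ℕ} {c : C → ℕ} (hR : 2 ≤ Fintype.card R)
    (hC : 2 ≤ Fintype.card C)
    (h : PCbox (3500 * ((max (Fintype.card R) (Fintype.card C) : ℕ) : ℝ) ^ 15
      * ((Nat.size (∑ i, r i) : ℕ) : ℝ) ^ 2) r c)
    (ε : ℝ) (hε : 0 < ε) (t : ℕ)
    (ht : 3500 * ((max (Fintype.card R) (Fintype.card C) : ℕ) : ℝ) ^ 15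
          * ((Nat.size (∑ i, r i) : ℕ) : ℝ) ^ 2
          * (((Fintype.card R).choose 2 : ℝ) * ((Fintype.card C).choose 2 : ℝ))
          * ((Fintype.card R : ℝ) / 2 * ∑ j, Real.log ((c j : ℝ) + 1) + Real.log (1 / ε)) ≤ t)
    (x : Tab r c) :
    ∑ y, |(heatKernel (((Finset.univ : Finset R).powersetCard 2) ×ˢ
            ((Finset.univ : Finset C).powersetCard 2))
          (fun qp => RelBox (r := r) (c := c) qp.1 qp.2) ^ t) x y
          - 1 / (Fintype.card (Tab r c) : ℝ)|
      ≤ ε := by
  by_cases h0 : ∑ i, r i = 0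
  · rw [box_mix_of_sum_zero hR hC h0 x t]
    exact le_of_lt hε
  · exact pcbox_mixing_time (one_le_binConst hR h0) h hR hC ε hε t ht x

/-- The `ℓ¹` mixing bound of the 2 × 2 heat bath from the polynomial Poincare constant; the
case of total zero is included. -/
theorem binary_mixing {r : R → ℕ} {c : C → ℕ} (hR : 2 ≤ Fintype.card R)
    (hC : 2 ≤ Fintype.card C)
    (h : PCbox (3500 * ((max (Fintype.card R) (Fintype.card C) : ℕ) : ℝ) ^ 15
      * ((Nat.size (∑ i, r i) : ℕ) : ℝ) ^ 2) r c) (x : Tab r c) (t : ℕ) :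
    ∑ y, |(heatKernel (((Finset.univ : Finset R).powersetCard 2) ×ˢ
            ((Finset.univ : Finset C).powersetCard 2))
          (fun qp => RelBox (r := r) (c := c) qp.1 qp.2) ^ t) x y
          - 1 / (Fintype.card (Tab r c) : ℝ)|
      ≤ Real.sqrt (Fintype.card (Tab r c) : ℝ)
        * (1 - 1 / (3500 * ((max (Fintype.card R) (Fintype.card C) : ℕ) : ℝ) ^ 15
            * ((Nat.size (∑ i, r i) : ℕ) : ℝ) ^ 2
            * (((Fintype.card R).choose 2 : ℝ) * ((Fintype.card C).choose 2 : ℝ)))) ^ t := by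
  by_cases h0 : ∑ i, r i = 0
  · rw [box_mix_of_sum_zero hR hC h0 x t]
    have hs : Nat.size (∑ i, r i) = 0 := Nat.size_eq_zero.mpr h0
    rw [hs]
    have e : (1 : ℝ) - 1 / (3500 * ((max (Fintype.card R) (Fintype.card C) : ℕ) : ℝ) ^ 15
            * ((0 : ℕ) : ℝ) ^ 2
            * (((Fintype.card R).choose 2 : ℝ) * ((Fintype.card C).choose 2 : ℝ))) = 1 := by
      simp
    rw [e, one_pow, mul_one]
    exact Real.sqrt_nonneg _
  · exact pcbox_mixing (one_le_binConst hR h0) h hR hC x t

end Vale.Agent.Lib.P328.BP
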