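import Vale.Agent.Lib.P328.BP.Parity
import Vale.Agent.Lib.P328.BP.Usw
import Vale.Agent.Lib.P328.AM.CoreVar
import Vale.Agent.Lib.P328.AM.CoreAvg

/-!
# P328 / bit planes: the within-fibre step and the switch energy

* `box_energy_le_of_const`: the box average is the best approximation by a function that is
  constant on the box classes;
* `fib_energy_le`: a Poincare constant of the 2 × 2 heat bath on the half class of a parity
  pattern `B` bounds the variance of `f` inside the parity fibre `fib r c B` by the 2 × 2 terms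
  of the full class restricted to the fibre;
* `switch_energy_le`: the sum of the squared increments of `f` along the unit switches of one
  rectangle is at most four times the 2 × 2 term of that rectangle.
-/

namespace Vale.Agent.Lib.P328.BP.H33

open Finset
open scoped Classical
open Vale.Agent.Lib.P328.CT Vale.Agent.Lib.P335.Bip Vale.Agent.Lib.P328.AM

variable {R C : Type*} [Fintype R] [Fintype C]

/-- The box average is the best approximation by a function constant on the box classes. -/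
theorem box_energy_le_of_const (ρ : R → ℕ) (γ : C → ℕ) (q : Finset R) (p : Finset C)
    (φ ψ : (R → C → ℕ) → ℝ)
    (hψ : ∀ M ∈ tables ρ γ, ∀ N ∈ tables ρ γ,
      (∀ i j, (i ∉ q ∨ j ∉ p) → M i j = N i j) → ψ M = ψ N) :
    ∑ M ∈ tables ρ γ, (φ M - boxAvg ρ γ q p φ M) ^ 2 ≤ ∑ M ∈ tables ρ γ, (φ M - ψ M) ^ 2 := by
  rw [← sum_tab_box_eq q p φ]
  have h := sum_sub_av_sq_le (relBox_equivalence (r := ρ) (c := γ) q p)
    (fun y : Tab ρ γ => φ y.1) (fun y : Tab ρ γ => ψ y.1)
    (fun x y hxy => hψ x.1 x.2 y.1 y.2 hxy)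
  refine le_trans h (le_of_eq ?_)
  exact Finset.sum_coe_sort (tables ρ γ) (fun M => (φ M - ψ M) ^ 2)

/-- The within-fibre step: from a Poincare constant `K'` of the 2 × 2 heat bath on the half
class of the parity pattern `B`. -/
theorem fib_energy_le {r : R → ℕ} {c : C → ℕ} {B : R → C → ℕ} (hB : IsPattern r c B)
    (K' : ℝ) (hK0 : 0 ≤ K') (hK : PCbox K' (hrow r B) (hcol c B)) (f : (R → C → ℕ) → ℝ) :
    ∑ T ∈ fib r c B, (f T - fibAvg r c f B) ^ 2
      ≤ K' * ∑ q ∈ (Finset.univ : Finset R).powersetCard 2,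
          ∑ p ∈ (Finset.univ : Finset C).powersetCard 2,
            ∑ T ∈ fib r c B, (f T - boxAvg r c q p f T) ^ 2 := by
  have h1 : ∑ T ∈ fib r c B, (f T - fibAvg r c f B) ^ 2
      = ∑ T' ∈ tables (hrow r B) (hcol c B),
          (f (dbl B T') - (∑ N ∈ tables (hrow r B) (hcol c B), f (dbl B N))
            / ((tables (hrow r B) (hcol c B)).card : ℝ)) ^ 2 := by
    rw [sum_fib hB (fun T => (f T - fibAvg r c f B) ^ 2)]
    unfold fibAvg
    rw [sum_fib hB f, card_fib hB]
  rw [h1]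
  refine le_trans (hK (fun T' => f (dbl B T'))) ?_
  apply mul_le_mul_of_nonneg_left _ hK0
  apply Finset.sum_le_sum
  intro q _
  apply Finset.sum_le_sum
  intro p _
  rw [sum_fib hB (fun T => (f T - boxAvg r c q p f T) ^ 2)]
  refine box_energy_le_of_const (hrow r B) (hcol c B) q p (fun T' => f (dbl B T'))
    (fun T' => boxAvg r c q p f (dbl B T')) ?_
  intro M hM N hN hMN
  apply boxAvg_congr q p f (dbl_mem_tables hB hM) (dbl_mem_tables hB hN)
  intro i j hij
  show B i j + 2 * M i j = B i j + 2 * N i j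
  rw [hMN i j hij]

/-- The sum of the squared increments of `f` along the unit switches of the rectangle with rows
`i₀`, `i` and columns `j₀`, `j` is at most four times the 2 × 2 term of this rectangle. -/
theorem switch_energy_le (r : R → ℕ) (c : C → ℕ) {i₀ i : R} {j₀ j : C} (hi : i ≠ i₀)
    (hj : j ≠ j₀) (f : (R → C → ℕ) → ℝ) :
    ∑ T ∈ (tables r c).filter (fun T => 1 ≤ T i₀ j ∧ 1 ≤ T i j₀),
        (f (usw i₀ i j₀ j T) - f T) ^ 2
      ≤ 4 * ∑ T ∈ tables r c, (f T - boxAvg r c {i₀, i} {j₀, j} f T) ^ 2 := by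
  obtain ⟨D, hD⟩ : ∃ D : Finset (R → C → ℕ),
      D = (tables r c).filter (fun T => 1 ≤ T i₀ j ∧ 1 ≤ T i j₀) := ⟨_, rfl⟩
  rw [← hD]
  have hDmem : ∀ T ∈ D, T ∈ tables r c ∧ 1 ≤ T i₀ j ∧ 1 ≤ T i j₀ := by
    intro T hT
    rw [hD, Finset.mem_filter] at hT
    exact hT
  have hDsub : D ⊆ tables r c := fun T hT => (hDmem T hT).1
  have himg : ∀ T ∈ D, usw i₀ i j₀ j T ∈ tables r c := fun T hT =>
    usw_mem_tables hi hj (hDmem T hT).1 (hDmem T hT).2.1 (hDmem T hT).2.2
  have hinj : Set.InjOn (usw i₀ i j₀ j) (D : Set (R → C → ℕ)) := by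
    intro T hT T' hT' h
    rw [Finset.mem_coe] at hT hT'
    rw [← usw_inv hi hj T (hDmem T hT).2.1 (hDmem T hT).2.2,
      ← usw_inv hi hj T' (hDmem T' hT').2.1 (hDmem T' hT').2.2, h]
  have hnn : ∀ T ∈ tables r c, 0 ≤ (f T - boxAvg r c {i₀, i} {j₀, j} f T) ^ 2 :=
    fun T _ => sq_nonneg _
  have h1 : ∑ T ∈ D, (f T - boxAvg r c {i₀, i} {j₀, j} f T) ^ 2
      ≤ ∑ T ∈ tables r c, (f T - boxAvg r c {i₀, i} {j₀, j} f T) ^ 2 :=
    Finset.sum_le_sum_of_subset_of_nonneg hDsub (fun T hT _ => hnn T hT)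
  have h2 : ∑ T ∈ D, (f (usw i₀ i j₀ j T)
        - boxAvg r c {i₀, i} {j₀, j} f (usw i₀ i j₀ j T)) ^ 2
      ≤ ∑ T ∈ tables r c, (f T - boxAvg r c {i₀, i} {j₀, j} f T) ^ 2 := by
    rw [← Finset.sum_image (f := fun S => (f S - boxAvg r c {i₀, i} {j₀, j} f S) ^ 2) hinj]
    apply Finset.sum_le_sum_of_subset_of_nonneg
    · intro S hS
      obtain ⟨T, hT, rfl⟩ := Finset.mem_image.mp hS
      exact himg T hT
    · intro S hS _
      exact hnn S hS
  have h3 : ∀ T ∈ D, (f (usw i₀ i j₀ j T) - f T) ^ 2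
      ≤ 2 * (f (usw i₀ i j₀ j T) - boxAvg r c {i₀, i} {j₀, j} f (usw i₀ i j₀ j T)) ^ 2
        + 2 * (f T - boxAvg r c {i₀, i} {j₀, j} f T) ^ 2 := by
    intro T hT
    have e : boxAvg r c {i₀, i} {j₀, j} f (usw i₀ i j₀ j T)
        = boxAvg r c {i₀, i} {j₀, j} f T :=
      boxAvg_congr {i₀, i} {j₀, j} f (himg T hT) (hDmem T hT).1
        (fun a b hab => usw_outside T a b hab)
    rw [e]
    nlinarith [sq_nonneg ((f (usw i₀ i j₀ j T) - boxAvg r c {i₀, i} {j₀, j} f T)
      + (f T - boxAvg r c {i₀, i} {j₀, j} f T))]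
  refine le_trans (Finset.sum_le_sum h3) ?_
  rw [Finset.sum_add_distrib, ← Finset.mul_sum, ← Finset.mul_sum]
  linarith

end Vale.Agent.Lib.P328.BP.H33
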