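import Vale.Agent.Lib.P328.BP.Parity
import Vale.Agent.Lib.P328.BP.Usw

/-!
# P328 / bit planes: the parities of the free cells

Fix a row `i₀` and a column `j₀`.  The free cells are the cells `(i, j)` with `i ≠ i₀`,
`j ≠ j₀`; `free i₀ j₀ T` records the parities of the entries of `T` at the free cells (a point
of the cube `FreeIx i₀ j₀ → Bool`).  For tables with the same margins the parities of the free
cells determine the whole parity pattern (`par_eq_of_free_eq`), so a nonempty fibre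
`ffib r c i₀ j₀ x` of `free` is a parity fibre (`ffib_eq_fib`).  The unit switch of the
rectangle with rows `i₀`, `i` and columns `j₀`, `j` flips exactly the free cell `(i, j)`
(`free_usw`) and is a bijection between the tables of the fibre of `x` with positive entries at
`(i₀, j)`, `(i, j₀)` and the tables of the fibre of the flipped point with positive entries at
`(i₀, j₀)`, `(i, j)` (`usw_bijOn_ffib`).
-/

namespace Vale.Agent.Lib.P328.BP.H33

open Finset
open scoped Classical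
open Vale.Agent.Lib.P328.CT

variable {R C : Type*} [Fintype R] [Fintype C]

/-- The free cells: the cells outside the row `i₀` and the column `j₀`. -/
abbrev FreeIx (i₀ : R) (j₀ : C) : Type _ := {i : R // i ≠ i₀} × {j : C // j ≠ j₀}

/-- The parities of the entries of a table at the free cells (`true` = odd). -/
def free (i₀ : R) (j₀ : C) (T : R → C → ℕ) : FreeIx i₀ j₀ → Bool :=
  fun e => decide (T e.1.1 e.2.1 % 2 = 1)

/-- The flip of the coordinate `e` of a point of the cube. -/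
def flip {ι : Type*} [DecidableEq ι] (x : ι → Bool) (e : ι) : ι → Bool :=
  Function.update x e (!(x e))

/-- The tables with margins `r`, `c` whose free cells have the parities `x`. -/
noncomputable def ffib (r : R → ℕ) (c : C → ℕ) (i₀ : R) (j₀ : C) (x : FreeIx i₀ j₀ → Bool) :
    Finset (R → C → ℕ) :=
  (tables r c).filter (fun T => free i₀ j₀ T = x)

theorem mem_ffib {r : R → ℕ} {c : C → ℕ} {i₀ : R} {j₀ : C} {x : FreeIx i₀ j₀ → Bool}
    {T : R → C → ℕ} : T ∈ ffib r c i₀ j₀ x ↔ T ∈ tables r c ∧ free i₀ j₀ T = x := by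
  unfold ffib
  rw [Finset.mem_filter]

omit [Fintype R] [Fintype C] in
theorem free_cell_eq {i₀ : R} {j₀ : C} {T S : R → C → ℕ} (h : free i₀ j₀ T = free i₀ j₀ S)
    {i : R} {j : C} (hi : i ≠ i₀) (hj : j ≠ j₀) : T i j % 2 = S i j % 2 := by
  have h1 := congrFun h (⟨i, hi⟩, ⟨j, hj⟩)
  unfold free at h1
  simp only [decide_eq_decide] at h1
  have h2 : T i j % 2 < 2 := Nat.mod_lt _ (by norm_num)
  have h3 : S i j % 2 < 2 := Nat.mod_lt _ (by norm_num)
  omega

omit [Fintype R] [Fintype C] in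
theorem free_eq_of_par_eq {i₀ : R} {j₀ : C} {T S : R → C → ℕ} (h : par T = par S) :
    free i₀ j₀ T = free i₀ j₀ S := by
  funext e
  unfold free
  have h1 : T e.1.1 e.2.1 % 2 = S e.1.1 e.2.1 % 2 := congrFun (congrFun h e.1.1) e.2.1
  rw [h1]

/-- Sums that are congruent term by term modulo 2 are congruent modulo 2. -/
theorem sum_mod_two_congr {α : Type*} (s : Finset α) (a b : α → ℕ)
    (h : ∀ x ∈ s, a x % 2 = b x % 2) : (∑ x ∈ s, a x) % 2 = (∑ x ∈ s, b x) % 2 := by
  rw [Finset.sum_nat_mod s 2 a, Finset.sum_nat_mod s 2 b]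
  rw [Finset.sum_congr rfl h]

/-- For tables with the same margins, the parities of the free cells determine the parity
pattern. -/
theorem par_eq_of_free_eq {r : R → ℕ} {c : C → ℕ} {i₀ : R} {j₀ : C} {T S : R → C → ℕ}
    (hT : T ∈ tables r c) (hS : S ∈ tables r c) (h : free i₀ j₀ T = free i₀ j₀ S) :
    par T = par S := by
  rw [mem_tables] at hT hS
  -- column `j₀`, rows `i ≠ i₀`
  have hcol0 : ∀ i, i ≠ i₀ → T i j₀ % 2 = S i j₀ % 2 := by
    intro i hi
    have e1 : T i j₀ + ∑ j ∈ Finset.univ.erase j₀, T i j = r i := by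
      rw [Finset.add_sum_erase _ _ (Finset.mem_univ j₀)]
      exact hT.1 i
    have e2 : S i j₀ + ∑ j ∈ Finset.univ.erase j₀, S i j = r i := by
      rw [Finset.add_sum_erase _ _ (Finset.mem_univ j₀)]
      exact hS.1 i
    have e3 : (∑ j ∈ Finset.univ.erase j₀, T i j) % 2
        = (∑ j ∈ Finset.univ.erase j₀, S i j) % 2 :=
      sum_mod_two_congr _ _ _ (fun j hj => free_cell_eq h hi (Finset.ne_of_mem_erase hj))
    omega
  -- row `i₀`, columns `j ≠ j₀`
  have hrow0 : ∀ j, j ≠ j₀ → T i₀ j % 2 = S i₀ j % 2 := by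
    intro j hj
    have e1 : T i₀ j + ∑ i ∈ Finset.univ.erase i₀, T i j = c j := by
      rw [Finset.add_sum_erase _ (fun i => T i j) (Finset.mem_univ i₀)]
      exact hT.2 j
    have e2 : S i₀ j + ∑ i ∈ Finset.univ.erase i₀, S i j = c j := by
      rw [Finset.add_sum_erase _ (fun i => S i j) (Finset.mem_univ i₀)]
      exact hS.2 j
    have e3 : (∑ i ∈ Finset.univ.erase i₀, T i j) % 2
        = (∑ i ∈ Finset.univ.erase i₀, S i j) % 2 :=
      sum_mod_two_congr _ _ _ (fun i hi => free_cell_eq h (Finset.ne_of_mem_erase hi) hj)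
    omega
  -- the corner
  have hcorner : T i₀ j₀ % 2 = S i₀ j₀ % 2 := by
    have e1 : T i₀ j₀ + ∑ j ∈ Finset.univ.erase j₀, T i₀ j = r i₀ := by
      rw [Finset.add_sum_erase _ _ (Finset.mem_univ j₀)]
      exact hT.1 i₀
    have e2 : S i₀ j₀ + ∑ j ∈ Finset.univ.erase j₀, S i₀ j = r i₀ := by
      rw [Finset.add_sum_erase _ _ (Finset.mem_univ j₀)]
      exact hS.1 i₀
    have e3 : (∑ j ∈ Finset.univ.erase j₀, T i₀ j) % 2
        = (∑ j ∈ Finset.univ.erase j₀, S i₀ j) % 2 :=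
      sum_mod_two_congr _ _ _ (fun j hj => hrow0 j (Finset.ne_of_mem_erase hj))
    omega
  funext i j
  show T i j % 2 = S i j % 2
  by_cases hi : i = i₀
  · by_cases hj : j = j₀
    · rw [hi, hj]
      exact hcorner
    · rw [hi]
      exact hrow0 j hj
  · by_cases hj : j = j₀
    · rw [hj]
      exact hcol0 i hi
    · exact free_cell_eq h hi hj

/-- A fibre of `free` that contains the table `T₀` is the parity fibre of `T₀`. -/
theorem ffib_eq_fib {r : R → ℕ} {c : C → ℕ} {i₀ : R} {j₀ : C} {x : FreeIx i₀ j₀ → Bool}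
    {T₀ : R → C → ℕ} (hT₀ : T₀ ∈ ffib r c i₀ j₀ x) : ffib r c i₀ j₀ x = fib r c (par T₀) := by
  rw [mem_ffib] at hT₀
  ext S
  rw [mem_ffib, mem_fib]
  constructor
  · rintro ⟨hS, hx⟩
    exact ⟨hS, par_eq_of_free_eq hS hT₀.1 (hx.trans hT₀.2.symm)⟩
  · rintro ⟨hS, hp⟩
    exact ⟨hS, (free_eq_of_par_eq hp).trans hT₀.2⟩

omit [Fintype R] [Fintype C] in
/-- The unit switch of the rectangle with rows `i₀`, `i` and columns `j₀`, `j` flips the free
cell `(i, j)` and no other free cell. -/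
theorem free_usw {i₀ i : R} {j₀ j : C} (hi : i ≠ i₀) (hj : j ≠ j₀) (T : R → C → ℕ) :
    free i₀ j₀ (usw i₀ i j₀ j T) = flip (free i₀ j₀ T) (⟨i, hi⟩, ⟨j, hj⟩) := by
  funext e
  unfold flip
  by_cases he : e = (⟨i, hi⟩, ⟨j, hj⟩)
  · rw [he, Function.update_self]
    unfold free
    show decide (usw i₀ i j₀ j T i j % 2 = 1) = !decide (T i j % 2 = 1)
    rw [usw_plus₂]
    by_cases h1 : T i j % 2 = 1
    · have h2 : ¬ ((T i j + 1) % 2 = 1) := by omega
      simp [h1, h2]
    · have h2 : (T i j + 1) % 2 = 1 := by omega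
      simp [h1, h2]
  · rw [Function.update_of_ne he]
    unfold free
    have hoff : ¬ ((e.1.1 = i₀ ∨ e.1.1 = i) ∧ (e.2.1 = j₀ ∨ e.2.1 = j)) := by
      rintro ⟨ha, hb⟩
      have ha' : e.1.1 = i := ha.resolve_left e.1.2
      have hb' : e.2.1 = j := hb.resolve_left e.2.2
      apply he
      exact Prod.ext (Subtype.ext ha') (Subtype.ext hb')
    rw [usw_off T hoff]

omit [Fintype R] [Fintype C] in
theorem flip_flip {ι : Type*} [DecidableEq ι] (x : ι → Bool) (e : ι) :
    flip (flip x e) e = x := by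
  unfold flip
  funext e'
  by_cases he : e' = e
  · rw [he, Function.update_self, Function.update_self, Bool.not_not]
  · rw [Function.update_of_ne he, Function.update_of_ne he]

/-- The unit switch is a bijection from the tables of the fibre of `x` with positive entries
at `(i₀, j)` and `(i, j₀)` onto the tables of the fibre of the flipped point with positive
entries at `(i₀, j₀)` and `(i, j)`. -/
theorem usw_bijOn_ffib (r : R → ℕ) (c : C → ℕ) {i₀ i : R} {j₀ j : C} (hi : i ≠ i₀)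
    (hj : j ≠ j₀) (x : FreeIx i₀ j₀ → Bool) :
    Set.BijOn (usw i₀ i j₀ j)
      (((ffib r c i₀ j₀ x).filter (fun T => 1 ≤ T i₀ j ∧ 1 ≤ T i j₀) :
        Finset (R → C → ℕ)) : Set (R → C → ℕ))
      (((ffib r c i₀ j₀ (flip x (⟨i, hi⟩, ⟨j, hj⟩))).filter
        (fun T => 1 ≤ T i₀ j₀ ∧ 1 ≤ T i j) : Finset (R → C → ℕ)) : Set (R → C → ℕ)) := by
  refine ⟨?_, ?_, ?_⟩
  · intro T hT
    rw [Finset.mem_coe, Finset.mem_filter, mem_ffib] at hT
    rw [Finset.mem_coe, Finset.mem_filter, mem_ffib]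
    obtain ⟨⟨hT, hx⟩, h1, h2⟩ := hT
    refine ⟨⟨usw_mem_tables hi hj hT h1 h2, ?_⟩, ?_, ?_⟩
    · rw [free_usw hi hj T, hx]
    · rw [usw_plus₁]
      exact Nat.le_add_left 1 _
    · rw [usw_plus₂]
      exact Nat.le_add_left 1 _
  · intro T hT T' hT' heq
    rw [Finset.mem_coe, Finset.mem_filter] at hT hT'
    rw [← usw_inv hi hj T hT.2.1 hT.2.2, ← usw_inv hi hj T' hT'.2.1 hT'.2.2, heq]
  · intro S hS
    rw [Finset.mem_coe, Finset.mem_filter, mem_ffib] at hS
    obtain ⟨⟨hS, hx⟩, h1, h2⟩ := hS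
    have hback : usw i₀ i j₀ j (usw i i₀ j₀ j S) = S := usw_inv (Ne.symm hi) hj S h2 h1
    refine ⟨usw i i₀ j₀ j S, ?_, hback⟩
    rw [Finset.mem_coe, Finset.mem_filter, mem_ffib]
    have hmem : usw i i₀ j₀ j S ∈ tables r c := usw_mem_tables (Ne.symm hi) hj hS h2 h1
    refine ⟨⟨hmem, ?_⟩, ?_, ?_⟩
    · have h3 := free_usw hi hj (usw i i₀ j₀ j S)
      rw [hback, hx] at h3
      have h4 : flip (flip x (⟨i, hi⟩, ⟨j, hj⟩)) (⟨i, hi⟩, ⟨j, hj⟩)
          = flip (flip (free i₀ j₀ (usw i i₀ j₀ j S)) (⟨i, hi⟩, ⟨j, hj⟩)) (⟨i, hi⟩, ⟨j, hj⟩) :=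
        congrArg (fun y => flip y (⟨i, hi⟩, ⟨j, hj⟩)) h3
      rw [flip_flip, flip_flip] at h4
      exact h4.symm
    · rw [usw_plus₂]
      exact Nat.le_add_left 1 _
    · rw [usw_plus₁]
      exact Nat.le_add_left 1 _

end Vale.Agent.Lib.P328.BP.H33
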