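import Vale.Agent.Lib.P328.BP.H33Pre
import Vale.Agent.Lib.P328.BP.Cube
import Vale.Agent.Lib.P328.BP.Ratio

/-!
# P328 / bit planes: the halving step

`halve`: let `m, n ≥ 2`, `d = (m - 1)(n - 1)`, `0 ≤ δ`, `8 d δ ≤ 1`.  Assume that for every
parity pattern `B` (a `0/1` matrix whose row and column sums have the parities of `r`, `c`)
the half class, with margins `(r - B 1) / 2`, `(c - Bᵀ 1) / 2`, has the Poincare constant `K'`
for the 2 × 2 heat bath and that at most a fraction `δ` of its tables vanish at any given cell.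
Then the 2 × 2 heat bath on the tables with margins `r`, `c` has the Poincare constant
`(1 + 8 d δ) K' + 6`.
-/

namespace Vale.Agent.Lib.P328.BP.H33

open Finset
open scoped Classical
open Vale.Agent.Lib.P328.CT Vale.Agent.Lib.P335.Bip Vale.Agent.Lib.P328.AM

universe u v

variable {R : Type u} {C : Type v} [Fintype R] [Fintype C]

/-- The rectangles of the free cells are distinct pairs (pair of rows, pair of columns). -/
theorem sum_free_boxes (i₀ : R) (j₀ : C) (G : Finset R → Finset C → ℝ)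
    (hG : ∀ q p, 0 ≤ G q p) :
    ∑ e : FreeIx i₀ j₀, G {i₀, e.1.1} {j₀, e.2.1}
      ≤ ∑ q ∈ (Finset.univ : Finset R).powersetCard 2,
          ∑ p ∈ (Finset.univ : Finset C).powersetCard 2, G q p := by
  obtain ⟨Φ, hΦ⟩ : ∃ Φ : FreeIx i₀ j₀ → Finset R × Finset C,
      Φ = fun e => ({i₀, e.1.1}, {j₀, e.2.1}) := ⟨_, rfl⟩
  have hinj : Function.Injective Φ := by
    intro e e' h
    rw [hΦ] at h
    have h1 : ({i₀, e.1.1} : Finset R) = {i₀, e'.1.1} := congrArg Prod.fst h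
    have h2 : ({j₀, e.2.1} : Finset C) = {j₀, e'.2.1} := congrArg Prod.snd h
    have m1 : e.1.1 ∈ ({i₀, e'.1.1} : Finset R) := by
      rw [← h1]
      exact Finset.mem_insert_of_mem (Finset.mem_singleton_self _)
    have m2 : e.2.1 ∈ ({j₀, e'.2.1} : Finset C) := by
      rw [← h2]
      exact Finset.mem_insert_of_mem (Finset.mem_singleton_self _)
    rw [Finset.mem_insert, Finset.mem_singleton] at m1 m2
    have a1 : e.1.1 = e'.1.1 := m1.resolve_left e.1.2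
    have a2 : e.2.1 = e'.2.1 := m2.resolve_left e.2.2
    exact Prod.ext (Subtype.ext a1) (Subtype.ext a2)
  have h1 : ∑ e : FreeIx i₀ j₀, G {i₀, e.1.1} {j₀, e.2.1}
      = ∑ qp ∈ (Finset.univ : Finset (FreeIx i₀ j₀)).image Φ, G qp.1 qp.2 := by
    rw [Finset.sum_image (fun e _ e' _ h => hinj h)]
    refine Finset.sum_congr rfl (fun e _ => ?_)
    rw [hΦ]
  rw [h1, ← Finset.sum_product']
  apply Finset.sum_le_sum_of_subset_of_nonneg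
  · intro qp hqp
    obtain ⟨e, -, rfl⟩ := Finset.mem_image.mp hqp
    rw [hΦ, Finset.mem_product, Finset.mem_powersetCard, Finset.mem_powersetCard]
    exact ⟨⟨Finset.subset_univ _, Finset.card_pair (Ne.symm e.1.2)⟩,
      ⟨Finset.subset_univ _, Finset.card_pair (Ne.symm e.2.2)⟩⟩
  · intro qp _ _
    exact hG qp.1 qp.2

/-- The flip of one coordinate is a permutation of the cube. -/
theorem sum_flip {ι : Type*} [Fintype ι] [DecidableEq ι] (e : ι) (V : (ι → Bool) → ℝ) :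
    ∑ x : ι → Bool, V (flip x e) = ∑ x : ι → Bool, V x := by
  have hinv : Function.Involutive (fun x : ι → Bool => flip x e) := fun x => flip_flip x e
  exact Equiv.sum_comp hinv.toPerm V

/-- The tables of the fibre of `x` to which the unit switch of the free cell `e` applies. -/
noncomputable def srcSet (r : R → ℕ) (c : C → ℕ) (i₀ : R) (j₀ : C) (x : FreeIx i₀ j₀ → Bool)
    (e : FreeIx i₀ j₀) : Finset (R → C → ℕ) :=
  (ffib r c i₀ j₀ x).filter (fun T => 1 ≤ T i₀ e.2.1 ∧ 1 ≤ T e.1.1 j₀)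

/-- The images of these tables in the fibre of the flipped point. -/
noncomputable def tgtSet (r : R → ℕ) (c : C → ℕ) (i₀ : R) (j₀ : C) (x : FreeIx i₀ j₀ → Bool)
    (e : FreeIx i₀ j₀) : Finset (R → C → ℕ) :=
  (ffib r c i₀ j₀ (flip x e)).filter (fun T => 1 ≤ T i₀ j₀ ∧ 1 ≤ T e.1.1 e.2.1)

/-- The hypothesis on the zero counts of the half classes. -/
def ZeroHyp (r : R → ℕ) (c : C → ℕ) (δ : ℝ) : Prop :=
  ∀ B : R → C → ℕ, IsPattern r c B → ∀ a b,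
    (((tables (hrow r B) (hcol c B)).filter (fun T => T a b = 0)).card : ℝ)
      ≤ δ * ((tables (hrow r B) (hcol c B)).card : ℝ)

theorem srcSet_subset (r : R → ℕ) (c : C → ℕ) (i₀ : R) (j₀ : C) (x : FreeIx i₀ j₀ → Bool)
    (e : FreeIx i₀ j₀) : srcSet r c i₀ j₀ x e ⊆ ffib r c i₀ j₀ x :=
  Finset.filter_subset _ _

theorem tgtSet_subset (r : R → ℕ) (c : C → ℕ) (i₀ : R) (j₀ : C) (x : FreeIx i₀ j₀ → Bool)
    (e : FreeIx i₀ j₀) : tgtSet r c i₀ j₀ x e ⊆ ffib r c i₀ j₀ (flip x e) :=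
  Finset.filter_subset _ _

theorem usw_bijOn_src (r : R → ℕ) (c : C → ℕ) (i₀ : R) (j₀ : C) (x : FreeIx i₀ j₀ → Bool)
    (e : FreeIx i₀ j₀) :
    Set.BijOn (usw i₀ e.1.1 j₀ e.2.1) (srcSet r c i₀ j₀ x e : Set (R → C → ℕ))
      (tgtSet r c i₀ j₀ x e : Set (R → C → ℕ)) :=
  usw_bijOn_ffib r c e.1.2 e.2.2 x

theorem src_sdiff_le {r : R → ℕ} {c : C → ℕ} (i₀ : R) (j₀ : C) (δ : ℝ) (hZ : ZeroHyp r c δ)
    (x : FreeIx i₀ j₀ → Bool) (e : FreeIx i₀ j₀) :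
    ((ffib r c i₀ j₀ x \ srcSet r c i₀ j₀ x e).card : ℝ)
      ≤ 2 * δ * ((ffib r c i₀ j₀ x).card : ℝ) :=
  sdiff_card_le (ffib r c i₀ j₀ x) i₀ e.2.1 e.1.1 j₀ δ (ffib_zero_le i₀ j₀ δ hZ x i₀ e.2.1)
    (ffib_zero_le i₀ j₀ δ hZ x e.1.1 j₀)

theorem tgt_sdiff_le {r : R → ℕ} {c : C → ℕ} (i₀ : R) (j₀ : C) (δ : ℝ) (hZ : ZeroHyp r c δ)
    (x : FreeIx i₀ j₀ → Bool) (e : FreeIx i₀ j₀) :
    ((ffib r c i₀ j₀ (flip x e) \ tgtSet r c i₀ j₀ x e).card : ℝ)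
      ≤ 2 * δ * ((ffib r c i₀ j₀ (flip x e)).card : ℝ) :=
  sdiff_card_le (ffib r c i₀ j₀ (flip x e)) i₀ j₀ e.1.1 e.2.1 δ
    (ffib_zero_le i₀ j₀ δ hZ (flip x e) i₀ j₀) (ffib_zero_le i₀ j₀ δ hZ (flip x e) e.1.1 e.2.1)

/-- One flip loses at most the factor `1 - 2 δ` in the number of tables of the fibre. -/
theorem ffib_flip_le {r : R → ℕ} {c : C → ℕ} (i₀ : R) (j₀ : C) (δ : ℝ) (hZ : ZeroHyp r c δ)
    (x : FreeIx i₀ j₀ → Bool) (e : FreeIx i₀ j₀) :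
    (1 - 2 * δ) * ((ffib r c i₀ j₀ x).card : ℝ) ≤ ((ffib r c i₀ j₀ (flip x e)).card : ℝ) :=
  card_ratio (ffib r c i₀ j₀ x) (ffib r c i₀ j₀ (flip x e)) (srcSet r c i₀ j₀ x e)
    (tgtSet r c i₀ j₀ x e) (usw i₀ e.1.1 j₀ e.2.1) (srcSet_subset r c i₀ j₀ x e)
    (tgtSet_subset r c i₀ j₀ x e) (usw_bijOn_src r c i₀ j₀ x e) δ (src_sdiff_le i₀ j₀ δ hZ x e)

/-- Any two fibres have numbers of tables within the factor `4 / 3`. -/
theorem ffib_ratio {r : R → ℕ} {c : C → ℕ} (i₀ : R) (j₀ : C) (δ : ℝ) (hδ0 : 0 ≤ δ)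
    (hδ : 8 * (Fintype.card (FreeIx i₀ j₀) : ℝ) * δ ≤ 1) (hZ : ZeroHyp r c δ)
    (x y : FreeIx i₀ j₀ → Bool) :
    3 * ((ffib r c i₀ j₀ x).card : ℝ) ≤ 4 * ((ffib r c i₀ j₀ y).card : ℝ) :=
  cube_ratio (fun x => ((ffib r c i₀ j₀ x).card : ℝ)) (fun _ => Nat.cast_nonneg _) δ hδ0 hδ
    (fun x e => ffib_flip_le i₀ j₀ δ hZ x e) x y

/-- If there is a table, every fibre is nonempty. -/
theorem ffib_nonempty {r : R → ℕ} {c : C → ℕ} (i₀ : R) (j₀ : C) (δ : ℝ) (hδ0 : 0 ≤ δ)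
    (hδ : 8 * (Fintype.card (FreeIx i₀ j₀) : ℝ) * δ ≤ 1) (hZ : ZeroHyp r c δ)
    (hΩ : (tables r c).Nonempty) (x : FreeIx i₀ j₀ → Bool) : (ffib r c i₀ j₀ x).Nonempty := by
  obtain ⟨T₀, hT₀⟩ := hΩ
  have h0 : (0 : ℝ) < ((ffib r c i₀ j₀ (free i₀ j₀ T₀)).card : ℝ) :=
    Nat.cast_pos.mpr (Finset.card_pos.mpr ⟨T₀, mem_ffib.mpr ⟨hT₀, rfl⟩⟩)
  have h1 := ffib_ratio i₀ j₀ δ hδ0 hδ hZ (free i₀ j₀ T₀) x
  have h2 : (0 : ℝ) < ((ffib r c i₀ j₀ x).card : ℝ) := by linarith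
  exact Finset.card_pos.mp (by exact_mod_cast h2)

/-- One edge of the cube. -/
theorem edge_ffib {r : R → ℕ} {c : C → ℕ} (i₀ : R) (j₀ : C) (δ : ℝ) (hδ0 : 0 ≤ δ)
    (hδ : 8 * (Fintype.card (FreeIx i₀ j₀) : ℝ) * δ ≤ 1) (hδ8 : δ ≤ 1 / 8)
    (hZ : ZeroHyp r c δ) (hΩ : (tables r c).Nonempty) (f : (R → C → ℕ) → ℝ) (Wm : ℝ)
    (hWm0 : 0 ≤ Wm) (hWm : ∀ y, 3 * Wm ≤ 4 * ((ffib r c i₀ j₀ y).card : ℝ))
    (e : FreeIx i₀ j₀) (x : FreeIx i₀ j₀ → Bool) :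
    Wm / 4 * (mean (ffib r c i₀ j₀ (flip x e)) f - mean (ffib r c i₀ j₀ x) f) ^ 2
      ≤ 32 / 9 * δ * (vsum (ffib r c i₀ j₀ (flip x e)) f + vsum (ffib r c i₀ j₀ x) f)
        + 4 / 3 * ∑ T ∈ srcSet r c i₀ j₀ x e, (f (usw i₀ e.1.1 j₀ e.2.1 T) - f T) ^ 2 := by
  have hne : ∀ y, (ffib r c i₀ j₀ y).Nonempty := ffib_nonempty i₀ j₀ δ hδ0 hδ hZ hΩ
  have hpos : ∀ y, (0 : ℝ) < ((ffib r c i₀ j₀ y).card : ℝ) := fun y =>
    Nat.cast_pos.mpr (Finset.card_pos.mpr (hne y))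
  have hb := edge_bound (ffib r c i₀ j₀ x) (ffib r c i₀ j₀ (flip x e)) (srcSet r c i₀ j₀ x e)
    (tgtSet r c i₀ j₀ x e) (usw i₀ e.1.1 j₀ e.2.1) (srcSet_subset r c i₀ j₀ x e)
    (tgtSet_subset r c i₀ j₀ x e) (usw_bijOn_src r c i₀ j₀ x e) δ hδ0 hδ8
    (src_sdiff_le i₀ j₀ δ hZ x e) (tgt_sdiff_le i₀ j₀ δ hZ x e) (hne x) (hne (flip x e)) f
  have hA := card_ge_of_sdiff_le (ffib r c i₀ j₀ x) (srcSet r c i₀ j₀ x e)
    (srcSet_subset r c i₀ j₀ x e) δ (src_sdiff_le i₀ j₀ δ hZ x e)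
  exact edge_arith Wm ((ffib r c i₀ j₀ x).card : ℝ) ((ffib r c i₀ j₀ (flip x e)).card : ℝ)
    (vsum (ffib r c i₀ j₀ x) f) (vsum (ffib r c i₀ j₀ (flip x e)) f)
    ((srcSet r c i₀ j₀ x e).card : ℝ)
    (∑ T ∈ srcSet r c i₀ j₀ x e, (f (usw i₀ e.1.1 j₀ e.2.1 T) - f T) ^ 2) δ _ hδ0 hδ8
    (hpos x) (hpos (flip x e)) (hWm x) (hWm (flip x e)) hWm0 (vsum_nonneg _ _)
    (vsum_nonneg _ _) hA (Finset.sum_nonneg (fun T _ => sq_nonneg _)) hb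

/-- The sum over the fibres, for one free cell. -/
theorem cell_ffib {r : R → ℕ} {c : C → ℕ} (i₀ : R) (j₀ : C) (δ : ℝ) (hδ0 : 0 ≤ δ)
    (hδ : 8 * (Fintype.card (FreeIx i₀ j₀) : ℝ) * δ ≤ 1) (hδ8 : δ ≤ 1 / 8)
    (hZ : ZeroHyp r c δ) (hΩ : (tables r c).Nonempty) (f : (R → C → ℕ) → ℝ) (Wm : ℝ)
    (hWm0 : 0 ≤ Wm) (hWm : ∀ y, 3 * Wm ≤ 4 * ((ffib r c i₀ j₀ y).card : ℝ))
    (e : FreeIx i₀ j₀) :
    ∑ x : FreeIx i₀ j₀ → Bool,
        Wm / 4 * (mean (ffib r c i₀ j₀ (flip x e)) f - mean (ffib r c i₀ j₀ x) f) ^ 2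
      ≤ 64 / 9 * δ * ∑ x : FreeIx i₀ j₀ → Bool, vsum (ffib r c i₀ j₀ x) f
        + 16 / 3 * ∑ T ∈ tables r c, (f T - boxAvg r c {i₀, e.1.1} {j₀, e.2.1} f T) ^ 2 := by
  refine le_trans (Finset.sum_le_sum
    (fun x _ => edge_ffib i₀ j₀ δ hδ0 hδ hδ8 hZ hΩ f Wm hWm0 hWm e x)) ?_
  rw [Finset.sum_add_distrib, ← Finset.mul_sum, ← Finset.mul_sum, Finset.sum_add_distrib,
    sum_flip e (fun x => vsum (ffib r c i₀ j₀ x) f)]
  have hsw : ∑ x : FreeIx i₀ j₀ → Bool,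
      ∑ T ∈ srcSet r c i₀ j₀ x e, (f (usw i₀ e.1.1 j₀ e.2.1 T) - f T) ^ 2
      ≤ 4 * ∑ T ∈ tables r c, (f T - boxAvg r c {i₀, e.1.1} {j₀, e.2.1} f T) ^ 2 := by
    unfold srcSet
    rw [sum_ffib_filter r c i₀ j₀ (fun T => 1 ≤ T i₀ e.2.1 ∧ 1 ≤ T e.1.1 j₀)
      (fun T => (f (usw i₀ e.1.1 j₀ e.2.1 T) - f T) ^ 2)]
    exact switch_energy_le r c e.1.2 e.2.2 f
  linarith

/-- The weighted mean of the fibre means is the mean. -/
theorem mean_ffib {r : R → ℕ} {c : C → ℕ} (i₀ : R) (j₀ : C) (hΩ : (tables r c).Nonempty)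
    (f : (R → C → ℕ) → ℝ) :
    (∑ T ∈ tables r c, f T) / ((tables r c).card : ℝ)
        * ∑ x : FreeIx i₀ j₀ → Bool, ((ffib r c i₀ j₀ x).card : ℝ)
      = ∑ x : FreeIx i₀ j₀ → Bool,
          ((ffib r c i₀ j₀ x).card : ℝ) * mean (ffib r c i₀ j₀ x) f := by
  have hcardΩ : ((tables r c).card : ℝ) ≠ 0 :=
    Nat.cast_ne_zero.mpr (Nat.pos_iff_ne_zero.mp (Finset.card_pos.mpr hΩ))
  have h2 : ∑ x : FreeIx i₀ j₀ → Bool,
      ((ffib r c i₀ j₀ x).card : ℝ) * mean (ffib r c i₀ j₀ x) f = ∑ T ∈ tables r c, f T := by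
    rw [← sum_ffib r c i₀ j₀ f]
    refine Finset.sum_congr rfl (fun x _ => ?_)
    unfold mean
    rcases Finset.eq_empty_or_nonempty (ffib r c i₀ j₀ x) with hS | hS
    · rw [hS]
      simp
    · have h3 : ((ffib r c i₀ j₀ x).card : ℝ) ≠ 0 :=
        Nat.cast_ne_zero.mpr (Nat.pos_iff_ne_zero.mp (Finset.card_pos.mpr hS))
      rw [mul_comm, div_mul_cancel₀ _ h3]
  rw [h2, sum_card_ffib r c i₀ j₀, div_mul_cancel₀ _ hcardΩ]

/-- The variance of the fibre means (fibres of the parities of the free cells) is controlled by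
a small multiple of the variances inside the fibres and by the 2 × 2 terms. -/
theorem between_le {r : R → ℕ} {c : C → ℕ} (i₀ : R) (j₀ : C) (δ : ℝ) (hδ0 : 0 ≤ δ)
    (hδ : 8 * (Fintype.card (FreeIx i₀ j₀) : ℝ) * δ ≤ 1) (hδ8 : δ ≤ 1 / 8)
    (hZ : ZeroHyp r c δ) (hΩ : (tables r c).Nonempty) (f : (R → C → ℕ) → ℝ) :
    ∑ x : FreeIx i₀ j₀ → Bool, ((ffib r c i₀ j₀ x).card : ℝ)
        * (mean (ffib r c i₀ j₀ x) f - (∑ T ∈ tables r c, f T) / ((tables r c).card : ℝ)) ^ 2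
      ≤ 8 * (Fintype.card (FreeIx i₀ j₀) : ℝ) * δ
          * ∑ x : FreeIx i₀ j₀ → Bool, vsum (ffib r c i₀ j₀ x) f
        + 6 * ∑ q ∈ (Finset.univ : Finset R).powersetCard 2,
            ∑ p ∈ (Finset.univ : Finset C).powersetCard 2,
              ∑ T ∈ tables r c, (f T - boxAvg r c q p f T) ^ 2 := by
  obtain ⟨xm, -, hxm⟩ := Finset.exists_max_image (Finset.univ : Finset (FreeIx i₀ j₀ → Bool))
    (fun x => ((ffib r c i₀ j₀ x).card : ℝ)) ⟨fun _ => false, Finset.mem_univ _⟩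
  obtain ⟨Wm, hWmdef⟩ : ∃ Wm : ℝ, Wm = ((ffib r c i₀ j₀ xm).card : ℝ) := ⟨_, rfl⟩
  have hw : ∀ x : FreeIx i₀ j₀ → Bool, ((ffib r c i₀ j₀ x).card : ℝ) ≤ Wm := by
    intro x
    rw [hWmdef]
    exact hxm x (Finset.mem_univ x)
  have hWm0 : 0 ≤ Wm := by
    rw [hWmdef]
    exact Nat.cast_nonneg _
  have hWm : ∀ y, 3 * Wm ≤ 4 * ((ffib r c i₀ j₀ y).card : ℝ) := by
    intro y
    rw [hWmdef]
    exact ffib_ratio i₀ j₀ δ hδ0 hδ hZ xm y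
  have hES := efron_stein_weighted (fun x => mean (ffib r c i₀ j₀ x) f)
    (fun x => ((ffib r c i₀ j₀ x).card : ℝ)) Wm (fun x => Nat.cast_nonneg _) hw
    ((∑ T ∈ tables r c, f T) / ((tables r c).card : ℝ)) (mean_ffib i₀ j₀ hΩ f)
  refine le_trans hES ?_
  obtain ⟨SV, hSV⟩ : ∃ SV : ℝ, SV = ∑ x : FreeIx i₀ j₀ → Bool, vsum (ffib r c i₀ j₀ x) f :=
    ⟨_, rfl⟩
  have hSV0 : 0 ≤ SV := by
    rw [hSV]
    exact Finset.sum_nonneg (fun x _ => vsum_nonneg _ _)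
  rw [← hSV]
  have h1 : ∀ e ∈ (Finset.univ : Finset (FreeIx i₀ j₀)),
      Wm / 4 * ∑ x : FreeIx i₀ j₀ → Bool,
          (mean (ffib r c i₀ j₀ (Function.update x e (!(x e)))) f
            - mean (ffib r c i₀ j₀ x) f) ^ 2
        ≤ 64 / 9 * δ * SV
          + 16 / 3 * ∑ T ∈ tables r c,
              (f T - boxAvg r c {i₀, e.1.1} {j₀, e.2.1} f T) ^ 2 := by
    intro e _
    rw [Finset.mul_sum, hSV]
    exact cell_ffib i₀ j₀ δ hδ0 hδ hδ8 hZ hΩ f Wm hWm0 hWm e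
  rw [Finset.mul_sum]
  refine le_trans (Finset.sum_le_sum h1) ?_
  rw [Finset.sum_add_distrib, Finset.sum_const, Finset.card_univ, nsmul_eq_mul,
    ← Finset.mul_sum]
  have hsumE := sum_free_boxes i₀ j₀
    (fun q p => ∑ T ∈ tables r c, (f T - boxAvg r c q p f T) ^ 2)
    (fun q p => Finset.sum_nonneg (fun T _ => sq_nonneg _))
  have hd0 : (0 : ℝ) ≤ (Fintype.card (FreeIx i₀ j₀) : ℝ) := Nat.cast_nonneg _
  have h3 : 0 ≤ (Fintype.card (FreeIx i₀ j₀) : ℝ) * δ * SV :=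
    mul_nonneg (mul_nonneg hd0 hδ0) hSV0
  have hE0 : 0 ≤ ∑ e : FreeIx i₀ j₀,
      ∑ T ∈ tables r c, (f T - boxAvg r c {i₀, e.1.1} {j₀, e.2.1} f T) ^ 2 :=
    Finset.sum_nonneg (fun e _ => Finset.sum_nonneg (fun T _ => sq_nonneg _))
  nlinarith

/-- **The halving step.** -/
theorem halve (R : Type u) [Fintype R] (C : Type v) [Fintype C] (r : R → ℕ) (c : C → ℕ)
    (K' δ : ℝ) (hR : 2 ≤ Fintype.card R) (hC : 2 ≤ Fintype.card C) (hK0 : 0 ≤ K')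
    (hδ0 : 0 ≤ δ)
    (hδ : 8 * (((Fintype.card R - 1) * (Fintype.card C - 1) : ℕ) : ℝ) * δ ≤ 1)
    (h : ∀ B : R → C → ℕ, (∀ i j, B i j ≤ 1) → (∀ i, (∑ j, B i j) % 2 = r i % 2) →
      (∀ j, (∑ i, B i j) % 2 = c j % 2) →
        PCbox K' (fun i => (r i - ∑ j, B i j) / 2) (fun j => (c j - ∑ i, B i j) / 2) ∧
        ∀ i j, (((tables (fun i => (r i - ∑ j, B i j) / 2)
              (fun j => (c j - ∑ i, B i j) / 2)).filter (fun T => T i j = 0)).card : ℝ)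
          ≤ δ * ((tables (fun i => (r i - ∑ j, B i j) / 2)
              (fun j => (c j - ∑ i, B i j) / 2)).card : ℝ)) :
    PCbox ((1 + 8 * (((Fintype.card R - 1) * (Fintype.card C - 1) : ℕ) : ℝ) * δ) * K' + 6)
      r c := by
  intro f
  obtain ⟨S, hS⟩ : ∃ S : ℝ, S = ∑ q ∈ (Finset.univ : Finset R).powersetCard 2,
      ∑ p ∈ (Finset.univ : Finset C).powersetCard 2,
        ∑ T ∈ tables r c, (f T - boxAvg r c q p f T) ^ 2 := ⟨_, rfl⟩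
  rw [← hS]
  have hS0 : 0 ≤ S := by
    rw [hS]
    exact Finset.sum_nonneg (fun q _ => Finset.sum_nonneg (fun p _ =>
      Finset.sum_nonneg (fun T _ => sq_nonneg _)))
  have hd1 : (1 : ℝ) ≤ (((Fintype.card R - 1) * (Fintype.card C - 1) : ℕ) : ℝ) := by
    have h1 : 1 ≤ Fintype.card R - 1 := by omega
    have h2 : 1 ≤ Fintype.card C - 1 := by omega
    have h3 : 1 ≤ (Fintype.card R - 1) * (Fintype.card C - 1) := Nat.mul_pos h1 h2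
    exact_mod_cast h3
  have hδ8 : δ ≤ 1 / 8 := by nlinarith
  have hconst0 : 0 ≤ 8 * (((Fintype.card R - 1) * (Fintype.card C - 1) : ℕ) : ℝ) * δ := by
    positivity
  rcases Finset.eq_empty_or_nonempty (tables r c) with hemp | hΩ
  · rw [hemp, Finset.sum_empty]
    exact mul_nonneg (by positivity) hS0
  · obtain ⟨i₀⟩ : Nonempty R := Fintype.card_pos_iff.mp (by omega)
    obtain ⟨j₀⟩ : Nonempty C := Fintype.card_pos_iff.mp (by omega)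
    have hKZ : ∀ B : R → C → ℕ, IsPattern r c B →
        PCbox K' (hrow r B) (hcol c B) ∧ ∀ a b,
          (((tables (hrow r B) (hcol c B)).filter (fun T => T a b = 0)).card : ℝ)
            ≤ δ * ((tables (hrow r B) (hcol c B)).card : ℝ) := by
      intro B hB
      obtain ⟨h1, h2, h3⟩ := hB.parity
      exact h B h1 h2 h3
    have hcard : (Fintype.card (FreeIx i₀ j₀) : ℝ)
        = (((Fintype.card R - 1) * (Fintype.card C - 1) : ℕ) : ℝ) := by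
      rw [card_freeIx i₀ j₀]
    have hI := ffib_energy_le i₀ j₀ K' hK0 (fun B hB => (hKZ B hB).1) f
    have hII := between_le i₀ j₀ δ hδ0 (by rw [hcard]; exact hδ) hδ8
      (fun B hB => (hKZ B hB).2) hΩ f
    rw [hcard] at hII
    rw [← hS] at hI hII
    rw [anova_ffib r c i₀ j₀ f ((∑ N ∈ tables r c, f N) / ((tables r c).card : ℝ))]
    have hVK : 8 * (((Fintype.card R - 1) * (Fintype.card C - 1) : ℕ) : ℝ) * δ
        * ∑ x : FreeIx i₀ j₀ → Bool, vsum (ffib r c i₀ j₀ x) f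
        ≤ 8 * (((Fintype.card R - 1) * (Fintype.card C - 1) : ℕ) : ℝ) * δ * (K' * S) :=
      mul_le_mul_of_nonneg_left hI hconst0
    linarith

end Vale.Agent.Lib.P328.BP.H33
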