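import Vale.Agent.Lib.P328.BP.H33Fin
import Vale.Agent.Lib.P328.BP.H33Free
import Vale.Agent.Lib.P328.BP.SwitchAbs

/-!
# P328 / bit planes: preparations for the halving step

Sums over the fibres of the parities of the free cells, the zero counts in these fibres, the
number of free cells, and the arithmetic of one edge of the cube.
-/

namespace Vale.Agent.Lib.P328.BP.H33

open Finset
open scoped Classical
open Vale.Agent.Lib.P328.CT Vale.Agent.Lib.P335.Bip Vale.Agent.Lib.P328.AM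

universe u v

variable {R : Type u} {C : Type v} [Fintype R] [Fintype C]

/-- The arithmetic of one edge of the cube. -/
theorem edge_arith (Wm Nx Ny Vx Vy A SA δ D2 : ℝ) (hδ0 : 0 ≤ δ) (hδ : δ ≤ 1 / 8)
    (hNx : 0 < Nx) (hNy : 0 < Ny) (hWx : 3 * Wm ≤ 4 * Nx) (hWy : 3 * Wm ≤ 4 * Ny)
    (hWm : 0 ≤ Wm) (hVx : 0 ≤ Vx) (hVy : 0 ≤ Vy) (hA : (1 - 2 * δ) * Nx ≤ A) (hSA : 0 ≤ SA)
    (h : D2 ≤ 3 * (32 / 9 * δ * (Vy / Ny) + 32 / 9 * δ * (Vx / Nx) + SA / A)) :
    Wm / 4 * D2 ≤ 32 / 9 * δ * (Vy + Vx) + 4 / 3 * SA := by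
  have hApos : 0 < A := by nlinarith
  have hA' : 9 * Wm ≤ 16 * A := by nlinarith
  have t1 : Wm * (Vy / Ny) ≤ 4 / 3 * Vy := by
    rw [← mul_div_assoc, div_le_iff₀ hNy]
    nlinarith [mul_nonneg hVy (sub_nonneg.mpr hWy)]
  have t2 : Wm * (Vx / Nx) ≤ 4 / 3 * Vx := by
    rw [← mul_div_assoc, div_le_iff₀ hNx]
    nlinarith [mul_nonneg hVx (sub_nonneg.mpr hWx)]
  have t3 : Wm * (SA / A) ≤ 16 / 9 * SA := by
    rw [← mul_div_assoc, div_le_iff₀ hApos]
    nlinarith [mul_nonneg hSA (sub_nonneg.mpr hA')]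
  have h1 : Wm / 4 * D2
      ≤ Wm / 4 * (3 * (32 / 9 * δ * (Vy / Ny) + 32 / 9 * δ * (Vx / Nx) + SA / A)) :=
    mul_le_mul_of_nonneg_left h (by positivity)
  have e : Wm / 4 * (3 * (32 / 9 * δ * (Vy / Ny) + 32 / 9 * δ * (Vx / Nx) + SA / A))
      = 3 / 4 * (32 / 9 * δ * (Wm * (Vy / Ny)) + 32 / 9 * δ * (Wm * (Vx / Nx))
          + Wm * (SA / A)) := by ring
  rw [e] at h1
  have t1' : 32 / 9 * δ * (Wm * (Vy / Ny)) ≤ 32 / 9 * δ * (4 / 3 * Vy) :=
    mul_le_mul_of_nonneg_left t1 (by positivity)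
  have t2' : 32 / 9 * δ * (Wm * (Vx / Nx)) ≤ 32 / 9 * δ * (4 / 3 * Vx) :=
    mul_le_mul_of_nonneg_left t2 (by positivity)
  linarith

/-- The number of free cells. -/
theorem card_freeIx (i₀ : R) (j₀ : C) :
    Fintype.card (FreeIx i₀ j₀) = (Fintype.card R - 1) * (Fintype.card C - 1) := by
  rw [Fintype.card_prod]
  congr 1
  · rw [Fintype.card_subtype_compl, Fintype.card_subtype_eq]
  · rw [Fintype.card_subtype_compl, Fintype.card_subtype_eq]

/-- Sums over all tables, split by the parities of the free cells. -/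
theorem sum_ffib (r : R → ℕ) (c : C → ℕ) (i₀ : R) (j₀ : C) (F : (R → C → ℕ) → ℝ) :
    ∑ x : FreeIx i₀ j₀ → Bool, ∑ T ∈ ffib r c i₀ j₀ x, F T = ∑ T ∈ tables r c, F T := by
  unfold ffib
  exact Finset.sum_fiberwise (tables r c) (free i₀ j₀) F

/-- Sums over the tables satisfying `P`, split by the parities of the free cells. -/
theorem sum_ffib_filter (r : R → ℕ) (c : C → ℕ) (i₀ : R) (j₀ : C)
    (P : (R → C → ℕ) → Prop) [DecidablePred P] (F : (R → C → ℕ) → ℝ) :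
    ∑ x : FreeIx i₀ j₀ → Bool, ∑ T ∈ (ffib r c i₀ j₀ x).filter P, F T
      = ∑ T ∈ (tables r c).filter P, F T := by
  unfold ffib
  have h : ∀ x : FreeIx i₀ j₀ → Bool,
      ((tables r c).filter (fun T => free i₀ j₀ T = x)).filter P
        = ((tables r c).filter P).filter (fun T => free i₀ j₀ T = x) := fun x =>
    Finset.filter_comm _ _ _
  rw [Finset.sum_congr rfl (fun x _ => by rw [h x])]
  exact Finset.sum_fiberwise ((tables r c).filter P) (free i₀ j₀) F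

/-- The numbers of tables of the fibres add up to the number of tables. -/
theorem sum_card_ffib (r : R → ℕ) (c : C → ℕ) (i₀ : R) (j₀ : C) :
    ∑ x : FreeIx i₀ j₀ → Bool, ((ffib r c i₀ j₀ x).card : ℝ) = ((tables r c).card : ℝ) := by
  have h := sum_ffib r c i₀ j₀ (fun _ => (1 : ℝ))
  simp only [Finset.sum_const, nsmul_eq_mul, mul_one] at h
  exact h

/-- Zero counts in the fibres of the parities of the free cells, from the zero counts in the
half classes. -/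
theorem ffib_zero_le {r : R → ℕ} {c : C → ℕ} (i₀ : R) (j₀ : C) (δ : ℝ)
    (hZ : ∀ B : R → C → ℕ, IsPattern r c B → ∀ a b,
      (((tables (hrow r B) (hcol c B)).filter (fun T => T a b = 0)).card : ℝ)
        ≤ δ * ((tables (hrow r B) (hcol c B)).card : ℝ))
    (x : FreeIx i₀ j₀ → Bool) (a : R) (b : C) :
    (((ffib r c i₀ j₀ x).filter (fun T => T a b = 0)).card : ℝ)
      ≤ δ * ((ffib r c i₀ j₀ x).card : ℝ) := by
  rcases Finset.eq_empty_or_nonempty (ffib r c i₀ j₀ x) with hS | ⟨T₀, hT₀⟩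
  · rw [hS]
    simp
  · rw [ffib_eq_fib hT₀]
    have hB : IsPattern r c (par T₀) := isPattern_par (mem_ffib.mp hT₀).1
    exact fib_zero_le hB a b δ (hZ _ hB a b)

/-- The tables of a finite set with two positive entries: the complement is small when the
tables with a zero at either cell are few. -/
theorem sdiff_card_le (S : Finset (R → C → ℕ)) (a₁ : R) (b₁ : C) (a₂ : R) (b₂ : C) (δ : ℝ)
    (h1 : ((S.filter (fun T => T a₁ b₁ = 0)).card : ℝ) ≤ δ * (S.card : ℝ))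
    (h2 : ((S.filter (fun T => T a₂ b₂ = 0)).card : ℝ) ≤ δ * (S.card : ℝ)) :
    ((S \ S.filter (fun T => 1 ≤ T a₁ b₁ ∧ 1 ≤ T a₂ b₂)).card : ℝ) ≤ 2 * δ * (S.card : ℝ) := by
  have hsub : S \ S.filter (fun T => 1 ≤ T a₁ b₁ ∧ 1 ≤ T a₂ b₂)
      ⊆ S.filter (fun T => T a₁ b₁ = 0) ∪ S.filter (fun T => T a₂ b₂ = 0) := by
    intro T hT
    rw [Finset.mem_sdiff, Finset.mem_filter] at hT
    rw [Finset.mem_union, Finset.mem_filter, Finset.mem_filter]
    by_cases h0 : T a₁ b₁ = 0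
    · exact Or.inl ⟨hT.1, h0⟩
    · right
      refine ⟨hT.1, ?_⟩
      by_contra h0'
      exact hT.2 ⟨hT.1, Nat.one_le_iff_ne_zero.mpr h0, Nat.one_le_iff_ne_zero.mpr h0'⟩
  have hcard : (S \ S.filter (fun T => 1 ≤ T a₁ b₁ ∧ 1 ≤ T a₂ b₂)).card
      ≤ (S.filter (fun T => T a₁ b₁ = 0)).card + (S.filter (fun T => T a₂ b₂ = 0)).card :=
    le_trans (Finset.card_le_card hsub) (Finset.card_union_le _ _)
  have hcard' : ((S \ S.filter (fun T => 1 ≤ T a₁ b₁ ∧ 1 ≤ T a₂ b₂)).card : ℝ)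
      ≤ ((S.filter (fun T => T a₁ b₁ = 0)).card : ℝ)
        + ((S.filter (fun T => T a₂ b₂ = 0)).card : ℝ) := by
    exact_mod_cast hcard
  linarith

/-- The analysis of variance along the parities of the free cells. -/
theorem anova_ffib (r : R → ℕ) (c : C → ℕ) (i₀ : R) (j₀ : C) (f : (R → C → ℕ) → ℝ) (a : ℝ) :
    ∑ T ∈ tables r c, (f T - a) ^ 2
      = ∑ x : FreeIx i₀ j₀ → Bool, vsum (ffib r c i₀ j₀ x) f
        + ∑ x : FreeIx i₀ j₀ → Bool,
            ((ffib r c i₀ j₀ x).card : ℝ) * (mean (ffib r c i₀ j₀ x) f - a) ^ 2 := by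
  rw [← sum_ffib r c i₀ j₀ (fun T => (f T - a) ^ 2), ← Finset.sum_add_distrib]
  exact Finset.sum_congr rfl (fun x _ => sum_sq_sub (ffib r c i₀ j₀ x) f a)

/-- The within-fibre step for the fibres of the parities of the free cells. -/
theorem ffib_energy_le {r : R → ℕ} {c : C → ℕ} (i₀ : R) (j₀ : C) (K' : ℝ) (hK0 : 0 ≤ K')
    (hK : ∀ B : R → C → ℕ, IsPattern r c B → PCbox K' (hrow r B) (hcol c B))
    (f : (R → C → ℕ) → ℝ) :
    ∑ x : FreeIx i₀ j₀ → Bool, vsum (ffib r c i₀ j₀ x) f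
      ≤ K' * ∑ q ∈ (Finset.univ : Finset R).powersetCard 2,
          ∑ p ∈ (Finset.univ : Finset C).powersetCard 2,
            ∑ T ∈ tables r c, (f T - boxAvg r c q p f T) ^ 2 := by
  have h1 : ∀ x : FreeIx i₀ j₀ → Bool, vsum (ffib r c i₀ j₀ x) f
      ≤ K' * ∑ q ∈ (Finset.univ : Finset R).powersetCard 2,
          ∑ p ∈ (Finset.univ : Finset C).powersetCard 2,
            ∑ T ∈ ffib r c i₀ j₀ x, (f T - boxAvg r c q p f T) ^ 2 := by
    intro x
    rcases Finset.eq_empty_or_nonempty (ffib r c i₀ j₀ x) with hS | ⟨T₀, hT₀⟩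
    · rw [hS]
      unfold vsum
      simp
    · rw [ffib_eq_fib hT₀]
      have hB : IsPattern r c (par T₀) := isPattern_par (mem_ffib.mp hT₀).1
      exact fib_energy_le hB K' hK0 (hK _ hB) f
  refine le_trans (Finset.sum_le_sum (fun x _ => h1 x)) (le_of_eq ?_)
  rw [← Finset.mul_sum]
  congr 1
  rw [Finset.sum_comm]
  refine Finset.sum_congr rfl (fun q _ => ?_)
  rw [Finset.sum_comm]
  refine Finset.sum_congr rfl (fun p _ => ?_)
  exact sum_ffib r c i₀ j₀ (fun T => (f T - boxAvg r c q p f T) ^ 2)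

end Vale.Agent.Lib.P328.BP.H33
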