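import Mathlib
import Vale.Agent.Lib.P328.CT.Defs

/-!
# P328 / bit planes: the zero-probability lemma (Z)

Tables with row sums `ρ` and column sums `γ` on `R × C`.  If the row sum `ρ i` is at least
card C - 1 times `M0` and the column sum `γ j` is at least card R - 1 times `M0`, then the
number of tables with a zero in the cell i, j, multiplied by `M0`, is at most
card R - 1 times card C - 1 times the number of all tables.

Proof: a table `T` with `T i j = 0` has a column `l ≠ j` with `M0 ≤ T i l` and a row `k ≠ i`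
with `M0 ≤ T k j`.  For `1 ≤ s ≤ M0` the table obtained from `T` by adding `s` in the cells
i, j and k, l and subtracting `s` in the cells i, l and k, j is again a table, and `T` and `s`
can be recovered from it and the pair k, l.
-/

namespace Vale.Agent.Lib.P328.BP

open Finset
open scoped Classical
open Vale.Agent.Lib.P328.CT

universe u v

variable {R : Type u} {C : Type v}

/-- The table `T + s (e_ij - e_il - e_kj + e_kl)` (truncated subtraction). -/
noncomputable def zsw (T : R → C → ℕ) (i k : R) (j l : C) (s : ℕ) : R → C → ℕ :=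
  fun a b => T a b + (if a = i ∧ b = j then s else 0) + (if a = k ∧ b = l then s else 0)
    - (if a = i ∧ b = l then s else 0) - (if a = k ∧ b = j then s else 0)

theorem zsw_cast (T : R → C → ℕ) {i k : R} {j l : C} {s : ℕ} (hki : k ≠ i)
    (h1 : s ≤ T i l) (h2 : s ≤ T k j) (a : R) (b : C) :
    ((zsw T i k j l s a b : ℕ) : ℤ) = (T a b : ℤ) + (if a = i ∧ b = j then (s : ℤ) else 0)
      + (if a = k ∧ b = l then (s : ℤ) else 0) - (if a = i ∧ b = l then (s : ℤ) else 0)
      - (if a = k ∧ b = j then (s : ℤ) else 0) := by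
  have e1 : (if a = i ∧ b = j then (s : ℤ) else 0)
      = (((if a = i ∧ b = j then s else 0 : ℕ)) : ℤ) := by split_ifs <;> simp
  have e2 : (if a = k ∧ b = l then (s : ℤ) else 0)
      = (((if a = k ∧ b = l then s else 0 : ℕ)) : ℤ) := by split_ifs <;> simp
  have e3 : (if a = i ∧ b = l then (s : ℤ) else 0)
      = (((if a = i ∧ b = l then s else 0 : ℕ)) : ℤ) := by split_ifs <;> simp
  have e4 : (if a = k ∧ b = j then (s : ℤ) else 0)
      = (((if a = k ∧ b = j then s else 0 : ℕ)) : ℤ) := by split_ifs <;> simp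
  rw [e1, e2, e3, e4]
  have f3 : (if a = i ∧ b = l then s else 0) ≤ T a b := by
    split_ifs with h
    · obtain ⟨rfl, rfl⟩ := h
      exact h1
    · exact Nat.zero_le _
  have f4 : (if a = k ∧ b = j then s else 0) ≤ T a b := by
    split_ifs with h
    · obtain ⟨rfl, rfl⟩ := h
      exact h2
    · exact Nat.zero_le _
  have f34 : (if a = i ∧ b = l then s else 0) = 0 ∨ (if a = k ∧ b = j then s else 0) = 0 := by
    by_cases h : a = i ∧ b = l
    · right
      have : ¬ (a = k ∧ b = j) := fun h' => hki (h'.1.symm.trans h.1)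
      simp [this]
    · left
      simp [h]
  unfold zsw
  generalize (if a = i ∧ b = j then s else 0) = x1 at *
  generalize (if a = k ∧ b = l then s else 0) = x2 at *
  generalize (if a = i ∧ b = l then s else 0) = x3 at *
  generalize (if a = k ∧ b = j then s else 0) = x4 at *
  omega

variable [Fintype R] [Fintype C]

omit [Fintype R] in
theorem sum_ite_and_right (a i : R) (j : C) (s : ℤ) :
    ∑ b : C, (if a = i ∧ b = j then s else 0) = if a = i then s else 0 := by
  by_cases h : a = i
  · simp [h]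
  · simp [h]

omit [Fintype C] in
theorem sum_ite_and_left (b j : C) (i : R) (s : ℤ) :
    ∑ a : R, (if a = i ∧ b = j then s else 0) = if b = j then s else 0 := by
  by_cases h : b = j
  · simp [h]
  · simp [h]

theorem zsw_mem {ρ : R → ℕ} {γ : C → ℕ} {T : R → C → ℕ} (hT : T ∈ tables ρ γ) {i k : R}
    {j l : C} {s : ℕ} (hki : k ≠ i) (h1 : s ≤ T i l) (h2 : s ≤ T k j) :
    zsw T i k j l s ∈ tables ρ γ := by
  rw [mem_tables] at hT ⊢
  constructor
  · intro a
    have hc : ((∑ b, zsw T i k j l s a b : ℕ) : ℤ) = ((∑ b, T a b : ℕ) : ℤ) := by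
      push_cast
      simp only [zsw_cast T hki h1 h2, Finset.sum_sub_distrib, Finset.sum_add_distrib,
        sum_ite_and_right]
      ring
    have h3 : (∑ b, zsw T i k j l s a b) = ∑ b, T a b := by exact_mod_cast hc
    rw [h3]
    exact hT.1 a
  · intro b
    have hc : ((∑ a, zsw T i k j l s a b : ℕ) : ℤ) = ((∑ a, T a b : ℕ) : ℤ) := by
      push_cast
      simp only [zsw_cast T hki h1 h2, Finset.sum_sub_distrib, Finset.sum_add_distrib,
        sum_ite_and_left]
      ring
    have h3 : (∑ a, zsw T i k j l s a b) = ∑ a, T a b := by exact_mod_cast hc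
    rw [h3]
    exact hT.2 b

omit [Fintype R] [Fintype C] in
theorem zsw_apply_ij (T : R → C → ℕ) {i k : R} {j l : C} (s : ℕ) (hki : k ≠ i) (hlj : l ≠ j) :
    zsw T i k j l s i j = T i j + s := by
  unfold zsw
  have a1 : ¬ (i = k) := fun h => hki h.symm
  have a2 : ¬ (j = l) := fun h => hlj h.symm
  simp [a1, a2]

omit [Fintype R] [Fintype C] in
/-- The table is recovered from its switch. -/
theorem zsw_inj {T T' : R → C → ℕ} {i k : R} {j l : C} {s : ℕ} (hki : k ≠ i)
    (h1 : s ≤ T i l) (h2 : s ≤ T k j) (h1' : s ≤ T' i l) (h2' : s ≤ T' k j)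
    (h : zsw T i k j l s = zsw T' i k j l s) : T = T' := by
  funext a b
  have e := congrFun (congrFun h a) b
  have c1 := zsw_cast T hki h1 h2 a b
  have c2 := zsw_cast T' hki h1' h2' a b
  rw [e] at c1
  have : (T a b : ℤ) = (T' a b : ℤ) := by linarith
  exact_mod_cast this

/-- In a row with sum at least `M0` times one less than the number of columns and a zero at `j`,
some other entry is at least `M0`. -/
theorem exists_big_col {ρ : R → ℕ} {γ : C → ℕ} {T : R → C → ℕ} (hT : T ∈ tables ρ γ) {i : R}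
    {j : C} {M0 : ℕ} (hC : 2 ≤ Fintype.card C) (hρ : (Fintype.card C - 1) * M0 ≤ ρ i)
    (h0 : T i j = 0) : ∃ l, l ≠ j ∧ M0 ≤ T i l := by
  by_contra hcon
  replace hcon : ∀ l, l ≠ j → T i l < M0 := fun l hlj =>
    lt_of_not_ge (fun hge => hcon ⟨l, hlj, hge⟩)
  have hne : ((Finset.univ : Finset C).erase j).Nonempty := by
    rw [← Finset.card_pos, Finset.card_erase_of_mem (Finset.mem_univ j), Finset.card_univ]
    omega
  have hlt : ∑ l ∈ (Finset.univ : Finset C).erase j, T i l
      < ∑ _l ∈ (Finset.univ : Finset C).erase j, M0 :=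
    Finset.sum_lt_sum_of_nonempty hne (fun l hl => hcon l (Finset.ne_of_mem_erase hl))
  rw [Finset.sum_const, Finset.card_erase_of_mem (Finset.mem_univ j), Finset.card_univ,
    smul_eq_mul] at hlt
  have hrow := (mem_tables.mp hT).1 i
  rw [← Finset.add_sum_erase _ _ (Finset.mem_univ j), h0, zero_add] at hrow
  omega

/-- In a column with sum at least `M0` times one less than the number of rows and a zero at `i`,
some other entry is at least `M0`. -/
theorem exists_big_row {ρ : R → ℕ} {γ : C → ℕ} {T : R → C → ℕ} (hT : T ∈ tables ρ γ) {i : R}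
    {j : C} {M0 : ℕ} (hR : 2 ≤ Fintype.card R) (hγ : (Fintype.card R - 1) * M0 ≤ γ j)
    (h0 : T i j = 0) : ∃ k, k ≠ i ∧ M0 ≤ T k j := by
  by_contra hcon
  replace hcon : ∀ k, k ≠ i → T k j < M0 := fun k hki =>
    lt_of_not_ge (fun hge => hcon ⟨k, hki, hge⟩)
  have hne : ((Finset.univ : Finset R).erase i).Nonempty := by
    rw [← Finset.card_pos, Finset.card_erase_of_mem (Finset.mem_univ i), Finset.card_univ]
    omega
  have hlt : ∑ k ∈ (Finset.univ : Finset R).erase i, T k j
      < ∑ _k ∈ (Finset.univ : Finset R).erase i, M0 :=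
    Finset.sum_lt_sum_of_nonempty hne (fun k hk => hcon k (Finset.ne_of_mem_erase hk))
  rw [Finset.sum_const, Finset.card_erase_of_mem (Finset.mem_univ i), Finset.card_univ,
    smul_eq_mul] at hlt
  have hcol := (mem_tables.mp hT).2 j
  rw [← Finset.add_sum_erase _ _ (Finset.mem_univ i), h0, zero_add] at hcol
  omega

/-- **Zero-probability lemma (Z).** -/
theorem zero_prob (ρ : R → ℕ) (γ : C → ℕ) (i : R) (j : C) (M0 : ℕ)
    (hR : 2 ≤ Fintype.card R) (hC : 2 ≤ Fintype.card C)
    (hρ : (Fintype.card C - 1) * M0 ≤ ρ i) (hγ : (Fintype.card R - 1) * M0 ≤ γ j) :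
    M0 * ((tables ρ γ).filter (fun T => T i j = 0)).card
      ≤ (Fintype.card R - 1) * (Fintype.card C - 1) * (tables ρ γ).card := by
  set Z := (tables ρ γ).filter (fun T => T i j = 0) with hZ
  -- choice of the big entries
  have hexl : ∀ T ∈ Z, ∃ l, l ≠ j ∧ M0 ≤ T i l := fun T hT =>
    exists_big_col (Finset.mem_filter.mp hT).1 hC hρ (Finset.mem_filter.mp hT).2
  have hexk : ∀ T ∈ Z, ∃ k, k ≠ i ∧ M0 ≤ T k j := fun T hT =>
    exists_big_row (Finset.mem_filter.mp hT).1 hR hγ (Finset.mem_filter.mp hT).2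
  let lst : (R → C → ℕ) → C := fun T =>
    if h : ∃ l, l ≠ j ∧ M0 ≤ T i l then Classical.choose h else j
  let kst : (R → C → ℕ) → R := fun T =>
    if h : ∃ k, k ≠ i ∧ M0 ≤ T k j then Classical.choose h else i
  have hl : ∀ T ∈ Z, lst T ≠ j ∧ M0 ≤ T i (lst T) := by
    intro T hT
    have h := hexl T hT
    simp only [lst, dif_pos h]
    exact Classical.choose_spec h
  have hk : ∀ T ∈ Z, kst T ≠ i ∧ M0 ≤ T (kst T) j := by
    intro T hT
    have h := hexk T hT
    simp only [kst, dif_pos h]
    exact Classical.choose_spec h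
  -- the injection
  let Φ : (R → C → ℕ) × ℕ → (R × C) × (R → C → ℕ) := fun x =>
    ((kst x.1, lst x.1), zsw x.1 i (kst x.1) j (lst x.1) (x.2 + 1))
  have hmaps : ∀ x ∈ Z ×ˢ Finset.range M0,
      Φ x ∈ (((Finset.univ : Finset R).erase i) ×ˢ ((Finset.univ : Finset C).erase j))
        ×ˢ tables ρ γ := by
    intro x hx
    rw [Finset.mem_product] at hx
    obtain ⟨hxZ, hxt⟩ := hx
    rw [Finset.mem_range] at hxt
    have hl' := hl x.1 hxZ
    have hk' := hk x.1 hxZ
    rw [Finset.mem_product, Finset.mem_product]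
    refine ⟨⟨Finset.mem_erase.mpr ⟨hk'.1, Finset.mem_univ _⟩,
      Finset.mem_erase.mpr ⟨hl'.1, Finset.mem_univ _⟩⟩, ?_⟩
    exact zsw_mem (Finset.mem_filter.mp hxZ).1 hk'.1 (le_trans (by omega) hl'.2)
      (le_trans (by omega) hk'.2)
  have hinj : Set.InjOn Φ (↑(Z ×ˢ Finset.range M0) : Set ((R → C → ℕ) × ℕ)) := by
    intro x hx y hy hxy
    rw [Finset.mem_coe, Finset.mem_product] at hx hy
    obtain ⟨hxZ, hxt⟩ := hx
    obtain ⟨hyZ, hyt⟩ := hy
    rw [Finset.mem_range] at hxt hyt
    have hlx := hl x.1 hxZ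
    have hkx := hk x.1 hxZ
    have hly := hl y.1 hyZ
    have hky := hk y.1 hyZ
    have hΦ1 : kst x.1 = kst y.1 := congrArg (fun p => p.1.1) hxy
    have hΦ2 : lst x.1 = lst y.1 := congrArg (fun p => p.1.2) hxy
    have hΦ3 : zsw x.1 i (kst x.1) j (lst x.1) (x.2 + 1)
        = zsw y.1 i (kst y.1) j (lst y.1) (y.2 + 1) := congrArg (fun p => p.2) hxy
    rw [← hΦ1, ← hΦ2] at hΦ3
    rw [← hΦ2] at hly
    rw [← hΦ1] at hky
    have hx0 : x.1 i j = 0 := (Finset.mem_filter.mp hxZ).2
    have hy0 : y.1 i j = 0 := (Finset.mem_filter.mp hyZ).2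
    have hij := congrFun (congrFun hΦ3 i) j
    rw [zsw_apply_ij _ _ hkx.1 hlx.1, zsw_apply_ij _ _ hkx.1 hlx.1, hx0, hy0] at hij
    have ht : x.2 = y.2 := by omega
    rw [← ht] at hΦ3
    have hT : x.1 = y.1 :=
      zsw_inj hkx.1 (le_trans (by omega) hlx.2) (le_trans (by omega) hkx.2)
        (le_trans (by omega) hly.2) (le_trans (by omega) hky.2) hΦ3
    exact Prod.ext hT ht
  have hcard := Finset.card_le_card_of_injOn Φ hmaps hinj
  rw [Finset.card_product, Finset.card_product, Finset.card_product, Finset.card_range,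
    Finset.card_erase_of_mem (Finset.mem_univ i), Finset.card_erase_of_mem (Finset.mem_univ j),
    Finset.card_univ, Finset.card_univ] at hcard
  calc M0 * Z.card = Z.card * M0 := Nat.mul_comm _ _
    _ ≤ (Fintype.card R - 1) * (Fintype.card C - 1) * (tables ρ γ).card := hcard

/-- The statement (Z) for all finite index types, as one proposition. -/
def ZeroStatement : Prop :=
  ∀ (R : Type u) [Fintype R] (C : Type v) [Fintype C] (ρ : R → ℕ) (γ : C → ℕ) (i : R) (j : C)
    (M0 : ℕ), 2 ≤ Fintype.card R → 2 ≤ Fintype.card C → (Fintype.card C - 1) * M0 ≤ ρ i →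
    (Fintype.card R - 1) * M0 ≤ γ j →
    M0 * ((tables ρ γ).filter (fun T => T i j = 0)).card
      ≤ (Fintype.card R - 1) * (Fintype.card C - 1) * (tables ρ γ).card

theorem zeroStatement : ZeroStatement.{u, v} :=
  fun _ _ _ _ ρ γ i j M0 hR hC hρ hγ => zero_prob ρ γ i j M0 hR hC hρ hγ

end Vale.Agent.Lib.P328.BP
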