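import Vale.Agent.Lib.P328.BP.Statements
import Vale.Agent.Lib.P328.BP.Zero
import Vale.Agent.Lib.P328.BP.Arith

/-!
# P328 / bit planes: the halving case of the top induction

If all margins are at least `17 M^5 L0` (`M` bounds the numbers of rows and columns) and every
half class has the Poincare constant `K`, then `(1 + 1 / L0) * K + 6` is a Poincare constant of
the 2 × 2 heat bath for the margins `r`, `c`: the halving step with `δ = 1 / (8 d L0)`, the
zero-probabilities of the half classes being bounded by the zero-probability lemma with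
`M0 = 8 d^2 L0`.
-/

namespace Vale.Agent.Lib.P328.BP

open Finset
open scoped Classical
open Vale.Agent.Lib.P328.CT Vale.Agent.Lib.P328.AM

universe u v

/-- The row sums of a 0/1 matrix are at most the number of columns. -/
theorem row_sum_le_card {R : Type u} {C : Type v} [Fintype C] (B : R → C → ℕ)
    (hB : ∀ i j, B i j ≤ 1) (i : R) : ∑ j, B i j ≤ Fintype.card C := by
  calc ∑ j, B i j ≤ ∑ _j : C, 1 := Finset.sum_le_sum (fun j _ => hB i j)
    _ = Fintype.card C := by
        rw [Finset.sum_const, Finset.card_univ, smul_eq_mul, mul_one]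

/-- The column sums of a 0/1 matrix are at most the number of rows. -/
theorem col_sum_le_card {R : Type u} {C : Type v} [Fintype R] (B : R → C → ℕ)
    (hB : ∀ i j, B i j ≤ 1) (j : C) : ∑ i, B i j ≤ Fintype.card R := by
  calc ∑ i, B i j ≤ ∑ _i : R, 1 := Finset.sum_le_sum (fun i _ => hB i j)
    _ = Fintype.card R := by
        rw [Finset.sum_const, Finset.card_univ, smul_eq_mul, mul_one]

/-- The halving case of the top induction. -/
theorem halve_case (hH : HalveStatement.{u, v})
    {R : Type u} [Fintype R] {C : Type v} [Fintype C] (r : R → ℕ) (c : C → ℕ) (M L0 : ℕ)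
    (hR : 2 ≤ Fintype.card R) (hC : 2 ≤ Fintype.card C)
    (hm : Fintype.card R ≤ M) (hn : Fintype.card C ≤ M) (hL : 1 ≤ L0)
    (hr : ∀ i, 17 * M ^ 5 * L0 ≤ r i) (hc : ∀ j, 17 * M ^ 5 * L0 ≤ c j)
    (K : ℝ) (hK0 : 0 ≤ K)
    (hIH : ∀ B : R → C → ℕ, (∀ i j, B i j ≤ 1) → (∀ i, (∑ j, B i j) % 2 = r i % 2) →
        (∀ j, (∑ i, B i j) % 2 = c j % 2) →
        PCbox K (fun i => (r i - ∑ j, B i j) / 2) (fun j => (c j - ∑ i, B i j) / 2)) :
    PCbox ((1 + 1 / (L0 : ℝ)) * K + 6) r c := by
  have hd1 : 1 ≤ (Fintype.card R - 1) * (Fintype.card C - 1) :=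
    Nat.mul_pos (by omega) (by omega)
  have hdM : (Fintype.card R - 1) * (Fintype.card C - 1) ≤ M ^ 2 := Arith.free_cells_le hm hn
  have hM1 : 1 ≤ M := by omega
  have hW : M ≤ 17 * M ^ 5 * L0 := by
    have h5 : M ≤ M ^ 5 := Nat.le_self_pow (by norm_num) M
    calc M ≤ M ^ 5 := h5
      _ = 1 * M ^ 5 * 1 := by ring
      _ ≤ 17 * M ^ 5 * L0 :=
          Nat.mul_le_mul (Nat.mul_le_mul (by norm_num) (le_refl _)) hL
  have key := hH R C r c K
    (1 / (8 * (((Fintype.card R - 1) * (Fintype.card C - 1) : ℕ) : ℝ) * (L0 : ℝ))) hR hC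
    (fun i => le_trans hn (le_trans hW (hr i))) (fun j => le_trans hm (le_trans hW (hc j)))
    hK0 (Arith.delta_nonneg _ L0)
    (by
      rw [Arith.eight_d_delta hd1]
      have hL' : (1 : ℝ) ≤ (L0 : ℝ) := by exact_mod_cast hL
      rw [div_le_one (by linarith)]
      exact hL')
    (by
      intro B hB1 hBr hBc
      refine ⟨hIH B hB1 hBr hBc, ?_⟩
      intro i j
      have hz := zero_prob (fun i => (r i - ∑ j, B i j) / 2) (fun j => (c j - ∑ i, B i j) / 2)
        i j (8 * ((Fintype.card R - 1) * (Fintype.card C - 1)) ^ 2 * L0) hR hC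
        (Arith.half_margin hL hdM (by omega) (hr i)
          (le_trans (row_sum_le_card B hB1 i) hn))
        (Arith.half_margin hL hdM (by omega) (hc j)
          (le_trans (col_sum_le_card B hB1 j) hm))
      exact Arith.zero_count_le hd1 hL hz)
  rw [Arith.one_add_eight_d_delta hd1] at key
  exact key

end Vale.Agent.Lib.P328.BP
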