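import Vale.Agent.Lib.P328.BP.SamplerDefs

/-!
# P328 / bit planes: the north-west corner table has the prescribed margins

If the row sums `r` and the column sums `c` have the same total, the north-west corner table
`nwTable r c` is a contingency table with row sums `r` and column sums `c`: along a row the
entries are the overlaps of the interval `[pre r i, pre r (i + 1))` with the consecutive
intervals `[pre c j, pre c (j + 1))`, so they telescope to `r i`; the same along a column.
-/

namespace Vale.Agent.Lib.P328.BP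

open Finset
open scoped Classical
open Vale.Agent.Lib.P328.CT

theorem pre_zero {k : ℕ} (a : Fin k → ℕ) : pre a 0 = 0 := by
  simp [pre]

theorem pre_succ {k : ℕ} (a : Fin k → ℕ) (i : Fin k) :
    pre a ((i : ℕ) + 1) = pre a (i : ℕ) + a i := by
  unfold pre
  have h : ∀ j : Fin k, (if (j : ℕ) < (i : ℕ) + 1 then a j else 0)
      = (if (j : ℕ) < (i : ℕ) then a j else 0) + (if j = i then a j else 0) := by
    intro j
    by_cases h1 : (j : ℕ) < (i : ℕ)
    · have h2 : j ≠ i := fun h => by rw [h] at h1; exact lt_irrefl _ h1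
      have h3 : (j : ℕ) < (i : ℕ) + 1 := by omega
      simp [h1, h2, h3]
    · by_cases h2 : j = i
      · subst h2
        simp
      · have h3 : ¬ (j : ℕ) < (i : ℕ) + 1 := by
          intro h
          apply h2
          apply Fin.ext
          omega
        simp [h1, h2, h3]
  rw [Finset.sum_congr rfl (fun j _ => h j), Finset.sum_add_distrib]
  congr 1
  rw [Finset.sum_ite_eq' Finset.univ i a]
  simp

theorem pre_mono {k : ℕ} (a : Fin k → ℕ) : Monotone (pre a) := by
  intro s t hst
  unfold pre
  apply Finset.sum_le_sum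
  intro j _
  by_cases h1 : (j : ℕ) < s
  · have h2 : (j : ℕ) < t := lt_of_lt_of_le h1 hst
    simp [h1, h2]
  · simp [h1]

theorem pre_top {k : ℕ} (a : Fin k → ℕ) : pre a k = ∑ j, a j := by
  unfold pre
  apply Finset.sum_congr rfl
  intro j _
  simp [j.2]

/-- Telescoping along one line: the overlaps of the interval `[A, B)` with the consecutive
intervals `[f t, f (t+1))`, `t < l`, add up to `B - A` when `f 0 = 0` and `B ≤ f l`. -/
theorem overlap_sum (f : ℕ → ℕ) (hf : Monotone f) (l : ℕ) (A B : ℕ) (hAB : A ≤ B)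
    (h0 : f 0 = 0) (hB : B ≤ f l) :
    ∑ t ∈ Finset.range l, (min B (f (t + 1)) - max A (f t)) = B - A := by
  have hg : Monotone (fun t => min B (max A (f t))) := by
    intro s t hst
    have := hf hst
    simp only
    omega
  have h1 : ∀ t, min B (f (t + 1)) - max A (f t)
      = min B (max A (f (t + 1))) - min B (max A (f t)) := by
    intro t
    have := hf (Nat.le_succ t)
    simp only [Nat.succ_eq_add_one] at this
    omega
  rw [Finset.sum_congr rfl (fun t _ => h1 t)]
  rw [Finset.sum_range_tsub (f := fun t => min B (max A (f t))) hg l]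
  simp only [h0]
  omega

theorem nwTable_row_sum {k l : ℕ} (r : Fin k → ℕ) (c : Fin l → ℕ)
    (h : ∑ i, r i = ∑ j, c j) (i : Fin k) : ∑ j, nwTable r c i j = r i := by
  unfold nwTable
  rw [Fin.sum_univ_eq_sum_range
    (fun t => min (pre r ((i : ℕ) + 1)) (pre c (t + 1)) - max (pre r (i : ℕ)) (pre c t)) l]
  rw [overlap_sum (pre c) (pre_mono c) l (pre r (i : ℕ)) (pre r ((i : ℕ) + 1))
    (pre_mono r (Nat.le_succ _)) (pre_zero c)]
  · rw [pre_succ]
    omega
  · rw [pre_top c, ← h, ← pre_top r]
    exact pre_mono r (by have := i.2; omega)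

theorem nwTable_col_sum {k l : ℕ} (r : Fin k → ℕ) (c : Fin l → ℕ)
    (h : ∑ i, r i = ∑ j, c j) (j : Fin l) : ∑ i, nwTable r c i j = c j := by
  unfold nwTable
  have h1 : ∀ i : Fin k,
      min (pre r ((i : ℕ) + 1)) (pre c ((j : ℕ) + 1)) - max (pre r (i : ℕ)) (pre c (j : ℕ))
        = min (pre c ((j : ℕ) + 1)) (pre r ((i : ℕ) + 1)) - max (pre c (j : ℕ)) (pre r (i : ℕ)) := by
    intro i
    rw [min_comm, max_comm]
  rw [Finset.sum_congr rfl (fun i _ => h1 i)]
  rw [Fin.sum_univ_eq_sum_range
    (fun t => min (pre c ((j : ℕ) + 1)) (pre r (t + 1)) - max (pre c (j : ℕ)) (pre r t)) k]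
  rw [overlap_sum (pre r) (pre_mono r) k (pre c (j : ℕ)) (pre c ((j : ℕ) + 1))
    (pre_mono c (Nat.le_succ _)) (pre_zero r)]
  · rw [pre_succ]
    omega
  · rw [pre_top r, h, ← pre_top c]
    exact pre_mono c (by have := j.2; omega)

/-- The north-west corner table is a table with margins `r`, `c`. -/
theorem nwTable_mem_tables {k l : ℕ} (r : Fin k → ℕ) (c : Fin l → ℕ)
    (h : ∑ i, r i = ∑ j, c j) : nwTable r c ∈ tables r c :=
  mem_tables.mpr ⟨nwTable_row_sum r c h, nwTable_col_sum r c h⟩

end Vale.Agent.Lib.P328.BP
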