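import Vale.Agent.Lib.P328.AM.BoxSym

/-!
# P328 / bit planes: parity patterns and half tables

`par T` is the parity pattern of a table (`T i j % 2`), `half T` its entrywise half
(`T i j / 2`) and `dbl B T' = B + 2 T'`.  For a parity pattern `B` of the margins `r`, `c`
(`IsPattern r c B`: entries `0` or `1`, the row and column sums of `B` have the parities of `r`
and `c` and do not exceed them), the tables of `tables r c` with parity pattern `B`
(`fib r c B`) correspond, by `half` and `dbl B`, to ALL the tables with the half margins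
`hrow r B`, `hcol c B`.  The variance over `tables r c` splits into the variances inside the
parity fibres and the variance of the fibre means (`anova`).
-/

namespace Vale.Agent.Lib.P328.BP

open Finset
open scoped Classical
open Vale.Agent.Lib.P328.CT

variable {R C : Type*} [Fintype R] [Fintype C]

/-- The parity pattern of a table. -/
def par (T : R → C → ℕ) : R → C → ℕ := fun i j => T i j % 2

/-- The entrywise half of a table, rounded down. -/
def half (T : R → C → ℕ) : R → C → ℕ := fun i j => T i j / 2

/-- The table `B + 2 T'`. -/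
def dbl (B T' : R → C → ℕ) : R → C → ℕ := fun i j => B i j + 2 * T' i j

omit [Fintype R] [Fintype C] in
theorem dbl_par_half (T : R → C → ℕ) : dbl (par T) (half T) = T := by
  funext i j
  show T i j % 2 + 2 * (T i j / 2) = T i j
  exact Nat.mod_add_div (T i j) 2

omit [Fintype R] [Fintype C] in
theorem par_dbl (B T' : R → C → ℕ) (hB : ∀ i j, B i j < 2) : par (dbl B T') = B := by
  funext i j
  show (B i j + 2 * T' i j) % 2 = B i j
  have := hB i j
  omega

omit [Fintype R] [Fintype C] in
theorem half_dbl (B T' : R → C → ℕ) (hB : ∀ i j, B i j < 2) : half (dbl B T') = T' := by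
  funext i j
  show (B i j + 2 * T' i j) / 2 = T' i j
  have := hB i j
  omega

omit [Fintype R] [Fintype C] in
theorem par_lt_two (T : R → C → ℕ) (i : R) (j : C) : par T i j < 2 :=
  Nat.mod_lt _ (by norm_num)

/-- The row sums of the half tables of the tables with parity pattern `B`. -/
def hrow (r : R → ℕ) (B : R → C → ℕ) : R → ℕ := fun i => (r i - ∑ j, B i j) / 2

/-- The column sums of the half tables of the tables with parity pattern `B`. -/
def hcol (c : C → ℕ) (B : R → C → ℕ) : C → ℕ := fun j => (c j - ∑ i, B i j) / 2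

/-- `B` is a parity pattern for the margins `r`, `c`: its entries are `0` or `1`, and every
row sum `r i` (column sum `c j`) is the corresponding sum of `B` plus twice a natural number. -/
def IsPattern (r : R → ℕ) (c : C → ℕ) (B : R → C → ℕ) : Prop :=
  (∀ i j, B i j < 2) ∧ (∀ i, ∑ j, B i j + 2 * hrow r B i = r i) ∧
    (∀ j, ∑ i, B i j + 2 * hcol c B j = c j)

/-- The tables with margins `r`, `c` and parity pattern `B`. -/
noncomputable def fib (r : R → ℕ) (c : C → ℕ) (B : R → C → ℕ) : Finset (R → C → ℕ) :=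
  (tables r c).filter (fun T => par T = B)

theorem mem_fib {r : R → ℕ} {c : C → ℕ} {B T : R → C → ℕ} :
    T ∈ fib r c B ↔ T ∈ tables r c ∧ par T = B := by
  unfold fib
  rw [Finset.mem_filter]

omit [Fintype R] in
theorem row_split (T : R → C → ℕ) (i : R) :
    ∑ j, T i j = ∑ j, par T i j + 2 * ∑ j, half T i j := by
  rw [Finset.mul_sum, ← Finset.sum_add_distrib]
  exact Finset.sum_congr rfl (fun j _ => (Nat.mod_add_div (T i j) 2).symm)

omit [Fintype C] in
theorem col_split (T : R → C → ℕ) (j : C) :
    ∑ i, T i j = ∑ i, par T i j + 2 * ∑ i, half T i j := by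
  rw [Finset.mul_sum, ← Finset.sum_add_distrib]
  exact Finset.sum_congr rfl (fun i _ => (Nat.mod_add_div (T i j) 2).symm)

/-- The half of a table has the half margins of its parity pattern. -/
theorem half_mem_tables {r : R → ℕ} {c : C → ℕ} {T : R → C → ℕ} (hT : T ∈ tables r c) :
    half T ∈ tables (hrow r (par T)) (hcol c (par T)) := by
  rw [mem_tables] at hT ⊢
  constructor
  · intro i
    have h := row_split T i
    rw [hT.1 i] at h
    show ∑ j, half T i j = (r i - ∑ j, par T i j) / 2
    omega
  · intro j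
    have h := col_split T j
    rw [hT.2 j] at h
    show ∑ i, half T i j = (c j - ∑ i, par T i j) / 2
    omega

/-- The parity pattern of a table is a parity pattern for its margins. -/
theorem isPattern_par {r : R → ℕ} {c : C → ℕ} {T : R → C → ℕ} (hT : T ∈ tables r c) :
    IsPattern r c (par T) := by
  rw [mem_tables] at hT
  refine ⟨fun i j => par_lt_two T i j, fun i => ?_, fun j => ?_⟩
  · have h := row_split T i
    rw [hT.1 i] at h
    show ∑ j, par T i j + 2 * ((r i - ∑ j, par T i j) / 2) = r i
    omega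
  · have h := col_split T j
    rw [hT.2 j] at h
    show ∑ i, par T i j + 2 * ((c j - ∑ i, par T i j) / 2) = c j
    omega

/-- `B + 2 T'` has the margins `r`, `c` when `T'` has the half margins. -/
theorem dbl_mem_tables {r : R → ℕ} {c : C → ℕ} {B : R → C → ℕ} (hB : IsPattern r c B)
    {T' : R → C → ℕ} (hT' : T' ∈ tables (hrow r B) (hcol c B)) : dbl B T' ∈ tables r c := by
  rw [mem_tables] at hT' ⊢
  constructor
  · intro i
    show ∑ j, (B i j + 2 * T' i j) = r i
    rw [Finset.sum_add_distrib, ← Finset.mul_sum, hT'.1 i]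
    exact hB.2.1 i
  · intro j
    show ∑ i, (B i j + 2 * T' i j) = c j
    rw [Finset.sum_add_distrib, ← Finset.mul_sum, hT'.2 j]
    exact hB.2.2 j

theorem dbl_mem_fib {r : R → ℕ} {c : C → ℕ} {B : R → C → ℕ} (hB : IsPattern r c B)
    {T' : R → C → ℕ} (hT' : T' ∈ tables (hrow r B) (hcol c B)) : dbl B T' ∈ fib r c B :=
  mem_fib.mpr ⟨dbl_mem_tables hB hT', par_dbl B T' hB.1⟩

theorem half_mem_of_fib {r : R → ℕ} {c : C → ℕ} {B T : R → C → ℕ} (hT : T ∈ fib r c B) :
    half T ∈ tables (hrow r B) (hcol c B) := by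
  rw [mem_fib] at hT
  have h := half_mem_tables hT.1
  rw [hT.2] at h
  exact h

theorem dbl_half_of_fib {r : R → ℕ} {c : C → ℕ} {B T : R → C → ℕ} (hT : T ∈ fib r c B) :
    dbl B (half T) = T := by
  rw [mem_fib] at hT
  rw [← hT.2]
  exact dbl_par_half T

/-- Sums over the tables with parity pattern `B` are sums over all the tables with the half
margins. -/
theorem sum_fib {r : R → ℕ} {c : C → ℕ} {B : R → C → ℕ} (hB : IsPattern r c B)
    (F : (R → C → ℕ) → ℝ) :
    ∑ T ∈ fib r c B, F T = ∑ T' ∈ tables (hrow r B) (hcol c B), F (dbl B T') := by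
  refine Finset.sum_nbij' half (dbl B) (fun T hT => half_mem_of_fib hT)
    (fun T' hT' => dbl_mem_fib hB hT') (fun T hT => dbl_half_of_fib hT)
    (fun T' _ => half_dbl B T' hB.1) (fun T hT => ?_)
  rw [dbl_half_of_fib hT]

/-- The number of tables with parity pattern `B` is the number of tables with the half
margins. -/
theorem card_fib {r : R → ℕ} {c : C → ℕ} {B : R → C → ℕ} (hB : IsPattern r c B) :
    (fib r c B).card = (tables (hrow r B) (hcol c B)).card := by
  refine Finset.card_nbij' half (dbl B) (fun T hT => half_mem_of_fib hT)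
    (fun T' hT' => dbl_mem_fib hB hT') (fun T hT => dbl_half_of_fib hT)
    (fun T' _ => half_dbl B T' hB.1)

/-- The parity patterns of the tables with margins `r`, `c`. -/
noncomputable def patterns (r : R → ℕ) (c : C → ℕ) : Finset (R → C → ℕ) :=
  (tables r c).image par

theorem isPattern_of_mem {r : R → ℕ} {c : C → ℕ} {B : R → C → ℕ} (hB : B ∈ patterns r c) :
    IsPattern r c B := by
  unfold patterns at hB
  obtain ⟨T, hT, rfl⟩ := Finset.mem_image.mp hB
  exact isPattern_par hT

theorem fib_nonempty_iff {r : R → ℕ} {c : C → ℕ} {B : R → C → ℕ} :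
    (fib r c B).Nonempty ↔ B ∈ patterns r c := by
  unfold patterns
  rw [Finset.mem_image]
  constructor
  · rintro ⟨T, hT⟩
    exact ⟨T, (mem_fib.mp hT).1, (mem_fib.mp hT).2⟩
  · rintro ⟨T, hT, hB⟩
    exact ⟨T, mem_fib.mpr ⟨hT, hB⟩⟩

/-- Sums over all tables, split by the parity pattern. -/
theorem sum_tables_fib (r : R → ℕ) (c : C → ℕ) (F : (R → C → ℕ) → ℝ) :
    ∑ T ∈ tables r c, F T = ∑ B ∈ patterns r c, ∑ T ∈ fib r c B, F T := by
  unfold patterns fib
  exact (Finset.sum_fiberwise_of_maps_to (fun T hT => Finset.mem_image_of_mem par hT) F).symm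

/-- The mean of `f` over the tables with parity pattern `B`. -/
noncomputable def fibAvg (r : R → ℕ) (c : C → ℕ) (f : (R → C → ℕ) → ℝ) (B : R → C → ℕ) : ℝ :=
  (∑ T ∈ fib r c B, f T) / ((fib r c B).card : ℝ)

/-- Sum of squared deviations from a constant: deviations from the mean plus the squared
distance of the mean to the constant. -/
theorem sum_sq_sub {α : Type*} (S : Finset α) (f : α → ℝ) (a : ℝ) :
    ∑ x ∈ S, (f x - a) ^ 2
      = ∑ x ∈ S, (f x - (∑ y ∈ S, f y) / (S.card : ℝ)) ^ 2
        + (S.card : ℝ) * ((∑ y ∈ S, f y) / (S.card : ℝ) - a) ^ 2 := by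
  rcases Finset.eq_empty_or_nonempty S with hS | hS
  · rw [hS]
    simp
  · have hne : (S.card : ℝ) ≠ 0 :=
      Nat.cast_ne_zero.mpr (Nat.pos_iff_ne_zero.mp (Finset.card_pos.mpr hS))
    obtain ⟨μ, hμ⟩ : ∃ μ : ℝ, μ = (∑ y ∈ S, f y) / (S.card : ℝ) := ⟨_, rfl⟩
    rw [← hμ]
    have hsum : ∑ x ∈ S, f x = (S.card : ℝ) * μ := by
      rw [hμ]
      field_simp
    have e : ∀ x ∈ S, (f x - a) ^ 2 = (f x - μ) ^ 2 + 2 * (μ - a) * f x
        + ((μ - a) ^ 2 - 2 * (μ - a) * μ) := by
      intro x _
      ring
    rw [Finset.sum_congr rfl e, Finset.sum_add_distrib, Finset.sum_add_distrib,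
      ← Finset.mul_sum, hsum, Finset.sum_const, nsmul_eq_mul]
    ring

/-- Analysis of variance along the parity pattern: the sum of squared deviations of `f` from a
constant `a` over all tables is the sum over the parity patterns `B` of the squared deviations
inside the fibre from the fibre mean, plus the number of tables of the fibre times the squared
deviation of the fibre mean from `a`. -/
theorem anova (r : R → ℕ) (c : C → ℕ) (f : (R → C → ℕ) → ℝ) (a : ℝ) :
    ∑ T ∈ tables r c, (f T - a) ^ 2
      = ∑ B ∈ patterns r c, ∑ T ∈ fib r c B, (f T - fibAvg r c f B) ^ 2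
        + ∑ B ∈ patterns r c, ((fib r c B).card : ℝ) * (fibAvg r c f B - a) ^ 2 := by
  rw [sum_tables_fib r c (fun T => (f T - a) ^ 2), ← Finset.sum_add_distrib]
  exact Finset.sum_congr rfl (fun B _ => sum_sq_sub (fib r c B) f a)

/-- The mean of `f` over all tables is the weighted mean of the fibre means. -/
theorem sum_fibAvg (r : R → ℕ) (c : C → ℕ) (f : (R → C → ℕ) → ℝ) :
    ∑ B ∈ patterns r c, ((fib r c B).card : ℝ) * fibAvg r c f B = ∑ T ∈ tables r c, f T := by
  rw [sum_tables_fib r c f]
  refine Finset.sum_congr rfl (fun B hB => ?_)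
  have hne : ((fib r c B).card : ℝ) ≠ 0 :=
    Nat.cast_ne_zero.mpr (Nat.pos_iff_ne_zero.mp (Finset.card_pos.mpr (fib_nonempty_iff.mpr hB)))
  unfold fibAvg
  field_simp

/-- The numbers of tables of the fibres add up to the number of tables. -/
theorem sum_card_fib (r : R → ℕ) (c : C → ℕ) :
    ∑ B ∈ patterns r c, ((fib r c B).card : ℝ) = ((tables r c).card : ℝ) := by
  have h := sum_tables_fib r c (fun _ => (1 : ℝ))
  simp only [Finset.sum_const, nsmul_eq_mul, mul_one] at h
  exact h.symm

/-- A `0/1` matrix whose row and column sums have the parities of `r` and `c` is a parity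
pattern for the margins `r`, `c`, as soon as every row sum `r i` is at least the number of
columns and every column sum `c j` at least the number of rows. -/
theorem isPattern_of_parity {r : R → ℕ} {c : C → ℕ} {B : R → C → ℕ} (hB1 : ∀ i j, B i j ≤ 1)
    (hr : ∀ i, (∑ j, B i j) % 2 = r i % 2) (hc : ∀ j, (∑ i, B i j) % 2 = c j % 2)
    (hrn : ∀ i, Fintype.card C ≤ r i) (hcm : ∀ j, Fintype.card R ≤ c j) : IsPattern r c B := by
  refine ⟨fun i j => Nat.lt_succ_of_le (hB1 i j), fun i => ?_, fun j => ?_⟩
  · have h1 : ∑ j, B i j ≤ Fintype.card C := by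
      calc ∑ j, B i j ≤ ∑ _j : C, 1 := Finset.sum_le_sum (fun j _ => hB1 i j)
        _ = Fintype.card C := by simp
    have h2 := hr i
    have h3 := hrn i
    show ∑ j, B i j + 2 * ((r i - ∑ j, B i j) / 2) = r i
    omega
  · have h1 : ∑ i, B i j ≤ Fintype.card R := by
      calc ∑ i, B i j ≤ ∑ _i : R, 1 := Finset.sum_le_sum (fun i _ => hB1 i j)
        _ = Fintype.card R := by simp
    have h2 := hc j
    have h3 := hcm j
    show ∑ i, B i j + 2 * ((c j - ∑ i, B i j) / 2) = c j
    omega

/-- A parity pattern has the parities of the margins. -/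
theorem IsPattern.parity {r : R → ℕ} {c : C → ℕ} {B : R → C → ℕ} (hB : IsPattern r c B) :
    (∀ i j, B i j ≤ 1) ∧ (∀ i, (∑ j, B i j) % 2 = r i % 2) ∧
      (∀ j, (∑ i, B i j) % 2 = c j % 2) := by
  refine ⟨fun i j => Nat.lt_succ_iff.mp (hB.1 i j), fun i => ?_, fun j => ?_⟩
  · have h := hB.2.1 i
    omega
  · have h := hB.2.2 j
    omega

omit [Fintype R] [Fintype C] in
theorem half_injOn_fib_aux {B T₁ T₂ : R → C → ℕ} (h1 : par T₁ = B) (h2 : par T₂ = B)
    (h : half T₁ = half T₂) : T₁ = T₂ := by
  rw [← dbl_par_half T₁, ← dbl_par_half T₂, h1, h2, h]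

/-- In a parity fibre, the tables with a zero entry at `(i, j)` are at most as many as the
tables of the half class with a zero entry at `(i, j)`. -/
theorem card_fib_zero_le (r : R → ℕ) (c : C → ℕ) (B : R → C → ℕ) (i : R) (j : C) :
    ((fib r c B).filter (fun T => T i j = 0)).card
      ≤ ((tables (hrow r B) (hcol c B)).filter (fun T' => T' i j = 0)).card := by
  apply Finset.card_le_card_of_injOn half
  · intro T hT
    rw [Finset.mem_coe, Finset.mem_filter] at hT
    rw [Finset.mem_coe, Finset.mem_filter]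
    refine ⟨half_mem_of_fib hT.1, ?_⟩
    show T i j / 2 = 0
    rw [hT.2]
  · intro T₁ h₁ T₂ h₂ h
    rw [Finset.mem_coe, Finset.mem_filter] at h₁ h₂
    exact half_injOn_fib_aux (mem_fib.mp h₁.1).2 (mem_fib.mp h₂.1).2 h

/-- Zero-probability transfer: if in the half class at most a fraction `δ` of the tables
vanish at `(i, j)`, the same holds in the parity fibre. -/
theorem fib_zero_le {r : R → ℕ} {c : C → ℕ} {B : R → C → ℕ} (hB : IsPattern r c B) (i : R)
    (j : C) (δ : ℝ)
    (h : (((tables (hrow r B) (hcol c B)).filter (fun T' => T' i j = 0)).card : ℝ)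
      ≤ δ * ((tables (hrow r B) (hcol c B)).card : ℝ)) :
    (((fib r c B).filter (fun T => T i j = 0)).card : ℝ) ≤ δ * ((fib r c B).card : ℝ) := by
  rw [card_fib hB]
  refine le_trans ?_ h
  exact_mod_cast card_fib_zero_le r c B i j

end Vale.Agent.Lib.P328.BP
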