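import Vale.Agent.Lib.P328.AM.CoreStep
import Vale.Agent.Lib.P328.AM.CoreAux
import Vale.Agent.Lib.P328.AM.CoreCross

/-!
# P328 / bit planes: peeling a row or a column off the 2 × 2 heat bath

`PCbox K r c` (`AM/BoxSym.lean`) says that `K` is a Poincare constant of the 2 × 2 heat bath
on the tables with row sums `r` and column sums `c`.

`pcbox_peel_row`: let `m` be a row all of whose entries are forced to be at most `W` (for
every column `j` the row sum `r m` or the column sum `c j` is at most `W`), and let
`K ≥ 4 W^2 n^4 m` (`n` columns, `m` rows) be a Poincare constant of the 2 × 2 heat bath for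
every class of tables without the row `m`, with row sums `r` on the other rows and column
sums `c - x`, where `x` runs over the possible rows `m` (`∑ j, x j = r m`, `x j ≤ c j`).
Then `K` is a Poincare constant of the 2 × 2 heat bath for the margins `r`, `c`.
`pcbox_peel_col` is the same statement for a column, by transposition, and
`pcbox_peel_row_max`, `pcbox_peel_col_max` are the forms with the maximum of the two
constants.
-/

namespace Vale.Agent.Lib.P328.BP

open Finset
open scoped Classical
open Vale.Agent.Lib.P328.CT Vale.Agent.Lib.P335.Bip Vale.Agent.Lib.P328.AM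

universe u v

variable {R : Type u} {C : Type v} [Fintype R] [Fintype C]

/-- The inequality of `peel_inner_box` on the tables with a given row `m`. -/
theorem peel_fiber_box {r : R → ℕ} {c : C → ℕ} (m : R) (K : ℝ) (x : C → ℕ)
    (hx : ∑ j, x j = r m) (hle : ∀ j, x j ≤ c j)
    (hIH : PCbox K (fun u : {u : R // u ≠ m} => r u.1) (fun j => c j - x j))
    (f : (R → C → ℕ) → ℝ) :
    ∑ M ∈ (tables r c).filter (fun M => M m = x),
        (f M - blockAvg r c (Finset.univ.erase m) f M) ^ 2
      ≤ K * ∑ q ∈ (Finset.univ.erase m).powersetCard 2,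
            ∑ p ∈ (Finset.univ : Finset C).powersetCard 2,
              ∑ M ∈ (tables r c).filter (fun M => M m = x),
                (f M - boxAvg r c q p f M) ^ 2 := by
  rw [sum_fiber_glue m x hx hle
    (fun M => (f M - blockAvg r c (Finset.univ.erase m) f M) ^ 2)]
  rw [sum_pairs_erase m (fun q => ∑ p ∈ (Finset.univ : Finset C).powersetCard 2,
    ∑ M ∈ (tables r c).filter (fun M => M m = x), (f M - boxAvg r c q p f M) ^ 2)]
  have h1 : ∀ M' ∈ tables (fun u : {u : R // u ≠ m} => r u.1) (fun j => c j - x j),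
      (f (glue m x M') - blockAvg r c (Finset.univ.erase m) f (glue m x M')) ^ 2
        = (f (glue m x M')
            - (∑ N' ∈ tables (fun u : {u : R // u ≠ m} => r u.1) (fun j => c j - x j),
                f (glue m x N'))
              / ((tables (fun u : {u : R // u ≠ m} => r u.1) (fun j => c j - x j)).card : ℝ))
            ^ 2 := by
    intro M' _
    rw [blockAvg_erase_glue m x hx hle f M']
  rw [Finset.sum_congr rfl h1]
  have h2 : ∀ q' ∈ (Finset.univ : Finset {u : R // u ≠ m}).powersetCard 2,
      ∀ p ∈ (Finset.univ : Finset C).powersetCard 2,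
      ∑ M ∈ (tables r c).filter (fun M => M m = x),
          (f M - boxAvg r c (q'.map (Function.Embedding.subtype _)) p f M) ^ 2
        = ∑ M' ∈ tables (fun u : {u : R // u ≠ m} => r u.1) (fun j => c j - x j),
            (f (glue m x M')
              - boxAvg (fun u : {u : R // u ≠ m} => r u.1) (fun j => c j - x j) q' p
                  (fun N' => f (glue m x N')) M') ^ 2 := by
    intro q' _ p _
    rw [sum_fiber_glue m x hx hle
      (fun M => (f M - boxAvg r c (q'.map (Function.Embedding.subtype _)) p f M) ^ 2)]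
    refine Finset.sum_congr rfl (fun M' _ => ?_)
    rw [CoreStep.boxAvg_glue m x hx hle q' p f M']
  rw [Finset.sum_congr rfl (fun q' hq' => Finset.sum_congr rfl (fun p hp => h2 q' hq' p hp))]
  exact hIH (fun N' => f (glue m x N'))

/-- The variance inside the classes of tables with the same row `m` is controlled by the
2 × 2 terms of the pairs of rows different from `m`, with a common Poincare constant of the
2 × 2 heat bath on the classes of tables without the row `m`. -/
theorem peel_inner_box {r : R → ℕ} {c : C → ℕ} (m : R) (K : ℝ)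
    (hIH : ∀ x : C → ℕ, ∑ j, x j = r m → (∀ j, x j ≤ c j) →
      PCbox K (fun u : {u : R // u ≠ m} => r u.1) (fun j => c j - x j))
    (f : (R → C → ℕ) → ℝ) :
    ∑ M ∈ tables r c, (f M - blockAvg r c (Finset.univ.erase m) f M) ^ 2
      ≤ K * ∑ q ∈ (Finset.univ.erase m).powersetCard 2,
            ∑ p ∈ (Finset.univ : Finset C).powersetCard 2,
              ∑ M ∈ tables r c, (f M - boxAvg r c q p f M) ^ 2 := by
  have hfib : ∀ h : (R → C → ℕ) → ℝ, ∑ M ∈ tables r c, h M
      = ∑ x ∈ (tables r c).image (fun M => M m),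
          ∑ M ∈ (tables r c).filter (fun M => M m = x), h M := by
    intro h
    exact (Finset.sum_fiberwise_of_maps_to
      (fun M hM => Finset.mem_image_of_mem (fun M => M m) hM) h).symm
  have hA : ∑ q ∈ (Finset.univ.erase m).powersetCard 2,
      ∑ p ∈ (Finset.univ : Finset C).powersetCard 2,
        ∑ M ∈ tables r c, (f M - boxAvg r c q p f M) ^ 2
      = ∑ x ∈ (tables r c).image (fun M => M m),
          ∑ q ∈ (Finset.univ.erase m).powersetCard 2,
            ∑ p ∈ (Finset.univ : Finset C).powersetCard 2,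
              ∑ M ∈ (tables r c).filter (fun M => M m = x),
                (f M - boxAvg r c q p f M) ^ 2 := by
    rw [Finset.sum_congr rfl (fun q _ => Finset.sum_congr rfl (fun p _ =>
      hfib (fun M => (f M - boxAvg r c q p f M) ^ 2)))]
    exact (Finset.sum_comm.trans (Finset.sum_congr rfl (fun q _ => Finset.sum_comm))).symm
  rw [hfib (fun M => (f M - blockAvg r c (Finset.univ.erase m) f M) ^ 2), hA, Finset.mul_sum]
  apply Finset.sum_le_sum
  intro x hx
  obtain ⟨M0, hM0, hM0x⟩ := Finset.mem_image.mp hx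
  obtain ⟨hrow, hle⟩ := row_of_mem_tables hM0 m
  have hM0x' : M0 m = x := hM0x
  rw [hM0x'] at hrow hle
  exact peel_fiber_box m K x hrow hle (hIH x hrow hle) f

/-- **Peeling a row.**  If every entry of the row `m` is forced to be at most `W` and
`K ≥ 4 W^2 n^4 m` is a Poincare constant of the 2 × 2 heat bath for all the classes of tables
without the row `m`, then `K` is a Poincare constant of the 2 × 2 heat bath for the margins
`r`, `c` (at least two columns). -/
theorem pcbox_peel_row {r : R → ℕ} {c : C → ℕ} (hC : 2 ≤ Fintype.card C) (W : ℕ) (m : R)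
    (hm : ∀ j, min (r m) (c j) ≤ W) (K : ℝ)
    (hK : 4 * (W : ℝ) ^ 2 * (Fintype.card C : ℝ) ^ 4 * (Fintype.card R : ℝ) ≤ K)
    (hIH : ∀ x : C → ℕ, ∑ j, x j = r m → (∀ j, x j ≤ c j) →
      PCbox K (fun u : {u : R // u ≠ m} => r u.1) (fun j => c j - x j)) :
    PCbox K r c := by
  have hK0 : (0 : ℝ) ≤ 4 * (W : ℝ) ^ 2 * (Fintype.card C : ℝ) ^ 4 * (Fintype.card R : ℝ) := by
    positivity
  intro f
  rw [var_split m f, sum_pairs_split m (fun q => ∑ p ∈ (Finset.univ : Finset C).powersetCard 2,
    ∑ M ∈ tables r c, (f M - boxAvg r c q p f M) ^ 2)]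
  have h1 := peel_inner_box m K hIH f
  have h2 := crossCT_all R C r c m W hm f
  have h3 : ∑ u ∈ Finset.univ.erase m, ∑ M ∈ tables r c, (f M - blockAvg r c {u, m} f M) ^ 2
      ≤ ∑ u ∈ Finset.univ.erase m, ∑ p ∈ (Finset.univ : Finset C).powersetCard 2,
          ∑ M ∈ tables r c, (f M - boxAvg r c {u, m} p f M) ^ 2 :=
    Finset.sum_le_sum (fun u hu => rowpair_le_boxes hC u m (Finset.ne_of_mem_erase hu) f)
  have h4 : (0 : ℝ) ≤ ∑ u ∈ Finset.univ.erase m,
      ∑ M ∈ tables r c, (f M - blockAvg r c {u, m} f M) ^ 2 :=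
    Finset.sum_nonneg (fun u _ => Finset.sum_nonneg (fun M _ => sq_nonneg _))
  have h5 := mul_le_mul_of_nonneg_left h3 (le_trans hK0 hK)
  have h6 := mul_le_mul_of_nonneg_right hK h4
  rw [mul_add]
  linarith

/-- **Peeling a column.**  If every entry of the column `l` is forced to be at most `W` and
`K ≥ 4 W^2 m^4 n` is a Poincare constant of the 2 × 2 heat bath for all the classes of tables
without the column `l`, then `K` is a Poincare constant of the 2 × 2 heat bath for the margins
`r`, `c` (at least two rows). -/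
theorem pcbox_peel_col {r : R → ℕ} {c : C → ℕ} (hR : 2 ≤ Fintype.card R) (W : ℕ) (l : C)
    (hl : ∀ i, min (c l) (r i) ≤ W) (K : ℝ)
    (hK : 4 * (W : ℝ) ^ 2 * (Fintype.card R : ℝ) ^ 4 * (Fintype.card C : ℝ) ≤ K)
    (hIH : ∀ y : R → ℕ, ∑ i, y i = c l → (∀ i, y i ≤ r i) →
      PCbox K (fun i => r i - y i) (fun v : {v : C // v ≠ l} => c v.1)) :
    PCbox K r c :=
  pcbox_transpose (pcbox_peel_row hR W l hl K hK
    (fun y hy hle => pcbox_transpose (hIH y hy hle)))

/-- Peeling a row, with the maximum of the two constants. -/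
theorem pcbox_peel_row_max {r : R → ℕ} {c : C → ℕ} (hC : 2 ≤ Fintype.card C) (W : ℕ) (m : R)
    (hm : ∀ j, min (r m) (c j) ≤ W) (K' : ℝ)
    (hIH : ∀ x : C → ℕ, ∑ j, x j = r m → (∀ j, x j ≤ c j) →
      PCbox K' (fun u : {u : R // u ≠ m} => r u.1) (fun j => c j - x j)) :
    PCbox (max K' (4 * (W : ℝ) ^ 2 * (Fintype.card C : ℝ) ^ 4 * (Fintype.card R : ℝ))) r c :=
  pcbox_peel_row hC W m hm _ (le_max_right _ _)
    (fun x hx hle => (hIH x hx hle).mono (le_max_left _ _))

/-- Peeling a column, with the maximum of the two constants. -/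
theorem pcbox_peel_col_max {r : R → ℕ} {c : C → ℕ} (hR : 2 ≤ Fintype.card R) (W : ℕ) (l : C)
    (hl : ∀ i, min (c l) (r i) ≤ W) (K' : ℝ)
    (hIH : ∀ y : R → ℕ, ∑ i, y i = c l → (∀ i, y i ≤ r i) →
      PCbox K' (fun i => r i - y i) (fun v : {v : C // v ≠ l} => c v.1)) :
    PCbox (max K' (4 * (W : ℝ) ^ 2 * (Fintype.card R : ℝ) ^ 4 * (Fintype.card C : ℝ))) r c :=
  pcbox_peel_col hR W l hl _ (le_max_right _ _)
    (fun y hy hle => (hIH y hy hle).mono (le_max_left _ _))

end Vale.Agent.Lib.P328.BP
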