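import Vale.Agent.Lib.P328.CT.MixAbs

/-!
# P328 / the heat bath as a randomized procedure

`heatKernel I rel` (`CT/MixAbs.lean`) is the transition matrix of the chain that picks `i ∈ I`
uniformly at random and moves to a uniformly random element of the `rel i`-class of the current
state.  Here the same step is written as a probability mass function (`PMF`): a uniform draw
of `i` from `I` followed by a uniform draw from the class.  `step_toReal` says that the
probabilities of this procedure are the entries of `heatKernel I rel`, and `run_toReal` that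
the probabilities of `t` successive steps are the entries of the `t`-th power of the matrix.
-/

namespace Vale.Agent.Lib.P328.BP

open Finset
open scoped Classical ENNReal
open Vale.Agent.Lib.P328.CT

variable {X : Type*} [Fintype X] [DecidableEq X] {ι : Type*}

omit [DecidableEq X] in
/-- The probability of `y` after one step from `x`: a uniform draw of `i` from `I`, then a
uniform draw from the `rel i`-class of `x`. -/
theorem step_apply (I : Finset ι) (hI : I.Nonempty) (rel : ι → X → X → Prop) (x : X)
    (hne : ∀ i, (Finset.univ.filter (fun z => rel i x z)).Nonempty) (y : X) :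
    ((PMF.uniformOfFinset I hI).bind
        (fun i => PMF.uniformOfFinset (Finset.univ.filter (fun z => rel i x z)) (hne i))) y
      = ∑ i ∈ I, (I.card : ℝ≥0∞)⁻¹ * (if rel i x y then
          ((Finset.univ.filter (fun z => rel i x z)).card : ℝ≥0∞)⁻¹ else 0) := by
  rw [PMF.bind_apply, tsum_eq_sum (s := I)]
  · refine Finset.sum_congr rfl (fun i hi => ?_)
    rw [PMF.uniformOfFinset_apply, PMF.uniformOfFinset_apply, if_pos hi]
    simp only [Finset.mem_filter, Finset.mem_univ, true_and]
  · intro i hi
    rw [PMF.uniformOfFinset_apply, if_neg hi, zero_mul]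

omit [DecidableEq X] in
/-- The probabilities of one step of the randomized procedure are the entries of
`heatKernel I rel`. -/
theorem step_toReal (I : Finset ι) (hI : I.Nonempty) (rel : ι → X → X → Prop) (x : X)
    (hne : ∀ i, (Finset.univ.filter (fun z => rel i x z)).Nonempty) (y : X) :
    (((PMF.uniformOfFinset I hI).bind
        (fun i => PMF.uniformOfFinset (Finset.univ.filter (fun z => rel i x z)) (hne i))) y).toReal
      = heatKernel I rel x y := by
  have hIc : (I.card : ℝ≥0∞) ≠ 0 := by
    exact_mod_cast (Finset.card_pos.mpr hI).ne'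
  have hcc : ∀ i, ((Finset.univ.filter (fun z => rel i x z)).card : ℝ≥0∞) ≠ 0 := by
    intro i
    exact_mod_cast (Finset.card_pos.mpr (hne i)).ne'
  have hfin : ∀ i ∈ I, (I.card : ℝ≥0∞)⁻¹ * (if rel i x y then
      ((Finset.univ.filter (fun z => rel i x z)).card : ℝ≥0∞)⁻¹ else 0) ≠ ∞ := by
    intro i _
    apply ENNReal.mul_ne_top (ENNReal.inv_ne_top.mpr hIc)
    split_ifs
    · exact ENNReal.inv_ne_top.mpr (hcc i)
    · exact ENNReal.zero_ne_top
  rw [step_apply, ENNReal.toReal_sum hfin]
  unfold heatKernel
  rw [Finset.sum_div]
  refine Finset.sum_congr rfl (fun i _ => ?_)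
  rw [ENNReal.toReal_mul, ENNReal.toReal_inv, ENNReal.toReal_natCast]
  split_ifs
  · rw [ENNReal.toReal_inv, ENNReal.toReal_natCast]
    ring
  · rw [ENNReal.toReal_zero]
    ring

/-- If the probabilities of one step are the entries of the matrix `K`, the probabilities of
`t` successive steps are the entries of `K ^ t`.  Here `run t x` is any family of probability
mass functions with `run 0 x = PMF.pure x` and `run (t + 1) x = (run t x).bind step`. -/
theorem run_toReal (step : X → PMF X) (run : ℕ → X → PMF X)
    (h0 : ∀ x, run 0 x = PMF.pure x) (hs : ∀ t x, run (t + 1) x = (run t x).bind step)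
    (K : Matrix X X ℝ) (hK : ∀ x y, (step x y).toReal = K x y) (t : ℕ) (x y : X) :
    (run t x y).toReal = (K ^ t) x y := by
  induction t generalizing y with
  | zero =>
    rw [h0, PMF.pure_apply, pow_zero, Matrix.one_apply]
    by_cases h : y = x
    · rw [if_pos h, if_pos h.symm, ENNReal.toReal_one]
    · rw [if_neg h, if_neg (fun h' => h h'.symm), ENNReal.toReal_zero]
  | succ t ih =>
    rw [hs, PMF.bind_apply, tsum_fintype, ENNReal.toReal_sum
      (fun z _ => ENNReal.mul_ne_top (PMF.apply_ne_top _ _) (PMF.apply_ne_top _ _)),
      pow_succ, Matrix.mul_apply]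
    refine Finset.sum_congr rfl (fun z _ => ?_)
    rw [ENNReal.toReal_mul, ih z, hK z y]

/-- Total variation distance to the uniform distribution from an `ℓ¹` bound: half of a sum
that is at most `ε ≥ 0` is at most `ε`. -/
theorem half_le_of_le {s ε : ℝ} (hs : s ≤ ε) (h0 : 0 ≤ s) : 1 / 2 * s ≤ ε := by
  linarith

end Vale.Agent.Lib.P328.BP
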