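import Vale.Agent.Lib.P328.CT.BoxDefs

/-!
# P328 / bit planes: the sampler as a randomized procedure - definitions

* `pre a i`: the sum of the `a j` with `j < i` (prefix sums);
* `nwTable r c`: the north-west corner table, whose entry in row `i` and column `j` is the
  length of the intersection of the intervals `[pre r i, pre r (i + 1))` and
  `[pre c j, pre c (j + 1))`;
* `heatStep x`: one step of the 2 × 2 heat bath from the table `x`, as a probability mass
  function: draw a pair of rows and a pair of columns uniformly at random, then draw uniformly
  at random a table that agrees with `x` outside the 2 × 2 subtable;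
* `heatRun t x`: the law of the table after `t` steps from `x`.
-/

namespace Vale.Agent.Lib.P328.BP

open Finset
open scoped Classical
open Vale.Agent.Lib.P328.CT

/-- Prefix sums: the sum of the `a j` with `j < i`. -/
def pre {k : ℕ} (a : Fin k → ℕ) (i : ℕ) : ℕ := ∑ j : Fin k, if (j : ℕ) < i then a j else 0

/-- The north-west corner table of the margins `r`, `c`. -/
def nwTable {k l : ℕ} (r : Fin k → ℕ) (c : Fin l → ℕ) : Fin k → Fin l → ℕ :=
  fun i j => min (pre r (i + 1)) (pre c (j + 1)) - max (pre r i) (pre c j)

/-- There is a pair of rows and a pair of columns. -/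
theorem pairs_nonempty (m n : ℕ) :
    (((Finset.univ : Finset (Fin (m + 2))).powersetCard 2) ×ˢ
      ((Finset.univ : Finset (Fin (n + 2))).powersetCard 2)).Nonempty := by
  rw [Finset.nonempty_product]
  constructor
  · rw [Finset.powersetCard_nonempty, Finset.card_univ, Fintype.card_fin]
    omega
  · rw [Finset.powersetCard_nonempty, Finset.card_univ, Fintype.card_fin]
    omega

/-- The set of tables that agree with `x` outside a subtable contains `x`. -/
theorem relBox_class_nonempty {R C : Type*} [Fintype R] [Fintype C] {r : R → ℕ} {c : C → ℕ}
    (q : Finset R) (p : Finset C) (x : Tab r c) :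
    (Finset.univ.filter (fun y : Tab r c => RelBox q p x y)).Nonempty :=
  ⟨x, Finset.mem_filter.mpr ⟨Finset.mem_univ x, (relBox_equivalence q p).refl x⟩⟩

/-- One step of the 2 × 2 heat bath from the table `x`: draw a pair of rows and a pair of
columns uniformly at random, then draw uniformly at random a table that agrees with `x` outside
the 2 × 2 subtable. -/
noncomputable def heatStep {m n : ℕ} {r : Fin (m + 2) → ℕ} {c : Fin (n + 2) → ℕ}
    (x : Tab r c) : PMF (Tab r c) :=
  (PMF.uniformOfFinset
    (((Finset.univ : Finset (Fin (m + 2))).powersetCard 2) ×ˢ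
      ((Finset.univ : Finset (Fin (n + 2))).powersetCard 2)) (pairs_nonempty m n)).bind
    fun qp => PMF.uniformOfFinset
      (Finset.univ.filter (fun y : Tab r c => RelBox qp.1 qp.2 x y))
      (relBox_class_nonempty qp.1 qp.2 x)

/-- The law of the table after `t` steps of the 2 × 2 heat bath from the table `x`: start from
the point mass at `x` and apply `t` times the map that sends a law `p` to the law of one more
step, `p.bind heatStep`. -/
noncomputable def heatRun {m n : ℕ} {r : Fin (m + 2) → ℕ} {c : Fin (n + 2) → ℕ}
    (t : ℕ) (x : Tab r c) : PMF (Tab r c) :=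
  (fun p : PMF (Tab r c) => p.bind heatStep)^[t] (PMF.pure x)

/-- After no step the law is the point mass at the starting table. -/
theorem heatRun_zero {m n : ℕ} {r : Fin (m + 2) → ℕ} {c : Fin (n + 2) → ℕ} (x : Tab r c) :
    heatRun 0 x = PMF.pure x := rfl

/-- One more step: draw the table after `t` steps, then make one step from it. -/
theorem heatRun_succ {m n : ℕ} {r : Fin (m + 2) → ℕ} {c : Fin (n + 2) → ℕ} (t : ℕ)
    (x : Tab r c) : heatRun (t + 1) x = (heatRun t x).bind heatStep :=
  Function.iterate_succ_apply' _ _ _

end Vale.Agent.Lib.P328.BP
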