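import Vale.Agent.Lib.P328.AM.BoxSym

/-!
# P328 / bit planes: the interface statement of the halving step

`PCbox K r c` (`AM/BoxSym.lean`) says that `K` is a Poincare constant of the 2 × 2 heat bath
on the tables with row sums `r` and column sums `c`.

`HalveStatement`: the halving step.  The parity pattern of a table is the matrix of its
entries modulo 2; the tables with a given parity pattern `B` correspond, by halving every
entry, to the tables of the half class, whose row sums are the halves of `r i` minus the
`i`-th row sum of `B` and whose column sums are the halves of `c j` minus the `j`-th column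
sum of `B`.  Let `m ≥ 2` be the number of rows, `n ≥ 2` the number of columns and
`d = (m - 1) * (n - 1)`.  If every row sum is at least `n`, every column sum is at least `m`,
and for every 0/1 matrix `B` with the parities of the margins the half class has the Poincare
constant `K'` and the fraction of its tables with a zero in any given cell is at most `δ`,
where `8 * d * δ ≤ 1`, then `K' * (1 + 8 * d * δ) + 6` is a Poincare constant of the 2 × 2
heat bath for the margins `r`, `c`.

The zero-probability lemma is `zero_prob` in `BP/Zero.lean`.
-/

namespace Vale.Agent.Lib.P328.BP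

open Finset
open scoped Classical
open Vale.Agent.Lib.P328.CT Vale.Agent.Lib.P328.AM

universe u v

/-- The halving step, for all classes of tables on row types of the universe `u` and column
types of the universe `v`. -/
def HalveStatement : Prop :=
  ∀ (R : Type u) [Fintype R] (C : Type v) [Fintype C] (r : R → ℕ) (c : C → ℕ) (K' δ : ℝ),
    2 ≤ Fintype.card R → 2 ≤ Fintype.card C →
    (∀ i, Fintype.card C ≤ r i) → (∀ j, Fintype.card R ≤ c j) → 0 ≤ K' → 0 ≤ δ →
    8 * (((Fintype.card R - 1) * (Fintype.card C - 1) : ℕ) : ℝ) * δ ≤ 1 →
    (∀ B : R → C → ℕ, (∀ i j, B i j ≤ 1) → (∀ i, (∑ j, B i j) % 2 = r i % 2) →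
        (∀ j, (∑ i, B i j) % 2 = c j % 2) →
        PCbox K' (fun i => (r i - ∑ j, B i j) / 2) (fun j => (c j - ∑ i, B i j) / 2) ∧
        ∀ i j, (((tables (fun i => (r i - ∑ j, B i j) / 2)
              (fun j => (c j - ∑ i, B i j) / 2)).filter (fun T => T i j = 0)).card : ℝ)
            ≤ δ * ((tables (fun i => (r i - ∑ j, B i j) / 2)
              (fun j => (c j - ∑ i, B i j) / 2)).card : ℝ)) →
    PCbox ((1 + 8 * (((Fintype.card R - 1) * (Fintype.card C - 1) : ℕ) : ℝ) * δ) * K' + 6) r c

end Vale.Agent.Lib.P328.BP
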