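import Vale.Agent.Lib.P328.BP.Peel
import Vale.Agent.Lib.P328.BP.Zero
import Vale.Agent.Lib.P328.BP.Arith
import Vale.Agent.Lib.P328.BP.Statements

/-!
# P328 / bit planes: the induction and the polynomial Poincare constant

`PCbox K r c` (`AM/BoxSym.lean`) says that `K` is a Poincare constant of the 2 × 2 heat bath
on the tables with row sums `r` and column sums `c`.

Given the halving step `HalveStatement` (`BP/Statements.lean`), every class of tables with at
most `M` rows and at most `M` columns (`M ≥ 2`) whose total is less than `2 ^ s` has the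
Poincare constant `bnd M L0 s`, the product of the power `s` of `1 + 1 / L0` and of
`4 * W1 ^ 2 * M ^ 5 + 6 * s`, where `W1 = 17 * M ^ 5 * L0` (`pcbox_bnd`, for every `L0 ≥ 1`).
The proof is an induction on the number of rows plus the number of columns plus the total:
a class with at most one row or at most one column has at most one table; a row or a column
with sum less than `W1` is peeled off (`pcbox_peel_row`, `pcbox_peel_col`); if all row sums
and all column sums are at least `W1`, the halving step applies with `δ = 1 / (8 * d * L0)`,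
`d` the number of free cells, the zero-probability lemma `zero_prob` giving the bound `δ` for
the half classes.

`pcbox_poly`: for all margins, `3500 * M ^ 15 * b ^ 2` is a Poincare constant of the 2 × 2
heat bath, where `M` is the maximum of the number of rows, the number of columns and 2, and
`b` is the number of binary digits of the total `∑ i, r i`.
-/

namespace Vale.Agent.Lib.P328.BP

open Finset
open scoped Classical
open Vale.Agent.Lib.P328.CT Vale.Agent.Lib.P335.Bip Vale.Agent.Lib.P328.AM

universe u v

/-- The Poincare constant of the classes with at most `M` rows and columns and total less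
than `2 ^ s`. -/
noncomputable def bnd (M L0 s : ℕ) : ℝ :=
  (1 + 1 / (L0 : ℝ)) ^ s
    * (4 * (17 * (M : ℝ) ^ 5 * (L0 : ℝ)) ^ 2 * (M : ℝ) ^ 5 + 6 * (s : ℝ))

theorem bnd_A_nonneg (M L0 : ℕ) :
    (0 : ℝ) ≤ 4 * (17 * (M : ℝ) ^ 5 * (L0 : ℝ)) ^ 2 * (M : ℝ) ^ 5 := by positivity

theorem bnd_nonneg (M L0 s : ℕ) : 0 ≤ bnd M L0 s :=
  Arith.bound_nonneg L0 (bnd_A_nonneg M L0) s

/-- With at most one table every nonnegative constant is a Poincare constant. -/
theorem pcbox_of_card_le_one {R : Type u} {C : Type v} [Fintype R] [Fintype C] {K : ℝ}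
    (hK : 0 ≤ K) (r : R → ℕ) (c : C → ℕ) (h : (tables r c).card ≤ 1) : PCbox K r c := by
  intro f
  have h0 : ∑ M ∈ tables r c,
      (f M - (∑ N ∈ tables r c, f N) / ((tables r c).card : ℝ)) ^ 2 = 0 := by
    rcases Nat.le_one_iff_eq_zero_or_eq_one.mp h with h0 | h1
    · rw [Finset.card_eq_zero.mp h0]
      simp
    · obtain ⟨T, hT⟩ := Finset.card_eq_one.mp h1
      rw [hT]
      simp
  rw [h0]
  exact mul_nonneg hK (Finset.sum_nonneg (fun q _ => Finset.sum_nonneg (fun p _ =>
    Finset.sum_nonneg (fun M _ => sq_nonneg _))))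

/-- With at most one row or at most one column there is at most one table. -/
theorem tables_card_le_one_of_line {R : Type u} {C : Type v} [Fintype R] [Fintype C]
    (r : R → ℕ) (c : C → ℕ) (h : Fintype.card R ≤ 1 ∨ Fintype.card C ≤ 1) :
    (tables r c).card ≤ 1 := by
  rw [Finset.card_le_one]
  intro T hT T' hT'
  rw [mem_tables] at hT hT'
  funext i j
  rcases h with h | h
  · have hsub : Subsingleton R := Fintype.card_le_one_iff_subsingleton.mp h
    have h1 := hT.2 j
    have h2 := hT'.2 j
    rw [Fintype.sum_subsingleton _ i] at h1 h2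
    rw [h1, h2]
  · have hsub : Subsingleton C := Fintype.card_le_one_iff_subsingleton.mp h
    have h1 := hT.1 i
    have h2 := hT'.1 i
    rw [Fintype.sum_subsingleton _ j] at h1 h2
    rw [h1, h2]

/-- With total zero there is at most one table. -/
theorem tables_card_le_one_of_total {R : Type u} {C : Type v} [Fintype R] [Fintype C]
    (r : R → ℕ) (c : C → ℕ) (h : ∑ i, r i = 0) : (tables r c).card ≤ 1 := by
  rw [Finset.card_le_one]
  have hr : ∀ i, r i = 0 := fun i =>
    (Finset.sum_eq_zero_iff.mp h) i (Finset.mem_univ i)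
  have hz : ∀ T ∈ tables r c, ∀ i j, T i j = 0 := by
    intro T hT i j
    rw [mem_tables] at hT
    have h1 := hT.1 i
    rw [hr i] at h1
    exact (Finset.sum_eq_zero_iff.mp h1) j (Finset.mem_univ j)
  intro T hT T' hT'
  funext i j
  rw [hz T hT i j, hz T' hT' i j]

/-- **The induction.**  Given the halving step, every class of tables with at most `M` rows,
at most `M` columns and total less than `2 ^ s` has the Poincare constant `bnd M L0 s`. -/
theorem pcbox_bnd (hH : HalveStatement.{u, v}) (M L0 : ℕ) (hL : 1 ≤ L0) :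
    ∀ (k : ℕ) (R : Type u) [Fintype R] (C : Type v) [Fintype C] (r : R → ℕ) (c : C → ℕ)
      (s : ℕ), Fintype.card R ≤ M → Fintype.card C ≤ M → ∑ i, r i < 2 ^ s →
      Fintype.card R + Fintype.card C + ∑ i, r i ≤ k → PCbox (bnd M L0 s) r c := by
  intro k
  induction k with
  | zero =>
    intro R _ C _ r c s _ _ _ hk
    exact pcbox_of_card_le_one (bnd_nonneg M L0 s) r c
      (tables_card_le_one_of_line r c (Or.inl (by omega)))
  | succ k ih =>
    intro R _ C _ r c s hRM hCM hs hk
    by_cases htriv : Fintype.card R ≤ 1 ∨ Fintype.card C ≤ 1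
    · exact pcbox_of_card_le_one (bnd_nonneg M L0 s) r c
        (tables_card_le_one_of_line r c htriv)
    have hR2 : 2 ≤ Fintype.card R := by omega
    have hC2 : 2 ≤ Fintype.card C := by omega
    have hWcast : ((17 * M ^ 5 * L0 : ℕ) : ℝ) = 17 * (M : ℝ) ^ 5 * (L0 : ℝ) := by
      push_cast
      ring
    by_cases hrow : ∃ m, r m < 17 * M ^ 5 * L0
    · -- peel a row
      obtain ⟨m, hm⟩ := hrow
      refine pcbox_peel_row hC2 (17 * M ^ 5 * L0) m
        (fun j => le_trans (min_le_left _ _) hm.le) (bnd M L0 s) ?_ ?_
      · rw [hWcast]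
        exact le_trans (Arith.peel_const_le hRM hCM _)
          (Arith.le_bound L0 (bnd_A_nonneg M L0) s)
      · intro x _ _
        have hcard' : Fintype.card {u : R // u ≠ m} = Fintype.card R - 1 := by
          rw [Fintype.card_subtype_compl, Fintype.card_subtype_eq]
        have hsum := sum_rows_split m r
        exact ih {u : R // u ≠ m} C (fun u => r u.1) (fun j => c j - x j) s
          (by omega) hCM (by omega) (by omega)
    by_cases hcol : ∃ l, c l < 17 * M ^ 5 * L0
    · -- peel a column
      obtain ⟨l, hl⟩ := hcol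
      refine pcbox_peel_col hR2 (17 * M ^ 5 * L0) l
        (fun i => le_trans (min_le_left _ _) hl.le) (bnd M L0 s) ?_ ?_
      · rw [hWcast]
        exact le_trans (Arith.peel_const_le hCM hRM _)
          (Arith.le_bound L0 (bnd_A_nonneg M L0) s)
      · intro y _ _
        have hcard' : Fintype.card {v : C // v ≠ l} = Fintype.card C - 1 := by
          rw [Fintype.card_subtype_compl, Fintype.card_subtype_eq]
        have hsum : ∑ i, (r i - y i) ≤ ∑ i, r i :=
          Finset.sum_le_sum (fun i _ => Nat.sub_le _ _)
        exact ih R {v : C // v ≠ l} (fun i => r i - y i) (fun v => c v.1) s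
          hRM (by omega) (by omega) (by omega)
    -- all margins are large: halve
    push Not at hrow hcol
    have hM2 : 2 ≤ M := le_trans hR2 hRM
    have hW1 : M ≤ 17 * M ^ 5 * L0 := by
      have h5 : M ≤ M ^ 5 := Nat.le_self_pow (by norm_num) M
      calc M ≤ M ^ 5 := h5
        _ = 1 * M ^ 5 * 1 := by ring
        _ ≤ 17 * M ^ 5 * L0 :=
          Nat.mul_le_mul (Nat.mul_le_mul (by norm_num) (le_refl _)) hL
    obtain ⟨i₀⟩ : Nonempty R := Fintype.card_pos_iff.mp (by omega)
    have hN1 : 1 ≤ ∑ i, r i := by
      have h1 : r i₀ ≤ ∑ i, r i :=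
        Finset.single_le_sum (fun _ _ => Nat.zero_le _) (Finset.mem_univ i₀)
      have h2 := hrow i₀
      omega
    obtain ⟨t, rfl⟩ : ∃ t, s = t + 1 := by
      rcases s with _ | t
      · rw [pow_zero] at hs
        omega
      · exact ⟨t, rfl⟩
    have hd1 : 1 ≤ (Fintype.card R - 1) * (Fintype.card C - 1) :=
      Nat.mul_pos (by omega) (by omega)
    have hdM : (Fintype.card R - 1) * (Fintype.card C - 1) ≤ M ^ 2 :=
      Arith.free_cells_le hRM hCM
    have key := hH R C r c (bnd M L0 t)
      (1 / (8 * (((Fintype.card R - 1) * (Fintype.card C - 1) : ℕ) : ℝ) * (L0 : ℝ)))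
      hR2 hC2 (fun i => le_trans hCM (le_trans hW1 (hrow i)))
      (fun j => le_trans hRM (le_trans hW1 (hcol j))) (bnd_nonneg M L0 t)
      (Arith.delta_nonneg _ L0)
      (by
        rw [Arith.eight_d_delta hd1]
        have hL' : (1 : ℝ) ≤ (L0 : ℝ) := by exact_mod_cast hL
        rw [div_le_one (by linarith)]
        exact hL')
      (by
        intro B hB1 _ _
        have hrowB : ∀ i, ∑ j, B i j ≤ M := fun i =>
          le_trans (le_trans (Finset.sum_le_sum (fun j _ => hB1 i j))
            (by simp)) hCM
        have hcolB : ∀ j, ∑ i, B i j ≤ M := fun j =>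
          le_trans (le_trans (Finset.sum_le_sum (fun i _ => hB1 i j))
            (by simp)) hRM
        constructor
        · have h2 : 2 * ∑ i, (r i - ∑ j, B i j) / 2 ≤ ∑ i, r i := by
            rw [Finset.mul_sum]
            exact Finset.sum_le_sum (fun i _ =>
              le_trans (Nat.mul_div_le _ 2) (Nat.sub_le _ _))
          have hpow : 2 ^ (t + 1) = 2 * 2 ^ t := by ring
          exact ih R C _ _ t hRM hCM (by omega) (by omega)
        · intro i j
          have hz := zero_prob (fun i => (r i - ∑ j, B i j) / 2)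
            (fun j => (c j - ∑ i, B i j) / 2) i j
            (8 * ((Fintype.card R - 1) * (Fintype.card C - 1)) ^ 2 * L0) hR2 hC2
            (Arith.half_margin hL hdM (by omega) (hrow i) (hrowB i))
            (Arith.half_margin hL hdM (by omega) (hcol j) (hcolB j))
          exact Arith.zero_count_le hd1 hL hz)
    refine key.mono ?_
    rw [Arith.one_add_eight_d_delta hd1]
    exact Arith.bound_step L0 _ t

/-- **The polynomial Poincare constant.**  Given the halving step, for all margins
`3500 * M ^ 15 * b ^ 2` is a Poincare constant of the 2 × 2 heat bath, where `M` is the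
maximum of the number of rows, the number of columns and 2, and `b` is the number of binary
digits of the total. -/
theorem pcbox_poly (hH : HalveStatement.{u, v}) (R : Type u) [Fintype R] (C : Type v)
    [Fintype C] (r : R → ℕ) (c : C → ℕ) :
    PCbox (3500 * ((max (max (Fintype.card R) (Fintype.card C)) 2 : ℕ) : ℝ) ^ 15
      * ((Nat.size (∑ i, r i) : ℕ) : ℝ) ^ 2) r c := by
  rcases Nat.eq_zero_or_pos (∑ i, r i) with h0 | hpos
  · exact pcbox_of_card_le_one (by positivity) r c (tables_card_le_one_of_total r c h0)
  · have hL : 1 ≤ Nat.size (∑ i, r i) := Nat.size_pos.mpr hpos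
    have hM : 1 ≤ max (max (Fintype.card R) (Fintype.card C)) 2 :=
      le_trans (by norm_num) (le_max_right _ _)
    have h := pcbox_bnd hH (max (max (Fintype.card R) (Fintype.card C)) 2)
      (Nat.size (∑ i, r i)) hL _ R C r c (Nat.size (∑ i, r i))
      (le_trans (le_max_left _ _) (le_max_left _ _))
      (le_trans (le_max_right _ _) (le_max_left _ _))
      (Nat.lt_size_self _) (le_refl _)
    exact h.mono (Arith.bound_le_final hM hL (le_refl _))

/-- The polynomial Poincare constant for at least two rows: `3500 * M ^ 15 * b ^ 2` with `M`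
the maximum of the number of rows and the number of columns. -/
theorem pcbox_poly_two (hH : HalveStatement.{u, v}) {R : Type u} [Fintype R] {C : Type v}
    [Fintype C] (r : R → ℕ) (c : C → ℕ) (hR : 2 ≤ Fintype.card R) :
    PCbox (3500 * ((max (Fintype.card R) (Fintype.card C) : ℕ) : ℝ) ^ 15
      * ((Nat.size (∑ i, r i) : ℕ) : ℝ) ^ 2) r c := by
  have h := pcbox_poly hH R C r c
  rwa [max_eq_left (le_trans hR (le_max_left _ _))] at h

/-- The polynomial constant is at least one when the total is positive. -/
theorem one_le_poly_const {M N : ℕ} (hM : 1 ≤ M) (hN : 1 ≤ N) :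
    (1 : ℝ) ≤ 3500 * (M : ℝ) ^ 15 * ((Nat.size N : ℕ) : ℝ) ^ 2 := by
  have hL : 1 ≤ Nat.size N := Nat.size_pos.mpr hN
  have hM' : (1 : ℝ) ≤ (M : ℝ) := by exact_mod_cast hM
  have hL' : (1 : ℝ) ≤ ((Nat.size N : ℕ) : ℝ) := by exact_mod_cast hL
  have h15 : (1 : ℝ) ≤ (M : ℝ) ^ 15 := one_le_pow₀ hM'
  have h2 : (1 : ℝ) ≤ ((Nat.size N : ℕ) : ℝ) ^ 2 := one_le_pow₀ hL'
  have h3 : (1 : ℝ) ≤ (M : ℝ) ^ 15 * ((Nat.size N : ℕ) : ℝ) ^ 2 := by nlinarith
  nlinarith

end Vale.Agent.Lib.P328.BP
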