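import Vale.Agent.Lib.P328.BP.SamplerStep
import Vale.Agent.Lib.P328.BP.NWCorner
import Vale.Agent.Lib.P328.BP.Top
import Vale.Agent.Lib.P328.BP.Halve
import Vale.Agent.Lib.P328.BP.InputLength

/-!
# P328 / bit planes: the sampler as a randomized procedure - total variation bound

For all margins `r`, `c` on `m + 2` rows and `n + 2` columns, with input length
`L = (m + 2) + (n + 2) + ∑ i, logb 2 (r i + 2) + ∑ j, logb 2 (c j + 2)`: after
`t ≥ 875 * L ^ 21 * (L ^ 2 + log (1 / ε))` steps of the 2 × 2 heat bath from any table, the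
law `heatRun t x` of the table is within `ε` of the uniform law in total variation distance.
-/

namespace Vale.Agent.Lib.P328.BP

open Finset
open scoped Classical
open Vale.Agent.Lib.P328.CT Vale.Agent.Lib.P328.AM

/-- The total variation distance between the law of the table after `t` steps and the uniform
law is at most `ε` as soon as `t ≥ 875 * L ^ 21 * (L ^ 2 + log (1 / ε))`. -/
theorem heatRun_tv {m n : ℕ} (r : Fin (m + 2) → ℕ) (c : Fin (n + 2) → ℕ) (L : ℝ)
    (hL : L = ((m : ℝ) + 2) + ((n : ℝ) + 2) + ∑ i, Real.logb 2 ((r i : ℝ) + 2)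
      + ∑ j, Real.logb 2 ((c j : ℝ) + 2))
    (x : Tab r c) (ε : ℝ) (hε : 0 < ε) (t : ℕ)
    (ht : 875 * L ^ 21 * (L ^ 2 + Real.log (1 / ε)) ≤ t) :
    1 / 2 * ∑ y, |(heatRun t x y).toReal - 1 / (Fintype.card (Tab r c) : ℝ)| ≤ ε := by
  have hR : 2 ≤ Fintype.card (Fin (m + 2)) := by
    rw [Fintype.card_fin]
    omega
  have hC : 2 ≤ Fintype.card (Fin (n + 2)) := by
    rw [Fintype.card_fin]
    omega
  have hL' : L = inLen r c := by
    rw [hL]
    unfold inLen
    rw [Fintype.card_fin, Fintype.card_fin]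
    push_cast
    ring
  rw [hL'] at ht
  have h := pcbox_time_input_length
    (pcbox_poly halveStatement (Fin (m + 2)) (Fin (n + 2)) r c)
    (bp_const_le_inLen r c hR hC) hR hC ε hε t ht x
  have e : ∑ y, |(heatRun t x y).toReal - 1 / (Fintype.card (Tab r c) : ℝ)|
      = ∑ y, |(heatKernel (((Finset.univ : Finset (Fin (m + 2))).powersetCard 2) ×ˢ
            ((Finset.univ : Finset (Fin (n + 2))).powersetCard 2))
          (fun qp => RelBox (r := r) (c := c) qp.1 qp.2) ^ t) x y
          - 1 / (Fintype.card (Tab r c) : ℝ)| :=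
    Finset.sum_congr rfl (fun y _ => by rw [heatRun_toReal t x y])
  rw [e]
  linarith

end Vale.Agent.Lib.P328.BP
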