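import Vale.Agent.Lib.P328.BP.SamplerDefs
import Vale.Agent.Lib.P328.CT.MixAbs
import Vale.Agent.Lib.P328.BP.PmfKernel

/-!
# P328 / bit planes: the randomized procedure has the transition matrix `heatKernel`

The probability that one step of `heatStep` leads from `x` to `y` is the entry of the
transition matrix `heatKernel` of the 2 × 2 heat bath, and the law after `t` steps is the row
of its `t`-th power.
-/

namespace Vale.Agent.Lib.P328.BP

open Finset
open scoped Classical
open Vale.Agent.Lib.P328.CT

/-- One step: the probability of `y` is the entry of the transition matrix. -/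
theorem heatStep_toReal {m n : ℕ} {r : Fin (m + 2) → ℕ} {c : Fin (n + 2) → ℕ}
    (x y : Tab r c) :
    (heatStep x y).toReal
      = heatKernel (((Finset.univ : Finset (Fin (m + 2))).powersetCard 2) ×ˢ
            ((Finset.univ : Finset (Fin (n + 2))).powersetCard 2))
          (fun qp => RelBox (r := r) (c := c) qp.1 qp.2) x y :=
  step_toReal _ (pairs_nonempty m n) (fun qp => RelBox (r := r) (c := c) qp.1 qp.2) x
    (fun qp => relBox_class_nonempty qp.1 qp.2 x) y

/-- `t` steps: the probability of `y` is the entry of the `t`-th power of the transition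
matrix. -/
theorem heatRun_toReal {m n : ℕ} {r : Fin (m + 2) → ℕ} {c : Fin (n + 2) → ℕ} (t : ℕ)
    (x y : Tab r c) :
    (heatRun t x y).toReal
      = (heatKernel (((Finset.univ : Finset (Fin (m + 2))).powersetCard 2) ×ˢ
            ((Finset.univ : Finset (Fin (n + 2))).powersetCard 2))
          (fun qp => RelBox (r := r) (c := c) qp.1 qp.2) ^ t) x y :=
  run_toReal heatStep heatRun heatRun_zero heatRun_succ _ heatStep_toReal t x y

end Vale.Agent.Lib.P328.BP
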